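import Vale.Agent.Lib.P171b.Select

open MeasureTheory Set Filter Topology
open scoped ENNReal Nat

namespace Vale.Agent.Lib.P171b

/-- Iterated integrals are integrals over the product of copies of the region. -/
theorem II_eq_pi (S : Set E3) (n : ℕ) :
    ∀ {F : List E3 → ℝ≥0∞}, LM F →
      II volume S n F = ∫⁻ x in Set.pi univ (fun _ : Fin n => S), F (List.ofFn x) := by
  induction n with
  | zero =>
    intro F _
    have h1 : (fun x : Fin 0 → E3 => F (List.ofFn x)) = fun _ => F [] := by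
      funext x
      simp
    rw [h1, setLIntegral_const]
    simp [II, volume_pi]
  | succ n ih =>
    intro F hF
    simp only [II]
    have h1 : ∀ y : E3, II volume S n (fun l => F (y :: l))
        = ∫⁻ x in Set.pi univ (fun _ : Fin n => S), F (y :: List.ofFn x) :=
      fun y => ih (hF.cons y)
    simp only [h1]
    have mp := (volume_preserving_piFinSuccAbove (fun _ : Fin (n + 1) => E3) 0).symm
    have h2 := mp.setLIntegral_comp_preimage_emb
      (MeasurableEquiv.piFinSuccAbove (fun _ : Fin (n + 1) => E3) 0).symm.measurableEmbedding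
      (fun x => F (List.ofFn x)) (Set.pi univ (fun _ : Fin (n + 1) => S))
    rw [← h2]
    have hpre : (MeasurableEquiv.piFinSuccAbove (fun _ : Fin (n + 1) => E3) 0).symm ⁻¹'
        (Set.pi univ (fun _ : Fin (n + 1) => S)) = S ×ˢ Set.pi univ (fun _ : Fin n => S) := by
      ext ⟨y, x⟩
      simp only [mem_preimage, Set.mem_pi, mem_univ, forall_true_left, mem_prod]
      constructor
      · intro h
        refine ⟨?_, fun i => ?_⟩
        · simpa [MeasurableEquiv.piFinSuccAbove] using h 0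
        · simpa [MeasurableEquiv.piFinSuccAbove] using h i.succ
      · rintro ⟨hy, hx⟩ i
        refine Fin.cases ?_ (fun j => ?_) i
        · simpa [MeasurableEquiv.piFinSuccAbove] using hy
        · simpa [MeasurableEquiv.piFinSuccAbove] using hx j
    rw [hpre, Measure.volume_eq_prod, ← Measure.prod_restrict]
    have hmeas : Measurable (fun p : E3 × (Fin n → E3) => F (p.1 :: List.ofFn p.2)) :=
      hF.comp (MList.cons measurable_fst (MList.ofFn measurable_snd))
    have h3 : (fun p : E3 × (Fin n → E3) => F (List.ofFn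
        ((MeasurableEquiv.piFinSuccAbove (fun _ : Fin (n + 1) => E3) 0).symm p)))
        = fun p => F (p.1 :: List.ofFn p.2) := by
      funext ⟨y, x⟩
      congr 1
      rw [List.ofFn_succ]
      simp [MeasurableEquiv.piFinSuccAbove]
    rw [h3, lintegral_prod _ hmeas.aemeasurable]

theorem sum_Ioi_eq {N : ℕ} (f : Fin N → ℝ) (i : Fin N) :
    ∑ j ∈ Finset.Ioi i, f j = ∑ j, if i < j then f j else 0 := by
  rw [← Finset.sum_filter]
  congr 1
  ext j
  simp

/-- The energy of the statement in terms of lists. -/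
theorem U_eq_En (f : ℝ → ℝ) {N : ℕ} (x : Fin N → E3) :
    U f x = En (fun a b => f ‖a - b‖) (List.ofFn x) := by
  induction N with
  | zero => simp [U]
  | succ N ih =>
    have h1 := ih (fun i => x i.succ)
    rw [List.ofFn_succ, En_cons, ← h1, List.map_ofFn, List.sum_ofFn]
    unfold U
    simp only [sum_Ioi_eq]
    rw [Fin.sum_univ_succ]
    congr 1
    · rw [Fin.sum_univ_succ]
      simp
    · refine Finset.sum_congr rfl fun i _ => ?_
      rw [Fin.sum_univ_succ]
      simp

/-- The potential with coefficients `c`. -/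
noncomputable def pot (c : ℕ → ℝ) (r : ℝ) : ℝ := phis r - kacA c r

theorem PhiC_eq_pot (c : ℕ → ℝ) : PhiC c = fun a b => pot c ‖a - b‖ := rfl

theorem term_eq (c : ℕ → ℝ) {z : ℝ} (hz : 0 < z) (S : Set E3) (N : ℕ) :
    ∫⁻ x in Set.pi univ (fun _ : Fin N => S), W c (Real.log z) (List.ofFn x)
      = ENNReal.ofReal (z ^ N) *
        ∫⁻ x in Set.pi univ (fun _ : Fin N => S),
          ENNReal.ofReal (Real.exp (-1 * U (pot c) x)) := by
  rw [← lintegral_const_mul' _ _ ENNReal.ofReal_ne_top]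
  refine lintegral_congr fun x => ?_
  simp only [W, WH, Ham, Tot_const, List.length_ofFn]
  rw [← ENNReal.ofReal_mul (by positivity)]
  congr 1
  rw [U_eq_En, ← PhiC_eq_pot]
  have : z ^ N = Real.exp (Real.log z * N) := by
    rw [mul_comm, Real.exp_nat_mul, Real.exp_log hz]
  rw [this, ← Real.exp_add]
  congr 1
  ring

theorem measurableSet_Cube (L : ℝ) : MeasurableSet (Cube L) := by
  have : Cube L = ⋂ i, {x : E3 | 0 ≤ x i ∧ x i ≤ L} := by
    ext x
    simp [Cube]
  rw [this]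
  refine MeasurableSet.iInter fun i => ?_
  exact (measurableSet_le measurable_const (measurable_coord i)).inter
    (measurableSet_le (measurable_coord i) measurable_const)

/-- The grand partition function of the statement is the grand sum of the proof. -/
theorem GrandZ_eq {c : ℕ → ℝ} (hc : Adm c) {z : ℝ} (hz : 0 < z) (L : ℝ) :
    GrandZ (pot c) 1 L z = Xi volume (Cube L) (W c (Real.log z)) := by
  unfold GrandZ Xi Z
  refine tsum_congr fun N => ?_
  rw [II_eq_pi (Cube L) N (LM_W hc _), term_eq c hz (Cube L)]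
  ring

theorem Cube_subset (L : ℝ) : Cube L ⊆ Lam (⌊L⌋₊ + 1) := by
  intro x hx i
  refine ⟨(hx i).1, lt_of_le_of_lt (hx i).2 ?_⟩
  show L < ((⌊L⌋₊ + 1 : ℕ) : ℝ)
  push_cast
  exact Nat.lt_floor_add_one L

theorem Lam_subset_Cube {L : ℝ} (hL : 0 ≤ L) : Lam ⌊L⌋₊ ⊆ Cube L := by
  intro x hx i
  refine ⟨(hx i).1, ?_⟩
  have h1 : x i < (⌊L⌋₊ : ℝ) := (hx i).2
  exact (h1.trans_le (Nat.floor_le hL)).le

theorem GrandZ_ne_top {c : ℕ → ℝ} (hc : Adm c) {z : ℝ} (hz : 0 < z) (L : ℝ) :
    GrandZ (pot c) 1 L z ≠ ⊤ := by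
  rw [GrandZ_eq hc hz]
  exact ne_top_of_le_ne_top (XiC_ne_top hc _ (⌊L⌋₊ + 1)) (Xi_mono_set volume (Cube_subset L) _)

/-- The pressure limit for real side lengths and closed cubes. -/
theorem tendsto_GrandZ {c : ℕ → ℝ} (hc : Adm c) {z : ℝ} (hz : 0 < z) :
    Tendsto (fun L : ℝ => (L ^ 3)⁻¹ * Real.log (GrandZ (pot c) 1 L z).toReal) atTop
      (𝓝 (Pr c (Real.log z))) := by
  set μ := Real.log z with hμ
  have hlim := tendsto_fC hc μ
  have hn1 : Tendsto (fun n : ℕ => ((n : ℝ) / ((n : ℝ) + 1)) ^ 3) atTop (𝓝 1) := by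
    have := (tendsto_natCast_div_add_atTop (1 : ℝ)).pow 3
    simpa using this
  have hlow : Tendsto (fun n : ℕ => fC c μ n / ((n : ℝ) + 1) ^ 3) atTop (𝓝 (Pr c μ)) := by
    have h1 := hlim.mul hn1
    rw [mul_one] at h1
    refine h1.congr' ?_
    filter_upwards [eventually_ge_atTop 1] with n hn
    have hn0 : (0 : ℝ) < n := by
      have : 0 < n := by omega
      exact_mod_cast this
    field_simp
  have hn2 : Tendsto (fun n : ℕ => (1 + 1 / (n : ℝ)) ^ 3) atTop (𝓝 1) := by
    have h2 := ((tendsto_const_nhds (x := (1 : ℝ))).add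
      (tendsto_one_div_atTop_nhds_zero_nat (𝕜 := ℝ))).pow 3
    simpa using h2
  have hup : Tendsto (fun n : ℕ => fC c μ (n + 1) / (n : ℝ) ^ 3) atTop (𝓝 (Pr c μ)) := by
    have h0 := (tendsto_add_atTop_iff_nat 1).2 hlim
    have h1 := h0.mul hn2
    rw [mul_one] at h1
    refine h1.congr' ?_
    filter_upwards [eventually_ge_atTop 1] with n hn
    have hn0 : (0 : ℝ) < n := by
      have : 0 < n := by omega
      exact_mod_cast this
    push_cast
    field_simp
  have hfl : Tendsto (fun L : ℝ => ⌊L⌋₊) atTop atTop := tendsto_nat_floor_atTop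
  refine tendsto_of_tendsto_of_tendsto_of_le_of_le' (hlow.comp hfl) (hup.comp hfl) ?_ ?_
  · filter_upwards [eventually_ge_atTop (1 : ℝ)] with L hL
    simp only [Function.comp]
    have hL0 : 0 < L := by linarith
    have h1 : fC c μ ⌊L⌋₊ ≤ Real.log (GrandZ (pot c) 1 L z).toReal := by
      refine le_log_toReal (GrandZ_ne_top hc hz L) ?_
      rw [← XiC_eq hc, GrandZ_eq hc hz]
      exact Xi_mono_set volume (Lam_subset_Cube hL0.le) _
    have h2 : L ^ 3 ≤ ((⌊L⌋₊ : ℝ) + 1) ^ 3 :=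
      pow_le_pow_left₀ hL0.le (Nat.lt_floor_add_one L).le 3
    have h3 := fC_nonneg hc μ ⌊L⌋₊
    rw [div_eq_inv_mul]
    calc (((⌊L⌋₊ : ℝ) + 1) ^ 3)⁻¹ * fC c μ ⌊L⌋₊ ≤ (L ^ 3)⁻¹ * fC c μ ⌊L⌋₊ :=
          mul_le_mul_of_nonneg_right (inv_anti₀ (by positivity) h2) h3
      _ ≤ _ := mul_le_mul_of_nonneg_left h1 (by positivity)
  · filter_upwards [eventually_ge_atTop (1 : ℝ)] with L hL
    simp only [Function.comp]
    have hL0 : 0 < L := by linarith
    have hone : (1 : ℝ≥0∞) ≤ GrandZ (pot c) 1 L z := by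
      rw [GrandZ_eq hc hz]
      exact one_le_Xi_W c μ _
    have h1 : Real.log (GrandZ (pot c) 1 L z).toReal ≤ fC c μ (⌊L⌋₊ + 1) := by
      refine log_toReal_le hone ?_
      rw [← XiC_eq hc, GrandZ_eq hc hz]
      exact Xi_mono_set volume (Cube_subset L) _
    have hfl1 : (1 : ℝ) ≤ (⌊L⌋₊ : ℝ) := by
      exact_mod_cast Nat.one_le_floor_iff L |>.2 hL
    have h2 : (⌊L⌋₊ : ℝ) ^ 3 ≤ L ^ 3 := pow_le_pow_left₀ (by positivity) (Nat.floor_le hL0.le) 3
    have h3 : 0 ≤ fC c μ (⌊L⌋₊ + 1) := fC_nonneg hc μ _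
    rw [div_eq_inv_mul]
    calc (L ^ 3)⁻¹ * Real.log (GrandZ (pot c) 1 L z).toReal
        ≤ (L ^ 3)⁻¹ * fC c μ (⌊L⌋₊ + 1) := mul_le_mul_of_nonneg_left h1 (by positivity)
      _ ≤ _ := mul_le_mul_of_nonneg_right (inv_anti₀ (by positivity) h2) h3

end Vale.Agent.Lib.P171b
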