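import Vale.Agent.Lib.P171b.Press

open MeasureTheory Set Filter Topology
open scoped ENNReal Nat

namespace Vale.Agent.Lib.P171b

/-- Monotone and convex dependence of the attraction on the coefficients. -/
theorem kacA_le_combo {c₁ c₂ c₃ : ℕ → ℝ} (h₁ : Adm c₁) (h₂ : Adm c₂) (h₃ : Adm c₃) {p q : ℝ}
    (hc : ∀ j, c₃ j ≤ p * c₁ j + q * c₂ j) (r : ℝ) :
    kacA c₃ r ≤ p * kacA c₁ r + q * kacA c₂ r := by
  unfold kacA
  rw [← tsum_mul_left, ← tsum_mul_left,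
    ← ((summable_kacA h₁.1 r).mul_left p).tsum_add ((summable_kacA h₂.1 r).mul_left q)]
  refine (summable_kacA h₃.1 r).tsum_le_tsum (fun j => ?_)
    (((summable_kacA h₁.1 r).mul_left p).add ((summable_kacA h₂.1 r).mul_left q))
  have := mul_le_mul_of_nonneg_right (hc j) (kac_nonneg (Rn_pos j).le r)
  calc c₃ j * kac (Rn j) r ≤ (p * c₁ j + q * c₂ j) * kac (Rn j) r := this
    _ = _ := by ring

/-- Convexity of the finite-volume logarithm. -/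
theorem fC_combo {c₁ c₂ c₃ : ℕ → ℝ} (h₁ : Adm c₁) (h₂ : Adm c₂) (h₃ : Adm c₃) {p q : ℝ}
    (hp : 0 ≤ p) (hq : 0 ≤ q) (hpq : p + q = 1)
    (hc : ∀ j, c₃ j ≤ p * c₁ j + q * c₂ j) {μ₁ μ₂ μ₃ : ℝ} (hμ : μ₃ = p * μ₁ + q * μ₂) (L : ℕ) :
    fC c₃ μ₃ L ≤ p * fC c₁ μ₁ L + q * fC c₂ μ₂ L := by
  refine log_toReal_le (one_le_XiC c₃ μ₃ L) ?_
  have hH : XiC c₃ μ₃ L ≤ XiC c₁ μ₁ L ^ p * XiC c₂ μ₂ L ^ q := by
    refine Xi_holder_WH volume (measurableSet_Lam L) hp hq hpq (LM_W h₁ μ₁) (LM_W h₂ μ₂) ?_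
    intro l _
    simp only [Ham, En_PhiC, Tot_const]
    have h4 : En (AP c₃) l ≤ p * En (AP c₁) l + q * En (AP c₂) l := by
      rw [← En_smul, ← En_smul, ← En_add]
      exact En_mono (fun x y => kacA_le_combo h₁ h₂ h₃ hc _) l
    have hphi : En phisP l = p * En phisP l + q * En phisP l := by
      rw [← add_mul, hpq, one_mul]
    rw [hμ]
    nlinarith
  refine hH.trans (le_of_eq ?_)
  rw [XiC_eq h₁ μ₁ L, XiC_eq h₂ μ₂ L,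
    ENNReal.ofReal_rpow_of_pos (Real.exp_pos _), ENNReal.ofReal_rpow_of_pos (Real.exp_pos _),
    ← ENNReal.ofReal_mul (by positivity), ← Real.exp_mul, ← Real.exp_mul, ← Real.exp_add]
  congr 2
  ring

/-- Convexity of the pressure. -/
theorem Pr_combo {c₁ c₂ c₃ : ℕ → ℝ} (h₁ : Adm c₁) (h₂ : Adm c₂) (h₃ : Adm c₃) {p q : ℝ}
    (hp : 0 ≤ p) (hq : 0 ≤ q) (hpq : p + q = 1)
    (hc : ∀ j, c₃ j ≤ p * c₁ j + q * c₂ j) {μ₁ μ₂ μ₃ : ℝ} (hμ : μ₃ = p * μ₁ + q * μ₂) :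
    Pr c₃ μ₃ ≤ p * Pr c₁ μ₁ + q * Pr c₂ μ₂ := by
  refine le_of_tendsto_of_tendsto' (tendsto_fC h₃ μ₃)
    (((tendsto_fC h₁ μ₁).const_mul p).add ((tendsto_fC h₂ μ₂).const_mul q)) fun L => ?_
  have h := fC_combo h₁ h₂ h₃ hp hq hpq hc hμ L
  have e : p * (fC c₁ μ₁ L / (L : ℝ) ^ 3) + q * (fC c₂ μ₂ L / (L : ℝ) ^ 3)
      = (p * fC c₁ μ₁ L + q * fC c₂ μ₂ L) / (L : ℝ) ^ 3 := by ring
  rw [e]
  exact div_le_div_of_nonneg_right h (by positivity)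

end Vale.Agent.Lib.P171b
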