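import Mathlib

open MeasureTheory Filter Topology
open scoped ENNReal

namespace Vale.Agent.Lib.P171b

/-- Euclidean three-space with its Euclidean norm and Lebesgue measure `volume`. -/
abbrev E3 := EuclideanSpace ℝ (Fin 3)

/-- The energy `U_N(x) = ∑_{i<j} φ(|x_i - x_j|)`. -/
noncomputable def U (φ : ℝ → ℝ) {N : ℕ} (x : Fin N → E3) : ℝ :=
  ∑ i : Fin N, ∑ j ∈ Finset.Ioi i, φ ‖x i - x j‖

/-- The cube `Λ_L = [0,L]^3`. -/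
def Cube (L : ℝ) : Set E3 := {x | ∀ i, 0 ≤ x i ∧ x i ≤ L}

/-- The canonical partition function `Z_{L,N}(β) = (1/N!) ∫_{Λ_L^N} exp(-β U_N)`, as an
extended non-negative number. -/
noncomputable def Z (φ : ℝ → ℝ) (β L : ℝ) (N : ℕ) : ℝ≥0∞ :=
  ((Nat.factorial N : ℕ) : ℝ≥0∞)⁻¹ *
    ∫⁻ x in Set.pi Set.univ (fun _ : Fin N => Cube L), ENNReal.ofReal (Real.exp (-β * U φ x))

/-- The grand partition function `∑_{N ≥ 0} z^N Z_{L,N}(β)`. -/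
noncomputable def GrandZ (φ : ℝ → ℝ) (β L z : ℝ) : ℝ≥0∞ :=
  ∑' N : ℕ, ENNReal.ofReal (z ^ N) * Z φ β L N

/-- Stability: `U_N ≥ -B N` on all configurations of distinct points. -/
def IsStable (φ : ℝ → ℝ) : Prop :=
  ∃ B : ℝ, ∀ (N : ℕ) (x : Fin N → E3), Function.Injective x → -(B * N) ≤ U φ x

/-- Temperedness: `φ(r) ≤ C r^(-3-ε)` for `r ≥ R₀`. -/
def IsTempered (φ : ℝ → ℝ) : Prop :=
  ∃ C ε R₀ : ℝ, 0 < C ∧ 0 < ε ∧ 0 < R₀ ∧ ∀ r : ℝ, R₀ ≤ r → φ r ≤ C * r ^ (-3 - ε)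

/-- Local boundedness on `(0,∞)`. -/
def IsLocallyBoundedOnPos (φ : ℝ → ℝ) : Prop :=
  ∀ a b : ℝ, 0 < a → a ≤ b → ∃ M : ℝ, ∀ r : ℝ, a ≤ r → r ≤ b → |φ r| ≤ M

end Vale.Agent.Lib.P171b
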