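import Mathlib

open Filter Topology

namespace Vale.Agent.Lib.P171b

/-- Ekeland's variational principle. -/
theorem ekeland {X : Type*} [MetricSpace X] [CompleteSpace X] [Nonempty X] {G : X → ℝ}
    (hG : LowerSemicontinuous G) {b : ℝ} (hb : ∀ x, b ≤ G x) {k : ℝ} (hk : 0 < k) :
    ∃ x', ∀ x, G x' ≤ G x + k * dist x x' := by
  classical
  set S : X → Set X := fun x => {y | G y + k * dist x y ≤ G x} with hS
  have hself : ∀ x, x ∈ S x := fun x => by simp [hS]
  have hclosed : ∀ x, IsClosed (S x) := by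
    intro x
    have hl : LowerSemicontinuous (fun y => G y + k * dist x y) :=
      hG.add (Continuous.lowerSemicontinuous (by fun_prop))
    exact (lowerSemicontinuous_iff_isClosed_preimage.1 hl) (G x)
  have htrans : ∀ x y z, y ∈ S x → z ∈ S y → z ∈ S x := by
    intro x y z hy hz
    simp only [hS, Set.mem_ofPred_eq] at hy hz ⊢
    have := dist_triangle x y z
    have h2 := mul_le_mul_of_nonneg_left this hk.le
    rw [mul_add] at h2
    linarith
  have hnext : ∀ (n : ℕ) (x : X), ∃ y ∈ S x, ∀ z ∈ S x, G y ≤ G z + 1 / ((n : ℝ) + 1) := by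
    intro n x
    have hne : (G '' S x).Nonempty := ⟨G x, x, hself x, rfl⟩
    have hbdd : BddBelow (G '' S x) := ⟨b, by rintro _ ⟨y, _, rfl⟩; exact hb y⟩
    have hpos : (0 : ℝ) < 1 / ((n : ℝ) + 1) := by positivity
    obtain ⟨a, ⟨y, hy, rfl⟩, hlt⟩ := exists_lt_of_csInf_lt hne (lt_add_of_pos_right _ hpos)
    refine ⟨y, hy, fun z hz => ?_⟩
    have : sInf (G '' S x) ≤ G z := csInf_le hbdd ⟨z, hz, rfl⟩
    linarith
  choose nx hnx1 hnx2 using hnext
  obtain ⟨x0⟩ := ‹Nonempty X›
  set u : ℕ → X := fun n => Nat.rec x0 (fun n y => nx n y) n with hu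
  have hu_succ : ∀ n, u (n + 1) = nx n (u n) := fun n => rfl
  have hstep : ∀ n, u (n + 1) ∈ S (u n) := fun n => by
    rw [hu_succ]
    exact hnx1 n (u n)
  have hchain : ∀ n m, n ≤ m → u m ∈ S (u n) := by
    intro n m hnm
    induction m, hnm using Nat.le_induction with
    | base => exact hself _
    | succ m _ ih => exact htrans _ _ _ ih (hstep m)
  have hanti : Antitone (fun n => G (u n)) := by
    intro n m hnm
    have h1 := hchain n m hnm
    simp only [hS, Set.mem_ofPred_eq] at h1
    have := mul_nonneg hk.le (dist_nonneg (x := u n) (y := u m))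
    simp only
    linarith
  have hconv : ∃ g, Tendsto (fun n => G (u n)) atTop (𝓝 g) :=
    ⟨_, tendsto_atTop_ciInf hanti ⟨b, by rintro _ ⟨n, rfl⟩; exact hb _⟩⟩
  obtain ⟨g, hg⟩ := hconv
  have hcauchy : CauchySeq u := by
    rw [Metric.cauchySeq_iff']
    intro ε hε
    have hgc := hg.cauchySeq
    rw [Metric.cauchySeq_iff'] at hgc
    obtain ⟨N, hN⟩ := hgc (k * ε) (by positivity)
    refine ⟨N, fun n hn => ?_⟩
    have h1 := hchain N n hn
    simp only [hS, Set.mem_ofPred_eq] at h1
    have h2 := hN n hn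
    rw [Real.dist_eq, abs_lt] at h2
    rw [dist_comm]
    have h3 : k * dist (u N) (u n) < k * ε := by linarith [h2.1, h2.2]
    exact lt_of_mul_lt_mul_left h3 hk.le
  obtain ⟨x', hx'⟩ := cauchySeq_tendsto_of_complete hcauchy
  have hmem : ∀ n, x' ∈ S (u n) := by
    intro n
    refine (hclosed (u n)).mem_of_tendsto hx' ?_
    filter_upwards [eventually_ge_atTop n] with m hm
    exact hchain n m hm
  refine ⟨x', fun x => ?_⟩
  by_cases hin : x ∈ S x'
  · -- then `x = x'`
    have hd : dist x' x = 0 := by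
      have hle : ∀ n : ℕ, k * dist x' x ≤ 1 / ((n : ℝ) + 1) := by
        intro n
        have h1 : x ∈ S (u n) := htrans _ _ _ (hmem n) hin
        have h2 := hnx2 n (u n) x h1
        rw [← hu_succ] at h2
        have h3 := hmem (n + 1)
        simp only [hS, Set.mem_ofPred_eq] at h3 hin
        have h4 := mul_nonneg hk.le (dist_nonneg (x := u (n + 1)) (y := x'))
        linarith
      have hT : Tendsto (fun n : ℕ => 1 / ((n : ℝ) + 1)) atTop (𝓝 0) :=
        tendsto_one_div_add_atTop_nhds_zero_nat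
      have h0 : k * dist x' x ≤ 0 := ge_of_tendsto' hT hle
      have h00 := mul_nonneg hk.le (dist_nonneg (x := x') (y := x))
      have : k * dist x' x = 0 := le_antisymm h0 h00
      exact (mul_eq_zero.1 this).resolve_left hk.ne'
    have hxx : x' = x := dist_eq_zero.1 hd
    subst hxx
    simp
  · simp only [hS, Set.mem_ofPred_eq, not_le] at hin
    rw [dist_comm]
    exact hin.le

end Vale.Agent.Lib.P171b
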