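import Vale.Agent.Lib.P171b.Iter

open MeasureTheory Set Filter Topology
open scoped ENNReal Nat
open Finset.HasAntidiagonal

namespace Vale.Agent.Lib.P171b

variable {E : Type} [MeasurableSpace E]

/-- Invariance under permutation of the list. -/
def PI (F : List E → ℝ≥0∞) : Prop := ∀ l l' : List E, l.Perm l' → F l = F l'

omit [MeasurableSpace E] in
theorem PI.cons {F : List E → ℝ≥0∞} (hF : PI F) (y : E) : PI (fun l => F (y :: l)) :=
  fun _ _ h => hF _ _ (h.cons y)

/-- Tonelli: an extra integral can be pulled through the iterated integral. -/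
theorem II_lintegral_swap (ν : Measure E) [SFinite ν] (S T : Set E) (n : ℕ) :
    ∀ {G : E → List E → ℝ≥0∞}, LMeas G →
      II ν S n (fun l => ∫⁻ y in T, G y l ∂ν) = ∫⁻ y in T, II ν S n (G y) ∂ν := by
  induction n with
  | zero => intro G _; rfl
  | succ n ih =>
    intro G hG
    simp only [II]
    have hstep : ∀ x : E, LMeas (fun (y : E) l => G y (x :: l)) := by
      intro x m
      have hm : Measurable (fun p : E × (Fin m → E) =>
          ((p.1, Fin.cons x p.2) : E × (Fin (m + 1) → E))) := by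
        refine Measurable.prodMk measurable_fst ?_
        refine measurable_pi_iff.2 fun i => ?_
        refine Fin.cases ?_ (fun j => ?_) i
        · simp only [Fin.cons_zero]
          exact measurable_const
        · simp only [Fin.cons_succ]
          exact (measurable_pi_apply j).comp measurable_snd
      convert (hG (m + 1)).comp hm using 1
      funext p
      simp [List.ofFn_succ]
    have h1 : ∀ x : E, II ν S n (fun l => ∫⁻ y in T, G y (x :: l) ∂ν)
        = ∫⁻ y in T, II ν S n (fun l => G y (x :: l)) ∂ν := fun x => ih (hstep x)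
    simp only [h1]
    have hm2 : Measurable (fun p : E × E => II ν S n (fun l => G p.2 (p.1 :: l))) := by
      have hL : LMeas (fun (p : E × E) l => G p.2 (p.1 :: l)) := by
        intro m
        have hm : Measurable (fun q : (E × E) × (Fin m → E) =>
            ((q.1.2, Fin.cons q.1.1 q.2) : E × (Fin (m + 1) → E))) := by
          refine Measurable.prodMk (measurable_snd.comp measurable_fst) ?_
          refine measurable_pi_iff.2 fun i => ?_
          refine Fin.cases ?_ (fun j => ?_) i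
          · simp only [Fin.cons_zero]
            exact measurable_fst.comp measurable_fst
          · simp only [Fin.cons_succ]
            exact (measurable_pi_apply j).comp measurable_snd
        convert (hG (m + 1)).comp hm using 1
        funext p
        simp [List.ofFn_succ]
      exact measurable_II ν S n hL
    exact lintegral_lintegral_swap hm2.aemeasurable

/-- The term of the two-block expansion. -/
noncomputable def TT (ν : Measure E) (A B : Set E) (F : List E → ℝ≥0∞) (n m : ℕ) : ℝ≥0∞ :=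
  II ν A n (fun u => II ν B m (fun v => F (u ++ v)))

theorem LM.lmeas_II_append {F : List E → ℝ≥0∞} (hF : LM F) (ν : Measure E) [SFinite ν]
    (B : Set E) (m : ℕ) : LM (fun u => II ν B m (fun v => F (u ++ v))) := by
  intro n
  exact measurable_II ν B m (hF.lmeas_of_list (MList.ofFn measurable_id))

theorem measurable_TT_cons {F : List E → ℝ≥0∞} (hF : LM F) (ν : Measure E) [SFinite ν]
    (A B : Set E) (n m : ℕ) :
    Measurable (fun y : E => TT ν A B (fun l => F (y :: l)) n m) := by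
  unfold TT
  refine measurable_II ν A n ?_
  intro k
  refine measurable_II ν B m ?_
  refine hF.lmeas_of_list (L := fun q : E × (Fin k → E) => q.1 :: List.ofFn q.2) ?_
  exact MList.cons measurable_fst (MList.ofFn measurable_snd)

theorem TT_succ_left (ν : Measure E) (A B : Set E) (F : List E → ℝ≥0∞) (n m : ℕ) :
    TT ν A B F (n + 1) m = ∫⁻ y in A, TT ν A B (fun l => F (y :: l)) n m ∂ν := rfl

theorem TT_succ_right (ν : Measure E) [SFinite ν] (A B : Set E) {F : List E → ℝ≥0∞} (hF : LM F)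
    (hP : PI F) (n m : ℕ) :
    TT ν A B F n (m + 1) = ∫⁻ y in B, TT ν A B (fun l => F (y :: l)) n m ∂ν := by
  unfold TT
  have hG : LMeas (fun (y : E) u => II ν B m (fun v => F (y :: (u ++ v)))) := by
    intro k
    refine measurable_II ν B m ?_
    refine hF.lmeas_of_list (L := fun q : E × (Fin k → E) => q.1 :: List.ofFn q.2) ?_
    exact MList.cons measurable_fst (MList.ofFn measurable_snd)
  have := II_lintegral_swap ν A B n hG
  rw [← this]
  congr 1
  funext u
  simp only [II]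
  refine lintegral_congr fun y => ?_
  congr 1
  funext v
  exact hP _ _ (List.perm_middle)

/-- Pascal's rule form of the exponential formula. -/
theorem II_union (ν : Measure E) [SFinite ν] {A B : Set E} (hB : MeasurableSet B)
    (hd : Disjoint A B) (N : ℕ) :
    ∀ {F : List E → ℝ≥0∞}, LM F → PI F →
      II ν (A ∪ B) N F =
        ∑ p ∈ antidiagonal N, (N.choose p.1 : ℝ≥0∞) * TT ν A B F p.1 p.2 := by
  induction N with
  | zero =>
    intro F _ _
    simp [II, TT]
  | succ N ih =>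
    intro F hF hP
    rw [Finset.sum_antidiagonal_choose_succ_mul (fun i j => TT ν A B F i j) N]
    simp only [II]
    rw [lintegral_union hB hd, add_comm]
    have h1 : ∀ y : E, II ν (A ∪ B) N (fun l => F (y :: l)) =
        ∑ p ∈ antidiagonal N,
          (N.choose p.1 : ℝ≥0∞) * TT ν A B (fun l => F (y :: l)) p.1 p.2 :=
      fun y => ih (hF.cons y) (hP.cons y)
    simp only [h1]
    congr 1
    · rw [lintegral_finsetSum _ (fun p _ => (measurable_TT_cons hF ν A B p.1 p.2).const_mul _)]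
      refine Finset.sum_congr rfl fun p _ => ?_
      rw [lintegral_const_mul _ (measurable_TT_cons hF ν A B p.1 p.2),
        TT_succ_right ν A B hF hP]
    · rw [lintegral_finsetSum _ (fun p _ => (measurable_TT_cons hF ν A B p.1 p.2).const_mul _)]
      refine Finset.sum_congr rfl fun p hp => ?_
      rw [lintegral_const_mul _ (measurable_TT_cons hF ν A B p.1 p.2), TT_succ_left]
      have : N.choose p.1 = N.choose p.2 :=
        Nat.choose_symm_of_eq_add (Finset.HasAntidiagonal.mem_antidiagonal.1 hp).symm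
      rw [this]

theorem choose_factorial_inv {n m : ℕ} :
    (((n + m)! : ℕ) : ℝ≥0∞)⁻¹ * ((n + m).choose n : ℝ≥0∞)
      = ((n ! : ℕ) : ℝ≥0∞)⁻¹ * ((m ! : ℕ) : ℝ≥0∞)⁻¹ := by
  have h := Nat.add_choose_mul_factorial_mul_factorial n m
  rw [← Nat.choose_symm_add] at h
  have hn : ((n ! : ℕ) : ℝ≥0∞) ≠ 0 := by exact_mod_cast (Nat.factorial_ne_zero n)
  have hm : ((m ! : ℕ) : ℝ≥0∞) ≠ 0 := by exact_mod_cast (Nat.factorial_ne_zero m)
  have hnm : (((n + m)! : ℕ) : ℝ≥0∞) ≠ 0 := by exact_mod_cast (Nat.factorial_ne_zero (n + m))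
  have hn' : ((n ! : ℕ) : ℝ≥0∞) ≠ ⊤ := ENNReal.natCast_ne_top _
  have hm' : ((m ! : ℕ) : ℝ≥0∞) ≠ ⊤ := ENNReal.natCast_ne_top _
  have hnm' : (((n + m)! : ℕ) : ℝ≥0∞) ≠ ⊤ := ENNReal.natCast_ne_top _
  have h2 : ((n + m).choose n : ℝ≥0∞) * ((n ! : ℕ) : ℝ≥0∞) * ((m ! : ℕ) : ℝ≥0∞)
      = (((n + m)! : ℕ) : ℝ≥0∞) := by exact_mod_cast h
  rw [← h2]
  have hc : ((n + m).choose n : ℝ≥0∞) ≠ 0 := by
    exact_mod_cast (Nat.choose_pos (Nat.le_add_right n m)).ne'
  have hc' : ((n + m).choose n : ℝ≥0∞) ≠ ⊤ := ENNReal.natCast_ne_top _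
  rw [ENNReal.mul_inv (Or.inl (mul_ne_zero hc hn)) (Or.inl (ENNReal.mul_ne_top hc' hn')),
    ENNReal.mul_inv (Or.inl hc) (Or.inl hc')]
  calc (((n + m).choose n : ℝ≥0∞))⁻¹ * ((n ! : ℕ) : ℝ≥0∞)⁻¹ * ((m ! : ℕ) : ℝ≥0∞)⁻¹
        * ((n + m).choose n : ℝ≥0∞)
      = (((n + m).choose n : ℝ≥0∞)⁻¹ * ((n + m).choose n : ℝ≥0∞))
        * (((n ! : ℕ) : ℝ≥0∞)⁻¹ * ((m ! : ℕ) : ℝ≥0∞)⁻¹) := by ring
    _ = _ := by rw [ENNReal.inv_mul_cancel hc hc', one_mul]

/-- The two-block expansion of the grand sum. -/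
theorem Xi_union (ν : Measure E) [SFinite ν] {A B : Set E} (hB : MeasurableSet B)
    (hd : Disjoint A B) {F : List E → ℝ≥0∞} (hF : LM F) (hP : PI F) :
    Xi ν (A ∪ B) F = ∑' n : ℕ, ∑' m : ℕ,
      ((n ! : ℕ) : ℝ≥0∞)⁻¹ * ((m ! : ℕ) : ℝ≥0∞)⁻¹ * TT ν A B F n m := by
  unfold Xi
  rw [← ENNReal.tsum_prod (f := fun n m : ℕ =>
    ((n ! : ℕ) : ℝ≥0∞)⁻¹ * ((m ! : ℕ) : ℝ≥0∞)⁻¹ * TT ν A B F n m)]
  rw [← (sigmaAntidiagonalEquivProd (A := ℕ)).tsum_eq, ENNReal.tsum_sigma']
  refine tsum_congr fun N => ?_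
  rw [tsum_fintype]
  simp only [sigmaAntidiagonalEquivProd_apply]
  rw [II_union ν hB hd N hF hP, Finset.mul_sum]
  rw [← Finset.sum_coe_sort]
  refine Finset.sum_congr rfl fun p _ => ?_
  obtain ⟨⟨n, m⟩, hp⟩ := p
  have hp' : n + m = N := Finset.HasAntidiagonal.mem_antidiagonal.1 hp
  subst hp'
  simp only
  rw [← mul_assoc, choose_factorial_inv]

/-- Lower bound of the grand sum on a union when the weight is super-multiplicative. -/
theorem Xi_union_ge (ν : Measure E) [SFinite ν] {A B : Set E} (hA : MeasurableSet A)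
    (hB : MeasurableSet B) (hd : Disjoint A B) {F : List E → ℝ≥0∞} (hF : LM F) (hP : PI F)
    (h : ∀ u v, (∀ x ∈ u, x ∈ A) → (∀ x ∈ v, x ∈ B) → F u * F v ≤ F (u ++ v)) :
    Xi ν A F * Xi ν B F ≤ Xi ν (A ∪ B) F := by
  rw [Xi_union ν hB hd hF hP]
  unfold Xi
  rw [← ENNReal.tsum_mul_right]
  refine ENNReal.tsum_le_tsum fun n => ?_
  rw [← ENNReal.tsum_mul_left]
  refine ENNReal.tsum_le_tsum fun m => ?_
  have h1 : II ν A n F * II ν B m F ≤ TT ν A B F n m := by
    unfold TT
    rw [← II_mul_const ν A n _ hF]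
    refine II_mono_mem ν hA n fun u hu => ?_
    rw [← II_const_mul ν B m _ hF]
    exact II_mono_mem ν hB m fun v hv => h u v hu hv
  calc ((n ! : ℕ) : ℝ≥0∞)⁻¹ * II ν A n F * (((m ! : ℕ) : ℝ≥0∞)⁻¹ * II ν B m F)
      = ((n ! : ℕ) : ℝ≥0∞)⁻¹ * ((m ! : ℕ) : ℝ≥0∞)⁻¹ * (II ν A n F * II ν B m F) := by ring
    _ ≤ _ := mul_le_mul_right h1 _

/-- Upper bound of the grand sum on a union when the weight is sub-multiplicative. -/
theorem Xi_union_le (ν : Measure E) [SFinite ν] {A B : Set E} (hA : MeasurableSet A)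
    (hB : MeasurableSet B) (hd : Disjoint A B) {F : List E → ℝ≥0∞} (hF : LM F) (hP : PI F)
    (h : ∀ u v, (∀ x ∈ u, x ∈ A) → (∀ x ∈ v, x ∈ B) → F (u ++ v) ≤ F u * F v) :
    Xi ν (A ∪ B) F ≤ Xi ν A F * Xi ν B F := by
  rw [Xi_union ν hB hd hF hP]
  unfold Xi
  rw [← ENNReal.tsum_mul_right]
  refine ENNReal.tsum_le_tsum fun n => ?_
  rw [← ENNReal.tsum_mul_left]
  refine ENNReal.tsum_le_tsum fun m => ?_
  have h1 : TT ν A B F n m ≤ II ν A n F * II ν B m F := by
    unfold TT
    rw [← II_mul_const ν A n _ hF]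
    refine II_mono_mem ν hA n fun u hu => ?_
    rw [← II_const_mul ν B m _ hF]
    exact II_mono_mem ν hB m fun v hv => h u v hu hv
  calc ((n ! : ℕ) : ℝ≥0∞)⁻¹ * ((m ! : ℕ) : ℝ≥0∞)⁻¹ * TT ν A B F n m
      ≤ ((n ! : ℕ) : ℝ≥0∞)⁻¹ * ((m ! : ℕ) : ℝ≥0∞)⁻¹ * (II ν A n F * II ν B m F) :=
        mul_le_mul_right h1 _
    _ = _ := by ring

/-- Finite unions: lower bound. -/
theorem Xi_biUnion_ge (ν : Measure E) [SFinite ν] {ι : Type} [DecidableEq ι] (T : Finset ι)
    (B : ι → Set E) (hB : ∀ k ∈ T, MeasurableSet (B k))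
    (hd : ∀ k ∈ T, ∀ k' ∈ T, k ≠ k' → Disjoint (B k) (B k'))
    {F : List E → ℝ≥0∞} (hF : LM F) (hP : PI F) (h1 : F [] = 1)
    (h : ∀ u v, ∀ k ∈ T, (∀ x ∈ u, ∃ k' ∈ T, k' ≠ k ∧ x ∈ B k') → (∀ x ∈ v, x ∈ B k) →
      F u * F v ≤ F (u ++ v)) :
    ∏ k ∈ T, Xi ν (B k) F ≤ Xi ν (⋃ k ∈ T, B k) F := by
  classical
  induction T using Finset.induction_on with
  | empty =>
    simp only [Finset.prod_empty, Finset.notMem_empty, iUnion_of_empty, iUnion_empty]
    calc (1 : ℝ≥0∞) = F [] := h1.symm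
      _ ≤ _ := one_le_Xi_of_nil ν ∅
  | insert a T ha ih =>
    rw [Finset.prod_insert ha, Finset.set_biUnion_insert, union_comm, mul_comm]
    have hBT : ∀ k ∈ T, MeasurableSet (B k) := fun k hk => hB k (Finset.mem_insert_of_mem hk)
    have hdT : ∀ k ∈ T, ∀ k' ∈ T, k ≠ k' → Disjoint (B k) (B k') := fun k hk k' hk' hkk' =>
      hd k (Finset.mem_insert_of_mem hk) k' (Finset.mem_insert_of_mem hk') hkk'
    have hIH := ih hBT hdT (fun u v k hk hu hv => h u v k (Finset.mem_insert_of_mem hk)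
      (fun x hx => by
        obtain ⟨k', hk', hne, hxk⟩ := hu x hx
        exact ⟨k', Finset.mem_insert_of_mem hk', hne, hxk⟩) hv)
    have hA : MeasurableSet (⋃ k ∈ T, B k) := Finset.measurableSet_biUnion _ hBT
    have hBa : MeasurableSet (B a) := hB a (Finset.mem_insert_self _ _)
    have hdisj : Disjoint (⋃ k ∈ T, B k) (B a) := by
      rw [Set.disjoint_iUnion₂_left]
      intro k hk
      exact hd k (Finset.mem_insert_of_mem hk) a (Finset.mem_insert_self _ _)
        (fun hh => ha (hh ▸ hk))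
    refine le_trans (mul_le_mul_left hIH _) ?_
    refine Xi_union_ge ν hA hBa hdisj hF hP fun u v hu hv => ?_
    refine h u v a (Finset.mem_insert_self _ _) ?_ hv
    intro x hx
    have := hu x hx
    simp only [mem_iUnion, exists_prop] at this
    obtain ⟨k', hk', hxk⟩ := this
    exact ⟨k', Finset.mem_insert_of_mem hk', fun hh => ha (hh ▸ hk'), hxk⟩

/-- Finite unions: upper bound. -/
theorem Xi_biUnion_le (ν : Measure E) [SFinite ν] {ι : Type} [DecidableEq ι] (T : Finset ι)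
    (B : ι → Set E) (hB : ∀ k ∈ T, MeasurableSet (B k))
    (hd : ∀ k ∈ T, ∀ k' ∈ T, k ≠ k' → Disjoint (B k) (B k'))
    {F : List E → ℝ≥0∞} (hF : LM F) (hP : PI F) (h1 : F [] = 1)
    (h : ∀ u v, ∀ k ∈ T, (∀ x ∈ u, ∃ k' ∈ T, k' ≠ k ∧ x ∈ B k') → (∀ x ∈ v, x ∈ B k) →
      F (u ++ v) ≤ F u * F v) :
    Xi ν (⋃ k ∈ T, B k) F ≤ ∏ k ∈ T, Xi ν (B k) F := by
  classical
  induction T using Finset.induction_on with
  | empty =>
    simp only [Finset.prod_empty, Finset.notMem_empty, iUnion_of_empty, iUnion_empty]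
    unfold Xi
    rw [tsum_eq_single 0]
    · simp [II, h1]
    · intro n hn
      obtain ⟨k, rfl⟩ := Nat.exists_eq_succ_of_ne_zero hn
      simp [II]
  | insert a T ha ih =>
    rw [Finset.prod_insert ha, Finset.set_biUnion_insert, union_comm, mul_comm]
    have hBT : ∀ k ∈ T, MeasurableSet (B k) := fun k hk => hB k (Finset.mem_insert_of_mem hk)
    have hdT : ∀ k ∈ T, ∀ k' ∈ T, k ≠ k' → Disjoint (B k) (B k') := fun k hk k' hk' hkk' =>
      hd k (Finset.mem_insert_of_mem hk) k' (Finset.mem_insert_of_mem hk') hkk'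
    have hIH := ih hBT hdT (fun u v k hk hu hv => h u v k (Finset.mem_insert_of_mem hk)
      (fun x hx => by
        obtain ⟨k', hk', hne, hxk⟩ := hu x hx
        exact ⟨k', Finset.mem_insert_of_mem hk', hne, hxk⟩) hv)
    have hA : MeasurableSet (⋃ k ∈ T, B k) := Finset.measurableSet_biUnion _ hBT
    have hBa : MeasurableSet (B a) := hB a (Finset.mem_insert_self _ _)
    have hdisj : Disjoint (⋃ k ∈ T, B k) (B a) := by
      rw [Set.disjoint_iUnion₂_left]
      intro k hk
      exact hd k (Finset.mem_insert_of_mem hk) a (Finset.mem_insert_self _ _)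
        (fun hh => ha (hh ▸ hk))
    refine le_trans ?_ (mul_le_mul_left hIH _)
    refine Xi_union_le ν hA hBa hdisj hF hP fun u v hu hv => ?_
    refine h u v a (Finset.mem_insert_self _ _) ?_ hv
    intro x hx
    have := hu x hx
    simp only [mem_iUnion, exists_prop] at this
    obtain ⟨k', hk', hxk⟩ := this
    exact ⟨k', Finset.mem_insert_of_mem hk', fun hh => ha (hh ▸ hk'), hxk⟩

end Vale.Agent.Lib.P171b
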