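import Vale.Agent.Lib.P171b.Bridge

open MeasureTheory Set Filter Topology
open scoped ENNReal

namespace Vale.Agent.Lib.P171b

theorem exists_secant {f : ℝ → ℝ} {ρ η : ℝ} (hf : HasDerivAt f ρ 0) (hη : 0 < η) :
    ∃ t : ℝ, 0 < t ∧ t ≤ 1 ∧ f t ≤ f 0 + t * (ρ + η) ∧ f (-t) ≤ f 0 - t * (ρ - η) := by
  have h1 := hasDerivAt_iff_isLittleO_nhds_zero.1 hf
  have h2 := h1.def hη
  obtain ⟨δ, hδ, h3⟩ := Metric.eventually_nhds_iff.1 h2
  set t := min 1 (δ / 2) with ht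
  have ht0 : 0 < t := lt_min one_pos (by positivity)
  have ht1 : t ≤ 1 := min_le_left _ _
  have htδ : t < δ := lt_of_le_of_lt (min_le_right _ _) (by linarith)
  refine ⟨t, ht0, ht1, ?_, ?_⟩
  · have h4 := @h3 t (by simpa [abs_of_pos ht0] using htδ)
    simp only [zero_add, smul_eq_mul, Real.norm_eq_abs, abs_of_pos ht0] at h4
    have h5 := (abs_le.1 h4).2
    nlinarith
  · have h4 := @h3 (-t) (by simpa [abs_of_pos ht0] using htδ)
    simp only [zero_add, smul_eq_mul, Real.norm_eq_abs, abs_neg, abs_of_pos ht0] at h4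
    have h5 := (abs_le.1 h4).2
    nlinarith

theorem isStable_pot {c : ℕ → ℝ} (hc : Adm c) : IsStable (pot c) := by
  refine ⟨Bs (∑' j, c j), fun N x hx => ?_⟩
  have hnd : (List.ofFn x).Nodup := List.nodup_ofFn.2 hx
  have h := Ham_le_of_nodup hc le_rfl 0 hnd
  simp only [Ham, Tot_const, List.length_ofFn, zero_mul, zero_sub, zero_add] at h
  rw [U_eq_En, ← PhiC_eq_pot]
  linarith

theorem isTempered_pot {c : ℕ → ℝ} (hc : Adm c) : IsTempered (pot c) := by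
  refine ⟨1, 1, 1, one_pos, one_pos, one_pos, fun r hr => ?_⟩
  have h1 : phis r = 0 := phis_of_le (by linarith)
  have h2 := kacA_nonneg hc r
  have h3 : 0 ≤ r ^ (-3 - 1 : ℝ) := Real.rpow_nonneg (by linarith) _
  simp only [pot, h1]
  linarith

theorem kacA_le_sum {c : ℕ → ℝ} (hc : Adm c) (r : ℝ) : kacA c r ≤ (∑' j, c j) * (1 / V1) := by
  rw [← tsum_mul_right]
  exact (summable_kacA hc.1 r).tsum_le_tsum
    (fun j => mul_le_mul_of_nonneg_left (kac_Rn_le j r) (hc.2 j)) (hc.1.mul_right _)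

theorem isLocallyBounded_pot {c : ℕ → ℝ} (hc : Adm c) : IsLocallyBoundedOnPos (pot c) := by
  intro a b ha _
  refine ⟨(a ^ 4)⁻¹ + (∑' j, c j) * (1 / V1), fun r har _ => ?_⟩
  have hr0 : 0 < r := lt_of_lt_of_le ha har
  have h1 : phis r ≤ (a ^ 4)⁻¹ := by
    unfold phis
    split_ifs
    · exact inv_anti₀ (by positivity) (pow_le_pow_left₀ ha.le har 4)
    · positivity
  have h2 := phis_nonneg r
  have h3 := kacA_nonneg hc r
  have h4 := kacA_le_sum hc r
  unfold pot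
  rw [abs_le]
  constructor <;> linarith [show 0 ≤ (a ^ 4)⁻¹ by positivity]

/-- The arithmetic at the end of the argument. -/
theorem final_arith {R : ℝ} (h1 : 1151 / 524288 ≤ R) (h2 : R ≤ 1409 / 524288) :
    0 < (1 / 131072 - 1 / 524288) - R ^ 2 / 2 := by
  have h0 : 0 ≤ R := le_trans (by norm_num) h1
  have h3 : R ^ 2 ≤ (1409 / 524288) ^ 2 := pow_le_pow_left₀ h0 h2 2
  norm_num at h3 ⊢
  linarith

/-- The main theorem: a stable tempered radial potential whose pressure has a kink. -/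
theorem main_theorem : ∃ φ : ℝ → ℝ, Measurable φ ∧ IsLocallyBoundedOnPos φ ∧ IsStable φ ∧
    IsTempered φ ∧ ∃ Pi : ℝ → ℝ,
      (∀ z L : ℝ, 0 < z → GrandZ φ 1 L z ≠ ⊤) ∧
      (∀ z : ℝ, 0 < z → Tendsto (fun L : ℝ => (L ^ 3)⁻¹ * Real.log (GrandZ φ 1 L z).toReal) atTop
        (𝓝 (Pi z))) ∧
      ∃ z₀ : ℝ, 0 < z₀ ∧ ¬ DifferentiableAt ℝ Pi z₀ := by
  obtain ⟨c', hc, μ', hA, hB⟩ := exists_point
  refine ⟨pot c', measurable_phis.sub (measurable_kacA hc), isLocallyBounded_pot hc,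
    isStable_pot hc, isTempered_pot hc, fun z => Pr c' (Real.log z),
    fun z L hz => GrandZ_ne_top hc hz L, fun z hz => tendsto_GrandZ hc hz,
    Real.exp μ', Real.exp_pos _, ?_⟩
  intro hdiff
  set Pi : ℝ → ℝ := fun z => Pr c' (Real.log z) with hPi
  set d := deriv Pi (Real.exp μ') with hd
  have h1 : HasDerivAt Pi d (Real.exp (μ' + 0)) := by
    rw [add_zero]
    exact hdiff.hasDerivAt
  have h2 : HasDerivAt (fun t : ℝ => Real.exp (μ' + t)) (Real.exp (μ' + 0)) 0 := by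
    have := ((hasDerivAt_id (0 : ℝ)).const_add μ').exp
    simpa using this
  have h3 := h1.comp (0 : ℝ) h2
  set ρ' := d * Real.exp (μ' + 0) with hρ'
  set f : ℝ → ℝ := fun t => Pr c' (μ' + t) with hf
  have hfeq : Pi ∘ (fun t : ℝ => Real.exp (μ' + t)) = f := by
    funext t
    simp [hPi, hf, Real.log_exp]
  rw [hfeq] at h3
  obtain ⟨t₀, ht0, ht1, hs1, hs2⟩ := exists_secant h3 (η := 1 / 4096) (by norm_num)
  have hf0 : f 0 = Pr c' μ' := by simp [hf]
  rw [hf0] at hs1 hs2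
  have hB1 := hB t₀
  have hB2 := hB (-t₀)
  rw [abs_of_pos ht0] at hB1
  rw [abs_neg, abs_of_pos ht0] at hB2
  have hfp : f t₀ = Pr c' (μ' + t₀) := rfl
  have hfm : f (-t₀) = Pr c' (μ' + -t₀) := rfl
  rw [hfp] at hs1
  rw [hfm] at hs2
  -- bounds for the slope
  have hρ1 : 1 / 512 - 1 / 524288 ≤ ρ' + 1 / 4096 := by
    have : t₀ * (1 / 512 - 1 / 524288) ≤ t₀ * (ρ' + 1 / 4096) := by nlinarith
    exact le_of_mul_le_mul_left this ht0
  have hρ2 : ρ' - 1 / 4096 ≤ 1 / 512 + 1 / 524288 := by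
    have : t₀ * (ρ' - 1 / 4096) ≤ t₀ * (1 / 512 + 1 / 524288) := by nlinarith
    exact le_of_mul_le_mul_left this ht0
  obtain ⟨a₀, ha₀, hup⟩ := kac_upper hc μ' ht0 ht1 (η := 1 / 4096) (by norm_num) hs1 hs2
  set R := ρ' + 2 * (1 / 4096) with hR
  have hg := final_arith (R := R) (by rw [hR]; linarith) (by rw [hR]; linarith)
  set g := (1 / 131072 - 1 / 524288) - R ^ 2 / 2 with hgdef
  have hev := hup a₀ ha₀ le_rfl (a₀ * g / 2) (by positivity)
  obtain ⟨J, hJ⟩ := hev.exists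
  have hAJ := hA a₀ ha₀ (J + 1)
  have hcontra : a₀ * g ≤ a₀ * g / 2 := by
    have e : a₀ * g = a₀ * (1 / 131072 - 1 / 524288) - a₀ * R ^ 2 / 2 := by
      rw [hgdef]
      ring
    rw [e] at hJ ⊢
    linarith
  have hpos : 0 < a₀ * g := by positivity
  linarith

end Vale.Agent.Lib.P171b
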