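import Vale.Agent.Lib.P171b.Weight
import Vale.Agent.Lib.P171b.Defs

open MeasureTheory Set Filter Topology
open scoped ENNReal Nat

namespace Vale.Agent.Lib.P171b

theorem measurable_coord (i : Fin 3) : Measurable (fun x : E3 => x i) := by fun_prop

/-- Integer label of the cube of side `s` containing a point. -/
noncomputable def lab (s : ℝ) (x : E3) : Fin 3 → ℤ := fun i => ⌊x i / s⌋

theorem measurable_lab (s : ℝ) : Measurable (lab s) :=
  measurable_pi_iff.2 fun i => ((measurable_coord i).div_const s).floor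

/-- The cube of side `s` with label `q`. -/
def cell (s : ℝ) (q : Fin 3 → ℤ) : Set E3 := {x | lab s x = q}

theorem measurableSet_cell (s : ℝ) (q : Fin 3 → ℤ) : MeasurableSet (cell s q) :=
  measurable_lab s (measurableSet_singleton q)

theorem mem_cell {s : ℝ} (hs : 0 < s) {q : Fin 3 → ℤ} {x : E3} :
    x ∈ cell s q ↔ ∀ i, (q i : ℝ) * s ≤ x i ∧ x i < ((q i : ℝ) + 1) * s := by
  simp only [cell, Set.mem_ofPred_eq, funext_iff, lab, Int.floor_eq_iff, le_div_iff₀ hs, div_lt_iff₀ hs]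

/-- A half-open box. -/
def box (a b : Fin 3 → ℝ) : Set E3 := {x | ∀ i, a i ≤ x i ∧ x i < b i}

theorem measurableSet_box (a b : Fin 3 → ℝ) : MeasurableSet (box a b) := by
  have : box a b = ⋂ i, {x : E3 | a i ≤ x i ∧ x i < b i} := by
    ext x
    simp [box]
  rw [this]
  refine MeasurableSet.iInter fun i => ?_
  exact (measurableSet_le measurable_const (measurable_coord i)).inter
    (measurableSet_lt (measurable_coord i) measurable_const)

theorem volume_box (a b : Fin 3 → ℝ) :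
    volume (box a b) = ∏ i, ENNReal.ofReal (b i - a i) := by
  have h : box a b = WithLp.ofLp ⁻¹' (Set.pi univ fun i => Ico (a i) (b i)) := by
    ext x
    simp [box, Set.mem_pi]
  rw [h, (PiLp.volume_preserving_ofLp (Fin 3)).measure_preimage
    (MeasurableSet.univ_pi fun i => measurableSet_Ico).nullMeasurableSet, Real.volume_pi_Ico]

theorem volume_cell {s : ℝ} (hs : 0 < s) (q : Fin 3 → ℤ) :
    volume (cell s q) = ENNReal.ofReal (s ^ 3) := by
  have h : cell s q = box (fun i => (q i : ℝ) * s) (fun i => ((q i : ℝ) + 1) * s) := by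
    ext x
    rw [mem_cell hs]
    rfl
  rw [h, volume_box, Fin.prod_univ_three]
  have h2 : ∀ i : Fin 3, ((q i : ℝ) + 1) * s - (q i : ℝ) * s = s := fun i => by ring
  simp only [h2]
  rw [← ENNReal.ofReal_mul hs.le, ← ENNReal.ofReal_mul (by positivity)]
  congr 1
  ring

theorem norm_sub_sq (x y : E3) : ‖x - y‖ ^ 2 = ∑ i, (x i - y i) ^ 2 := by
  rw [EuclideanSpace.norm_sq_eq]
  simp

theorem abs_coord_le_norm (x y : E3) (i : Fin 3) : |x i - y i| ≤ ‖x - y‖ := by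
  have := PiLp.norm_apply_le (x - y) i
  simpa using this

theorem abs_sub_lt_of_lab_eq {s : ℝ} (hs : 0 < s) {x y : E3} (h : lab s x = lab s y) (i : Fin 3) :
    |x i - y i| < s := by
  have hx : x ∈ cell s (lab s x) := rfl
  have hy : y ∈ cell s (lab s x) := h.symm
  rw [mem_cell hs] at hx hy
  obtain ⟨h1, h2⟩ := hx i
  obtain ⟨h3, h4⟩ := hy i
  rw [abs_lt]
  constructor <;> nlinarith

theorem norm_sq_lt_of_lab_eq {s : ℝ} (hs : 0 < s) {x y : E3} (h : lab s x = lab s y) :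
    ‖x - y‖ ^ 2 < 3 * s ^ 2 := by
  rw [norm_sub_sq, Fin.sum_univ_three]
  have h0 := abs_sub_lt_of_lab_eq hs h 0
  have h1 := abs_sub_lt_of_lab_eq hs h 1
  have h2 := abs_sub_lt_of_lab_eq hs h 2
  have e0 := (sq_lt_sq₀ (abs_nonneg _) hs.le).2 h0
  have e1 := (sq_lt_sq₀ (abs_nonneg _) hs.le).2 h1
  have e2 := (sq_lt_sq₀ (abs_nonneg _) hs.le).2 h2
  rw [sq_abs] at e0 e1 e2
  linarith

theorem norm_lt_of_lab_eq {s : ℝ} (hs : 0 < s) {x y : E3} (h : lab s x = lab s y) :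
    ‖x - y‖ < 2 * s := by
  have := norm_sq_lt_of_lab_eq hs h
  nlinarith [norm_nonneg (x - y), sq_nonneg (‖x - y‖ - 2 * s)]

/-- The volume of the unit ball, as a real number. -/
noncomputable def V1 : ℝ := (volume (Metric.ball (0 : E3) 1)).toReal

theorem ball_ne_top : volume (Metric.ball (0 : E3) 1) ≠ ⊤ := measure_ball_lt_top.ne

theorem V1_pos : 0 < V1 :=
  ENNReal.toReal_pos (Metric.measure_ball_pos volume _ one_pos).ne' ball_ne_top

theorem V1_le : V1 ≤ 8 := by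
  have hsub : Metric.ball (0 : E3) 1 ⊆ box (fun _ => -1) (fun _ => 1) := by
    intro x hx
    have hx' : ‖x‖ < 1 := by simpa using hx
    intro i
    have := PiLp.norm_apply_le x i
    rw [Real.norm_eq_abs] at this
    have h2 := abs_lt.1 (lt_of_le_of_lt this hx')
    exact ⟨h2.1.le, h2.2⟩
  have h := measure_mono (μ := volume) hsub
  rw [volume_box, Fin.prod_univ_three] at h
  have h8 : ENNReal.ofReal (1 - -1) * ENNReal.ofReal (1 - -1) * ENNReal.ofReal (1 - -1)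
      = ENNReal.ofReal 8 := by
    rw [← ENNReal.ofReal_mul (by norm_num), ← ENNReal.ofReal_mul (by norm_num)]
    norm_num
  rw [h8] at h
  exact ENNReal.toReal_le_of_le_ofReal (by norm_num) h

theorem volume_ball_E3 (x : E3) {r : ℝ} (hr : 0 ≤ r) :
    volume (Metric.ball x r) = ENNReal.ofReal (r ^ 3 * V1) := by
  rw [Measure.addHaar_ball volume x hr]
  have : Module.finrank ℝ E3 = 3 := by simp
  rw [this, ENNReal.ofReal_mul (by positivity)]
  congr 1
  rw [V1, ENNReal.ofReal_toReal ball_ne_top]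

/-- The Kac kernel at range `R`. -/
noncomputable def kac (R r : ℝ) : ℝ := if r < R then 1 / (V1 * R ^ 3) else 0

theorem kac_nonneg {R : ℝ} (hR : 0 ≤ R) (r : ℝ) : 0 ≤ kac R r := by
  unfold kac
  split_ifs
  · have := V1_pos
    positivity
  · exact le_rfl

theorem kac_le {R : ℝ} (hR : 0 ≤ R) (r : ℝ) : kac R r ≤ 1 / (V1 * R ^ 3) := by
  unfold kac
  split_ifs
  · exact le_rfl
  · have := V1_pos
    positivity

/-- The Kac kernel, as a pair function. -/
noncomputable def kacP (R : ℝ) (x y : E3) : ℝ := kac R ‖x - y‖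

theorem kacP_symm (R : ℝ) (x y : E3) : kacP R x y = kacP R y x := by
  simp only [kacP, norm_sub_rev]

/-- Counting cubes by volume. -/
theorem card_le_of_subset_ball {s ρ : ℝ} (hs : 0 < s) (hρ : 0 ≤ ρ) (x₀ : E3)
    (Q' : Finset (Fin 3 → ℤ)) (h : ∀ q' ∈ Q', cell s q' ⊆ Metric.ball x₀ ρ) :
    (Q'.card : ℝ) ≤ V1 * ρ ^ 3 / s ^ 3 := by
  have hdisj : (↑Q' : Set (Fin 3 → ℤ)).PairwiseDisjoint (cell s) := by
    intro a _ b _ hab
    rw [Function.onFun, Set.disjoint_left]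
    intro x hxa hxb
    exact hab (hxa.symm.trans hxb)
  have h1 : volume (⋃ q' ∈ Q', cell s q') = ∑ q' ∈ Q', volume (cell s q') :=
    measure_biUnion_finset hdisj fun q' _ => measurableSet_cell s q'
  have h2 : volume (⋃ q' ∈ Q', cell s q') ≤ volume (Metric.ball x₀ ρ) :=
    measure_mono (Set.iUnion₂_subset h)
  rw [h1, volume_ball_E3 x₀ hρ] at h2
  simp only [volume_cell hs, Finset.sum_const, nsmul_eq_mul] at h2
  have h3 : ((Q'.card : ℝ≥0∞)) * ENNReal.ofReal (s ^ 3) = ENNReal.ofReal ((Q'.card : ℝ) * s ^ 3) := by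
    rw [ENNReal.ofReal_mul (by positivity), ENNReal.ofReal_natCast]
  rw [h3] at h2
  have hV := V1_pos
  have h4 := (ENNReal.ofReal_le_ofReal_iff (by positivity)).1 h2
  rw [le_div_iff₀ (by positivity)]
  linarith

/-- The Schur bound for the Kac kernel in terms of cube occupation numbers. -/
theorem DS_kacP_le {s R : ℝ} (hs : 0 < s) (hR : 0 < R) (l : List E3) :
    DS (kacP R) l ≤ (R + 4 * s) ^ 3 / (R ^ 3 * s ^ 3) * DS (Dl (lab s)) l := by
  classical
  have hV := V1_pos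
  set RR : (Fin 3 → ℤ) → (Fin 3 → ℤ) → Prop :=
    fun q q' => ∃ x y : E3, lab s x = q ∧ lab s y = q' ∧ ‖x - y‖ < R with hRR
  have hRs : ∀ q q', RR q q' → RR q' q := by
    rintro q q' ⟨x, y, hx, hy, hxy⟩
    exact ⟨y, x, hy, hx, by rwa [norm_sub_rev]⟩
  have hg : 0 ≤ 1 / (V1 * R ^ 3) := by positivity
  have hG0 : ∀ x y : E3, ¬ RR (lab s x) (lab s y) → kacP R x y ≤ 0 := by
    intro x y hn
    have : ¬ ‖x - y‖ < R := fun hlt => hn ⟨x, y, rfl, rfl, hlt⟩
    simp [kacP, kac, this]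
  have hD : ∀ Q' : Finset (Fin 3 → ℤ), ∀ q, q ∈ (l.map (lab s)).toFinset →
      (∀ q' ∈ Q', q' ∈ (l.map (lab s)).toFinset) → (∀ q' ∈ Q', RR q q') →
      (Q'.card : ℝ) ≤ V1 * (R + 4 * s) ^ 3 / s ^ 3 := by
    intro Q' q hq _ hQ'
    simp only [List.mem_toFinset, List.mem_map] at hq
    obtain ⟨x₀, _, hx₀⟩ := hq
    refine card_le_of_subset_ball hs (by positivity) x₀ Q' fun q' hq' y' hy' => ?_
    obtain ⟨x, y, hx, hy, hxy⟩ := hQ' q' hq'
    rw [Metric.mem_ball, dist_comm, dist_eq_norm]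
    have h1 : ‖x₀ - x‖ < 2 * s := norm_lt_of_lab_eq hs (hx₀.trans hx.symm)
    have h2 : ‖y - y'‖ < 2 * s := norm_lt_of_lab_eq hs (hy.trans hy'.symm)
    have h3 : ‖x₀ - y'‖ ≤ ‖x₀ - x‖ + ‖x - y‖ + ‖y - y'‖ := by
      have e : x₀ - y' = (x₀ - x) + (x - y) + (y - y') := by abel
      rw [e]
      exact (norm_add_le _ _).trans (add_le_add_left (norm_add_le _ _) _)
    linarith
  have := DS_le_schur (lab s) RR hRs hg (G := kacP R) (fun x y => kac_le hR.le _) hG0 l hD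
  refine this.trans (le_of_eq ?_)
  congr 1
  field_simp

/-- The off-diagonal sum of the Kac kernel is at most half the double sum. -/
theorem En_kacP_le_half {R : ℝ} (hR : 0 ≤ R) (l : List E3) :
    En (kacP R) l ≤ DS (kacP R) l / 2 := by
  rw [DS_eq (kacP_symm R)]
  have : 0 ≤ Tot (fun x => kacP R x x) l := by
    refine List.sum_nonneg ?_
    intro a ha
    obtain ⟨x, _, rfl⟩ := List.mem_map.1 ha
    exact kac_nonneg hR _
  linarith

theorem En_kacP_le {s R : ℝ} (hs : 0 < s) (hR : 0 < R) (l : List E3) :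
    En (kacP R) l ≤ (R + 4 * s) ^ 3 / (2 * (R ^ 3 * s ^ 3)) * DS (Dl (lab s)) l := by
  refine (En_kacP_le_half hR.le l).trans ?_
  have := DS_kacP_le hs hR l
  have h2 : (R + 4 * s) ^ 3 / (2 * (R ^ 3 * s ^ 3)) * DS (Dl (lab s)) l
      = ((R + 4 * s) ^ 3 / (R ^ 3 * s ^ 3) * DS (Dl (lab s)) l) / 2 := by
    field_simp
  rw [h2]
  linarith

theorem DS_Dl_nonneg (s : ℝ) (l : List E3) : 0 ≤ DS (Dl (lab s)) l :=
  DS_nonneg fun x _ y _ => Dl_nonneg _ x y

/-- Comparing occupation numbers of unit cubes and of small cubes. -/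
theorem DS_unit_le {K : ℕ} (hK : 4 ≤ K) (l : List E3) :
    DS (Dl (lab 1)) l ≤ 216 * (K : ℝ) ^ 3 * DS (Dl (lab (1 / (K : ℝ)))) l := by
  have hK0 : (0 : ℝ) < K := by
    have : 0 < K := by omega
    exact_mod_cast this
  have hK4 : (4 : ℝ) ≤ K := by exact_mod_cast hK
  have hV := V1_pos
  have hs : (0 : ℝ) < 1 / (K : ℝ) := by positivity
  have h1 : DS (Dl (lab 1)) l ≤ DS (fun x y => (8 * V1) * kacP 2 x y) l := by
    refine DS_mono_mem fun x _ y _ => ?_
    unfold Dl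
    split_ifs with h
    · have := norm_lt_of_lab_eq (s := 1) one_pos h
      simp only [kacP, kac]
      rw [if_pos (by linarith)]
      apply le_of_eq
      field_simp
      norm_num
    · have := kac_nonneg (R := 2) (by norm_num) ‖x - y‖
      simp only [kacP]
      positivity
  have h2 : DS (fun x y => (8 * V1) * kacP 2 x y) l = (8 * V1) * DS (kacP 2) l := by
    rw [DS_eq (fun x y => by rw [kacP_symm]), DS_eq (kacP_symm 2), En_smul, Tot_smul]
    ring
  have h3 := DS_kacP_le hs (R := 2) (by norm_num) l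
  have h0 := DS_Dl_nonneg (1 / (K : ℝ)) l
  have h4 : ((2 : ℝ) + 4 * (1 / (K : ℝ))) ≤ 3 := by
    have : 1 / (K : ℝ) ≤ 1 / 4 := by
      apply one_div_le_one_div_of_le (by norm_num) hK4
    linarith
  have h5 : ((2 : ℝ) + 4 * (1 / (K : ℝ))) ^ 3 ≤ 27 := by
    have hpos : (0 : ℝ) ≤ 2 + 4 * (1 / (K : ℝ)) := by positivity
    calc ((2 : ℝ) + 4 * (1 / (K : ℝ))) ^ 3 ≤ 3 ^ 3 := pow_le_pow_left₀ hpos h4 3
      _ = 27 := by norm_num
  have h6 : (8 * V1) * ((2 + 4 * (1 / (K : ℝ))) ^ 3 / (2 ^ 3 * (1 / (K : ℝ)) ^ 3)) ≤ 216 * (K : ℝ) ^ 3 := by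
    have e : (8 * V1) * ((2 + 4 * (1 / (K : ℝ))) ^ 3 / (2 ^ 3 * (1 / (K : ℝ)) ^ 3))
        = V1 * (2 + 4 * (1 / (K : ℝ))) ^ 3 * (K : ℝ) ^ 3 := by
      field_simp
      ring
    rw [e]
    have : V1 * (2 + 4 * (1 / (K : ℝ))) ^ 3 ≤ 8 * 27 :=
      mul_le_mul V1_le h5 (by positivity) (by norm_num)
    nlinarith [pow_pos hK0 3]
  calc DS (Dl (lab 1)) l ≤ (8 * V1) * DS (kacP 2) l := h1.trans h2.le
    _ ≤ (8 * V1) * ((2 + 4 * (1 / (K : ℝ))) ^ 3 / (2 ^ 3 * (1 / (K : ℝ)) ^ 3)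
          * DS (Dl (lab (1 / (K : ℝ)))) l) := mul_le_mul_of_nonneg_left h3 (by positivity)
    _ = ((8 * V1) * ((2 + 4 * (1 / (K : ℝ))) ^ 3 / (2 ^ 3 * (1 / (K : ℝ)) ^ 3)))
          * DS (Dl (lab (1 / (K : ℝ)))) l := by ring
    _ ≤ _ := mul_le_mul_of_nonneg_right h6 h0

end Vale.Agent.Lib.P171b
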