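import Mathlib

open MeasureTheory Set Filter Topology
open scoped ENNReal Nat

namespace Vale.Agent.Lib.P171b

variable {E : Type} [MeasurableSpace E]

/-- Iterated integral of a function of a list of points over `S`. -/
noncomputable def II (ν : Measure E) (S : Set E) : ℕ → (List E → ℝ≥0∞) → ℝ≥0∞
  | 0, F => F []
  | n + 1, F => ∫⁻ y in S, II ν S n (fun l => F (y :: l)) ∂ν

/-- Grand-canonical sum of the iterated integrals. -/
noncomputable def Xi (ν : Measure E) (S : Set E) (F : List E → ℝ≥0∞) : ℝ≥0∞ :=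
  ∑' n : ℕ, ((n ! : ℕ) : ℝ≥0∞)⁻¹ * II ν S n F

/-- A function of lists is measurable on each length. -/
def LM (F : List E → ℝ≥0∞) : Prop :=
  ∀ n : ℕ, Measurable (fun x : Fin n → E => F (List.ofFn x))

/-- A list-valued map of constant length with measurable entries. -/
def MList {α : Type} [MeasurableSpace α] (L : α → List E) : Prop :=
  ∃ (k : ℕ) (g : α → Fin k → E), Measurable g ∧ ∀ a, L a = List.ofFn (g a)

theorem MList.const_nil {α : Type} [MeasurableSpace α] : MList (fun _ : α => ([] : List E)) :=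
  ⟨0, fun _ => Fin.elim0, measurable_const, fun _ => by simp⟩

theorem MList.ofFn {α : Type} [MeasurableSpace α] {n : ℕ} {g : α → Fin n → E}
    (hg : Measurable g) : MList (fun a => List.ofFn (g a)) :=
  ⟨n, g, hg, fun _ => rfl⟩

theorem MList.cons {α : Type} [MeasurableSpace α] {y : α → E} {L : α → List E}
    (hy : Measurable y) (hL : MList L) : MList (fun a => y a :: L a) := by
  obtain ⟨k, g, hg, hL⟩ := hL
  refine ⟨k + 1, fun a => Fin.cons (y a) (g a), ?_, fun a => ?_⟩
  · refine measurable_pi_iff.2 fun i => ?_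
    refine Fin.cases ?_ (fun j => ?_) i
    · simpa using hy
    · simpa using (measurable_pi_iff.1 hg) j
  · show y a :: L a = List.ofFn (Fin.cons (y a) (g a))
    rw [hL a, List.ofFn_succ]
    simp

theorem MList.append {α : Type} [MeasurableSpace α] {L L' : α → List E}
    (hL : MList L) (hL' : MList L') : MList (fun a => L a ++ L' a) := by
  obtain ⟨k, g, hg, hL⟩ := hL
  obtain ⟨k', g', hg', hL'⟩ := hL'
  refine ⟨k + k', fun a => Fin.append (g a) (g' a), ?_, fun a => ?_⟩
  · refine measurable_pi_iff.2 fun i => ?_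
    refine Fin.addCases (fun j => ?_) (fun j => ?_) i
    · simpa using (measurable_pi_iff.1 hg) j
    · simpa using (measurable_pi_iff.1 hg') j
  · show L a ++ L' a = List.ofFn (Fin.append (g a) (g' a))
    rw [hL a, hL' a, List.ofFn_fin_append]

theorem LM.comp {F : List E → ℝ≥0∞} (hF : LM F) {α : Type} [MeasurableSpace α]
    {L : α → List E} (hL : MList L) : Measurable (fun a => F (L a)) := by
  obtain ⟨k, g, hg, hL⟩ := hL
  have : (fun a => F (L a)) = (fun x : Fin k → E => F (List.ofFn x)) ∘ g := by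
    funext a
    simp [hL a]
  rw [this]
  exact (hF k).comp hg

/-- A parametrised family of list functions, measurable jointly on each length. -/
def LMeas {α : Type} [MeasurableSpace α] (G : α → List E → ℝ≥0∞) : Prop :=
  ∀ n : ℕ, Measurable (fun p : α × (Fin n → E) => G p.1 (List.ofFn p.2))

theorem LMeas.cons {α : Type} [MeasurableSpace α] {G : α → List E → ℝ≥0∞} (hG : LMeas G) :
    LMeas (fun (p : α × E) l => G p.1 (p.2 :: l)) := by
  intro n
  have h := hG (n + 1)
  have hm : Measurable (fun p : (α × E) × (Fin n → E) =>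
      ((p.1.1, Fin.cons p.1.2 p.2) : α × (Fin (n + 1) → E))) := by
    refine Measurable.prodMk (measurable_fst.comp measurable_fst) ?_
    refine measurable_pi_iff.2 fun i => ?_
    refine Fin.cases ?_ (fun j => ?_) i
    · simp only [Fin.cons_zero]
      exact measurable_snd.comp measurable_fst
    · simp only [Fin.cons_succ]
      exact (measurable_pi_apply j).comp measurable_snd
  convert h.comp hm using 1
  funext p
  simp [List.ofFn_succ]

theorem measurable_II (ν : Measure E) [SFinite ν] (S : Set E) (n : ℕ) :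
    ∀ {α : Type} [MeasurableSpace α] {G : α → List E → ℝ≥0∞}, LMeas G →
      Measurable (fun a => II ν S n (G a)) := by
  induction n with
  | zero =>
    intro α _ G hG
    have h := hG 0
    have hm : Measurable (fun a : α => ((a, Fin.elim0) : α × (Fin 0 → E))) :=
      Measurable.prodMk measurable_id measurable_const
    convert h.comp hm using 1
    funext a
    simp [II]
  | succ n ih =>
    intro α _ G hG
    have h := ih (hG.cons)
    simp only [II]
    exact h.lintegral_prod_right'

theorem LM.lmeas_of_list {F : List E → ℝ≥0∞} (hF : LM F) {α : Type} [MeasurableSpace α]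
    {L : α → List E} (hL : MList L) : LMeas (fun a l => F (L a ++ l)) := by
  intro n
  exact hF.comp (L := fun p : α × (Fin n → E) => L p.1 ++ List.ofFn p.2)
    (MList.append (by
      obtain ⟨k, g, hg, hL⟩ := hL
      exact ⟨k, fun p => g p.1, hg.comp measurable_fst, fun a => hL a.1⟩)
      (MList.ofFn measurable_snd))

theorem LM.lmeas_cons {F : List E → ℝ≥0∞} (hF : LM F) :
    LMeas (fun (y : E) l => F (y :: l)) := by
  have := hF.lmeas_of_list (L := fun y : E => [y])
    (MList.cons measurable_id MList.const_nil)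
  simpa using this

theorem LM.cons {F : List E → ℝ≥0∞} (hF : LM F) (y : E) : LM (fun l => F (y :: l)) := by
  intro n
  exact hF.comp (MList.cons measurable_const (MList.ofFn measurable_id))

theorem measurable_II_cons (ν : Measure E) [SFinite ν] (S : Set E) (n : ℕ)
    {F : List E → ℝ≥0∞} (hF : LM F) :
    Measurable (fun y : E => II ν S n (fun l => F (y :: l))) :=
  measurable_II ν S n hF.lmeas_cons

/-! ### Elementary properties -/

theorem II_mono (ν : Measure E) (S : Set E) (n : ℕ) :
    ∀ {F G : List E → ℝ≥0∞}, (∀ l, F l ≤ G l) → II ν S n F ≤ II ν S n G := by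
  induction n with
  | zero => intro F G h; exact h _
  | succ n ih =>
    intro F G h
    simp only [II]
    exact lintegral_mono fun y => ih fun l => h _

theorem II_mono_mem (ν : Measure E) {S : Set E} (hS : MeasurableSet S) (n : ℕ) :
    ∀ {F G : List E → ℝ≥0∞}, (∀ l, (∀ x ∈ l, x ∈ S) → F l ≤ G l) → II ν S n F ≤ II ν S n G := by
  induction n with
  | zero => intro F G h; exact h _ (by simp)
  | succ n ih =>
    intro F G h
    simp only [II]
    refine setLIntegral_mono' hS fun y hy => ih fun l hl => h _ ?_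
    intro x hx
    rcases List.mem_cons.1 hx with rfl | hx
    · exact hy
    · exact hl x hx

theorem II_congr_mem (ν : Measure E) {S : Set E} (hS : MeasurableSet S) (n : ℕ)
    {F G : List E → ℝ≥0∞} (h : ∀ l, (∀ x ∈ l, x ∈ S) → F l = G l) : II ν S n F = II ν S n G :=
  le_antisymm (II_mono_mem ν hS n fun l hl => (h l hl).le)
    (II_mono_mem ν hS n fun l hl => (h l hl).ge)

theorem II_mono_set (ν : Measure E) {S T : Set E} (hST : S ⊆ T) (n : ℕ) :
    ∀ {F : List E → ℝ≥0∞}, II ν S n F ≤ II ν T n F := by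
  induction n with
  | zero => intro F; exact le_rfl
  | succ n ih =>
    intro F
    simp only [II]
    exact (lintegral_mono fun y => ih).trans (lintegral_mono_set hST)

theorem ae_not_mem_list (ν : Measure E) [NullSingletonClass ν] (p : List E) :
    ∀ᵐ y ∂ν, y ∉ p := by
  have hfin : ({y | y ∈ p} : Set E).Finite := List.finite_toSet p
  have h0 : ν {y | y ∈ p} = 0 := hfin.measure_zero ν
  rw [ae_iff]
  simpa using h0

theorem II_mono_nodup_aux (ν : Measure E) [NullSingletonClass ν]
    {S : Set E} (hS : MeasurableSet S) {F G : List E → ℝ≥0∞}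
    (h : ∀ l, l.Nodup → (∀ x ∈ l, x ∈ S) → F l ≤ G l) (n : ℕ) :
    ∀ p : List E, p.Nodup → (∀ x ∈ p, x ∈ S) →
      II ν S n (fun l => F (p ++ l)) ≤ II ν S n (fun l => G (p ++ l)) := by
  induction n with
  | zero =>
    intro p hp hpS
    simp only [II, List.append_nil]
    exact h p hp hpS
  | succ n ih =>
    intro p hp hpS
    simp only [II]
    refine lintegral_mono_ae ?_
    have h1 : ∀ᵐ y ∂(ν.restrict S), y ∉ p :=
      ae_restrict_of_ae (ae_not_mem_list ν p)
    have h2 : ∀ᵐ y ∂(ν.restrict S), y ∈ S := ae_restrict_mem hS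
    filter_upwards [h1, h2] with y hy hyS
    have hp' : (p ++ [y]).Nodup := by
      rw [List.nodup_append]
      refine ⟨hp, by simp, ?_⟩
      intro a ha b hb
      simp only [List.mem_singleton] at hb
      subst hb
      rintro rfl
      exact hy ha
    have hpS' : ∀ x ∈ p ++ [y], x ∈ S := by
      intro x hx
      rcases List.mem_append.1 hx with hx | hx
      · exact hpS x hx
      · simp only [List.mem_singleton] at hx
        subst hx
        exact hyS
    have := ih (p ++ [y]) hp' hpS'
    simpa [List.append_assoc] using this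

theorem II_mono_nodup (ν : Measure E) [NullSingletonClass ν]
    {S : Set E} (hS : MeasurableSet S) {F G : List E → ℝ≥0∞}
    (h : ∀ l, l.Nodup → (∀ x ∈ l, x ∈ S) → F l ≤ G l) (n : ℕ) :
    II ν S n F ≤ II ν S n G := by
  simpa using II_mono_nodup_aux ν hS h n [] List.nodup_nil (by simp)

/-- Constants factor out. -/
theorem II_const_mul (ν : Measure E) [SFinite ν] (S : Set E) (n : ℕ) (c : ℝ≥0∞) :
    ∀ {F : List E → ℝ≥0∞}, LM F → II ν S n (fun l => c * F l) = c * II ν S n F := by
  induction n with
  | zero => intro F _; rfl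
  | succ n ih =>
    intro F hF
    simp only [II]
    rw [← lintegral_const_mul c (measurable_II_cons ν S n hF)]
    refine lintegral_congr fun y => ?_
    exact ih (hF.cons y)

theorem II_mul_const (ν : Measure E) [SFinite ν] (S : Set E) (n : ℕ) (c : ℝ≥0∞)
    {F : List E → ℝ≥0∞} (hF : LM F) : II ν S n (fun l => F l * c) = II ν S n F * c := by
  rw [mul_comm _ c, ← II_const_mul ν S n c hF]
  congr 1
  funext l
  exact mul_comm _ _

theorem LM.mul {F G : List E → ℝ≥0∞} (hF : LM F) (hG : LM G) : LM (fun l => F l * G l) :=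
  fun n => (hF n).mul (hG n)

theorem LM.add {F G : List E → ℝ≥0∞} (hF : LM F) (hG : LM G) : LM (fun l => F l + G l) :=
  fun n => (hF n).add (hG n)

theorem LM.const_mul {F : List E → ℝ≥0∞} (hF : LM F) (c : ℝ≥0∞) : LM (fun l => c * F l) :=
  fun n => (hF n).const_mul c

theorem II_add (ν : Measure E) [SFinite ν] (S : Set E) (n : ℕ) :
    ∀ {F G : List E → ℝ≥0∞}, LM F → LM G →
      II ν S n (fun l => F l + G l) = II ν S n F + II ν S n G := by
  induction n with
  | zero => intro F G _ _; rfl
  | succ n ih =>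
    intro F G hF hG
    simp only [II]
    rw [← lintegral_add_left (measurable_II_cons ν S n hF)]
    refine lintegral_congr fun y => ?_
    exact ih (hF.cons y) (hG.cons y)

theorem Xi_mono (ν : Measure E) (S : Set E) {F G : List E → ℝ≥0∞} (h : ∀ l, F l ≤ G l) :
    Xi ν S F ≤ Xi ν S G :=
  ENNReal.tsum_le_tsum fun n => mul_le_mul_right (II_mono ν S n h) _

theorem Xi_mono_mem (ν : Measure E) {S : Set E} (hS : MeasurableSet S) {F G : List E → ℝ≥0∞}
    (h : ∀ l, (∀ x ∈ l, x ∈ S) → F l ≤ G l) : Xi ν S F ≤ Xi ν S G :=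
  ENNReal.tsum_le_tsum fun n => mul_le_mul_right (II_mono_mem ν hS n h) _

theorem Xi_congr_mem (ν : Measure E) {S : Set E} (hS : MeasurableSet S) {F G : List E → ℝ≥0∞}
    (h : ∀ l, (∀ x ∈ l, x ∈ S) → F l = G l) : Xi ν S F = Xi ν S G :=
  le_antisymm (Xi_mono_mem ν hS fun l hl => (h l hl).le) (Xi_mono_mem ν hS fun l hl => (h l hl).ge)

theorem Xi_mono_nodup (ν : Measure E) [NullSingletonClass ν]
    {S : Set E} (hS : MeasurableSet S) {F G : List E → ℝ≥0∞}
    (h : ∀ l, l.Nodup → (∀ x ∈ l, x ∈ S) → F l ≤ G l) : Xi ν S F ≤ Xi ν S G :=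
  ENNReal.tsum_le_tsum fun n => mul_le_mul_right (II_mono_nodup ν hS h n) _

theorem Xi_mono_set (ν : Measure E) {S T : Set E} (hST : S ⊆ T) (F : List E → ℝ≥0∞) :
    Xi ν S F ≤ Xi ν T F :=
  ENNReal.tsum_le_tsum fun n => mul_le_mul_right (II_mono_set ν hST n) _

theorem Xi_add (ν : Measure E) [SFinite ν] (S : Set E) {F G : List E → ℝ≥0∞}
    (hF : LM F) (hG : LM G) : Xi ν S (fun l => F l + G l) = Xi ν S F + Xi ν S G := by
  unfold Xi
  rw [← ENNReal.tsum_add]
  refine tsum_congr fun n => ?_
  rw [II_add ν S n hF hG, mul_add]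

theorem Xi_const_mul (ν : Measure E) [SFinite ν] (S : Set E) (c : ℝ≥0∞) {F : List E → ℝ≥0∞}
    (hF : LM F) : Xi ν S (fun l => c * F l) = c * Xi ν S F := by
  unfold Xi
  rw [← ENNReal.tsum_mul_left]
  refine tsum_congr fun n => ?_
  rw [II_const_mul ν S n c hF]
  ring

theorem one_le_Xi_of_nil (ν : Measure E) (S : Set E) {F : List E → ℝ≥0∞} :
    F [] ≤ Xi ν S F := by
  have := ENNReal.le_tsum (f := fun n : ℕ => ((n ! : ℕ) : ℝ≥0∞)⁻¹ * II ν S n F) 0
  simpa [II, Xi] using this

theorem term_le_Xi (ν : Measure E) (S : Set E) (F : List E → ℝ≥0∞) (n : ℕ) :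
    ((n ! : ℕ) : ℝ≥0∞)⁻¹ * II ν S n F ≤ Xi ν S F :=
  ENNReal.le_tsum (f := fun n : ℕ => ((n ! : ℕ) : ℝ≥0∞)⁻¹ * II ν S n F) n

end Vale.Agent.Lib.P171b
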