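import Vale.Agent.Lib.P171b.KacPair

open MeasureTheory Set Filter Topology
open scoped ENNReal Nat

namespace Vale.Agent.Lib.P171b

/-- The functional on a block, with an extra chemical potential `s` and boundary strength `β`. -/
noncomputable def HH (h : ℕ → ℝ) (Γ : Set E3) (μ s β : ℝ) (l : List E3) : ℝ :=
  (μ + s) * l.length - En (PhiC h) l + β * DS (GG Γ) l

/-- The same functional with a mean-field term. -/
noncomputable def HD (h : ℕ → ℝ) (Γ : Set E3) (μ β b : ℝ) (l : List E3) : ℝ :=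
  HH h Γ μ 1 β l + b * (l.length : ℝ) ^ 2

theorem measurable_HH {h : ℕ → ℝ} (hh : Adm h) {Γ : Set E3} (hΓ : MeasurableSet Γ) (μ s β : ℝ)
    (n : ℕ) : Measurable (fun x : Fin n → E3 => HH h Γ μ s β (List.ofFn x)) := by
  have : (fun x : Fin n → E3 => HH h Γ μ s β (List.ofFn x)) = fun x =>
      (μ + s) * (n : ℝ) - En (PhiC h) (List.ofFn x)
        + β * (2 * En (GG Γ) (List.ofFn x) + Tot (ind1 Γ) (List.ofFn x)) := by
    funext x
    simp only [HH, DS_GG_eq, List.length_ofFn]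
  rw [this]
  exact (measurable_const.sub (measurable_En (measurable_PhiC hh) n)).add
    (((measurable_En (measurable_GG hΓ) n).const_mul 2).add
      (measurable_Tot (measurable_ind1 hΓ) n) |>.const_mul β)

theorem LM_HH {h : ℕ → ℝ} (hh : Adm h) {Γ : Set E3} (hΓ : MeasurableSet Γ) (μ s β : ℝ) :
    LM (WH (HH h Γ μ s β)) :=
  LM_WH (measurable_HH hh hΓ μ s β)

theorem LM_HD {h : ℕ → ℝ} (hh : Adm h) {Γ : Set E3} (hΓ : MeasurableSet Γ) (μ β b : ℝ) :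
    LM (WH (HD h Γ μ β b)) := by
  refine LM_WH fun n => ?_
  have : (fun x : Fin n → E3 => HD h Γ μ β b (List.ofFn x)) = fun x =>
      HH h Γ μ 1 β (List.ofFn x) + b * (n : ℝ) ^ 2 := by
    funext x
    simp only [HD, List.length_ofFn]
  rw [this]
  exact (measurable_HH hh hΓ μ 1 β n).add measurable_const

theorem Dl_lab_Lam {ℓ : ℕ} (hℓ : 0 < ℓ) {x y : E3} (hx : x ∈ Lam ℓ) (hy : y ∈ Lam ℓ) :
    Dl (lab (ℓ : ℝ)) x y = 1 := by
  rw [← cell_zero_eq_Lam hℓ] at hx hy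
  have h1 : lab (ℓ : ℝ) x = 0 := hx
  have h2 : lab (ℓ : ℝ) y = 0 := hy
  simp [Dl, h1, h2]

/-- On a single block the comparison system reduces to `HH` plus the mean field term. -/
theorem Ham_PhiB_on_block {ℓ : ℕ} (hℓ : 0 < ℓ) (h : ℕ → ℝ) (α₀ b μ : ℝ) (Γ : Set E3)
    {l : List E3} (hl : ∀ x ∈ l, x ∈ Lam ℓ) :
    Ham (PhiB (ℓ : ℝ) h α₀ b Γ) (tauB μ α₀ b Γ) l
      = HH h Γ μ 0 α₀ l + b * (l.length : ℝ) ^ 2 := by
  have h1 : En (fun x y => Dl (lab (ℓ : ℝ)) x y * phisP x y) l = En phisP l := by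
    refine En_congr_mem fun x hx y hy => ?_
    rw [Dl_lab_Lam hℓ (hl x hx) (hl y hy), one_mul]
  have h2 : En (fun x y => Dl (lab (ℓ : ℝ)) x y * AP h x y) l = En (AP h) l := by
    refine En_congr_mem fun x hx y hy => ?_
    rw [Dl_lab_Lam hℓ (hl x hx) (hl y hy), one_mul]
  have h3 : 2 * En (Dl (lab (ℓ : ℝ))) l = (l.length : ℝ) ^ 2 - l.length := by
    have e : En (Dl (lab (ℓ : ℝ))) l = En (fun _ _ => (1 : ℝ)) l := by
      refine En_congr_mem fun x hx y hy => ?_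
      exact Dl_lab_Lam hℓ (hl x hx) (hl y hy)
    rw [e, En_const]
    ring
  simp only [Ham, HH]
  rw [En_PhiB, Tot_tauB, h1, h2, En_PhiC, DS_GG_eq]
  have e2 : 2 * b * En (Dl (lab (ℓ : ℝ))) l = b * (2 * En (Dl (lab (ℓ : ℝ))) l) := by ring
  rw [e2, h3]
  ring

/-- The four-term domination. -/
theorem chernoff_dom {Lc A t₀ η ρ nb N : ℝ} (hLc : 0 < Lc) (hA : 0 ≤ A) (ht : 0 < t₀)
    (hN : 0 ≤ N) (hAnb : A * nb ^ 2 ≤ 2 * η * t₀) :
    Real.exp (A / (2 * Lc) * N ^ 2) ≤ Real.exp (Lc * (A * (ρ + 2 * η) ^ 2 / 2))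
      + Real.exp (t₀ * N - Lc * (t₀ * (ρ + η))) + Real.exp (-(t₀ * N) + Lc * (t₀ * (ρ - η)))
      + Real.exp (-(nb * Lc) + N + A / (2 * Lc) * N ^ 2) := by
  have p1 := Real.exp_pos (Lc * (A * (ρ + 2 * η) ^ 2 / 2))
  have p2 := Real.exp_pos (t₀ * N - Lc * (t₀ * (ρ + η)))
  have p3 := Real.exp_pos (-(t₀ * N) + Lc * (t₀ * (ρ - η)))
  have p4 := Real.exp_pos (-(nb * Lc) + N + A / (2 * Lc) * N ^ 2)
  set n := N / Lc with hn
  have hNn : N = n * Lc := by rw [hn]; field_simp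
  have hn0 : 0 ≤ n := by positivity
  have hval : A / (2 * Lc) * N ^ 2 = Lc * (A * n ^ 2 / 2) := by
    rw [hNn]
    field_simp
  by_cases hbig : nb < n
  · have : Real.exp (A / (2 * Lc) * N ^ 2) ≤ Real.exp (-(nb * Lc) + N + A / (2 * Lc) * N ^ 2) := by
      refine Real.exp_le_exp.2 ?_
      have : nb * Lc ≤ N := by
        rw [hNn]
        exact mul_le_mul_of_nonneg_right hbig.le hLc.le
      linarith
    linarith
  · have hnle : n ≤ nb := not_lt.1 hbig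
    have hAn : A * n ^ 2 ≤ 2 * η * t₀ := by
      refine le_trans (mul_le_mul_of_nonneg_left ?_ hA) hAnb
      exact pow_le_pow_left₀ hn0 hnle 2
    by_cases h1 : ρ + 2 * η ≤ n
    · have : Real.exp (A / (2 * Lc) * N ^ 2) ≤ Real.exp (t₀ * N - Lc * (t₀ * (ρ + η))) := by
        refine Real.exp_le_exp.2 ?_
        rw [hval, hNn]
        have : A * n ^ 2 / 2 ≤ t₀ * (n - ρ - η) := by nlinarith
        have h3 := mul_le_mul_of_nonneg_left this hLc.le
        nlinarith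
      linarith
    · by_cases h2 : n ≤ ρ - 2 * η
      · have : Real.exp (A / (2 * Lc) * N ^ 2) ≤ Real.exp (-(t₀ * N) + Lc * (t₀ * (ρ - η))) := by
          refine Real.exp_le_exp.2 ?_
          rw [hval, hNn]
          have : A * n ^ 2 / 2 ≤ t₀ * (ρ - η - n) := by nlinarith
          have h3 := mul_le_mul_of_nonneg_left this hLc.le
          nlinarith
        linarith
      · have : Real.exp (A / (2 * Lc) * N ^ 2) ≤ Real.exp (Lc * (A * (ρ + 2 * η) ^ 2 / 2)) := by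
          refine Real.exp_le_exp.2 ?_
          rw [hval]
          refine mul_le_mul_of_nonneg_left ?_ hLc.le
          have h4 : n ≤ ρ + 2 * η := (not_le.1 h1).le
          have h5 : n ^ 2 ≤ (ρ + 2 * η) ^ 2 := pow_le_pow_left₀ hn0 h4 2
          have := mul_le_mul_of_nonneg_left h5 hA
          linarith
        linarith

/-- The grand sum for the block system is bounded by four grand sums. -/
theorem Xi_block_le_four {ℓ : ℕ} (hℓ : 0 < ℓ) {h : ℕ → ℝ} (hh : Adm h) {Γ : Set E3}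
    (hΓ : MeasurableSet Γ) (α₀ μ : ℝ) {A t₀ η ρ nb : ℝ} (hA : 0 ≤ A) (ht : 0 < t₀)
    (hAnb : A * nb ^ 2 ≤ 2 * η * t₀) :
    Xi volume (Lam ℓ) (WH (Ham (PhiB (ℓ : ℝ) h α₀ (A / (2 * (ℓ : ℝ) ^ 3)) Γ)
        (tauB μ α₀ (A / (2 * (ℓ : ℝ) ^ 3)) Γ)))
      ≤ ENNReal.ofReal (Real.exp ((ℓ : ℝ) ^ 3 * (A * (ρ + 2 * η) ^ 2 / 2)))
            * Xi volume (Lam ℓ) (WH (HH h Γ μ 0 α₀))
        + ENNReal.ofReal (Real.exp (-((ℓ : ℝ) ^ 3 * (t₀ * (ρ + η)))))
            * Xi volume (Lam ℓ) (WH (HH h Γ μ t₀ α₀))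
        + ENNReal.ofReal (Real.exp ((ℓ : ℝ) ^ 3 * (t₀ * (ρ - η))))
            * Xi volume (Lam ℓ) (WH (HH h Γ μ (-t₀) α₀))
        + ENNReal.ofReal (Real.exp (-(nb * (ℓ : ℝ) ^ 3)))
            * Xi volume (Lam ℓ) (WH (HD h Γ μ α₀ (A / (2 * (ℓ : ℝ) ^ 3)))) := by
  have hℓ0 : (0 : ℝ) < ℓ := by exact_mod_cast hℓ
  have hLc : (0 : ℝ) < (ℓ : ℝ) ^ 3 := by positivity
  set Lc := (ℓ : ℝ) ^ 3 with hLcdef
  set b := A / (2 * Lc) with hb
  set E₁ := ENNReal.ofReal (Real.exp (Lc * (A * (ρ + 2 * η) ^ 2 / 2))) with hE₁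
  set E₂ := ENNReal.ofReal (Real.exp (-(Lc * (t₀ * (ρ + η))))) with hE₂
  set E₃ := ENNReal.ofReal (Real.exp (Lc * (t₀ * (ρ - η)))) with hE₃
  set E₄ := ENNReal.ofReal (Real.exp (-(nb * Lc))) with hE₄
  have hL0 := LM_HH hh hΓ μ 0 α₀
  have hL1 := LM_HH hh hΓ μ t₀ α₀
  have hL2 := LM_HH hh hΓ μ (-t₀) α₀
  have hL3 := LM_HD hh hΓ μ α₀ b
  rw [← Xi_const_mul volume _ E₁ hL0, ← Xi_const_mul volume _ E₂ hL1,
    ← Xi_const_mul volume _ E₃ hL2, ← Xi_const_mul volume _ E₄ hL3,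
    ← Xi_add volume _ (hL0.const_mul E₁) (hL1.const_mul E₂),
    ← Xi_add volume _ ((hL0.const_mul E₁).add (hL1.const_mul E₂)) (hL2.const_mul E₃),
    ← Xi_add volume _ (((hL0.const_mul E₁).add (hL1.const_mul E₂)).add (hL2.const_mul E₃))
      (hL3.const_mul E₄)]
  refine Xi_mono_mem volume (measurableSet_Lam ℓ) fun l hl => ?_
  set N : ℝ := (l.length : ℝ) with hN
  have hN0 : 0 ≤ N := by positivity
  have hdom := chernoff_dom (ρ := ρ) (N := N) hLc hA ht hN0 hAnb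
  set H := HH h Γ μ 0 α₀ l with hH
  have e0 : WH (Ham (PhiB (ℓ : ℝ) h α₀ b Γ) (tauB μ α₀ b Γ)) l
      = ENNReal.ofReal (Real.exp H * Real.exp (b * N ^ 2)) := by
    simp only [WH]
    rw [Ham_PhiB_on_block hℓ h α₀ b μ Γ hl, Real.exp_add]
  have e1 : HH h Γ μ t₀ α₀ l = H + t₀ * N := by
    simp only [hH, HH, hN]
    ring
  have e2 : HH h Γ μ (-t₀) α₀ l = H + -(t₀ * N) := by
    simp only [hH, HH, hN]
    ring
  have e3 : HD h Γ μ α₀ b l = H + (N + b * N ^ 2) := by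
    simp only [hH, HD, HH, hN]
    ring
  rw [e0]
  simp only [WH]
  rw [e1, e2, e3, ← hH]
  simp only [hE₁, hE₂, hE₃, hE₄]
  rw [← ENNReal.ofReal_mul (Real.exp_pos _).le, ← ENNReal.ofReal_mul (Real.exp_pos _).le,
    ← ENNReal.ofReal_mul (Real.exp_pos _).le, ← ENNReal.ofReal_mul (Real.exp_pos _).le,
    ← ENNReal.ofReal_add (by positivity) (by positivity),
    ← ENNReal.ofReal_add (by positivity) (by positivity),
    ← ENNReal.ofReal_add (by positivity) (by positivity)]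
  refine ENNReal.ofReal_le_ofReal ?_
  have e4 : Real.exp (Lc * (A * (ρ + 2 * η) ^ 2 / 2)) * Real.exp H
      = Real.exp H * Real.exp (Lc * (A * (ρ + 2 * η) ^ 2 / 2)) := mul_comm _ _
  have e5 : Real.exp (-(Lc * (t₀ * (ρ + η)))) * Real.exp (H + t₀ * N)
      = Real.exp H * Real.exp (t₀ * N - Lc * (t₀ * (ρ + η))) := by
    rw [← Real.exp_add, ← Real.exp_add]
    congr 1
    ring
  have e6 : Real.exp (Lc * (t₀ * (ρ - η))) * Real.exp (H + -(t₀ * N))
      = Real.exp H * Real.exp (-(t₀ * N) + Lc * (t₀ * (ρ - η))) := by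
    rw [← Real.exp_add, ← Real.exp_add]
    congr 1
    ring
  have e7 : Real.exp (-(nb * Lc)) * Real.exp (H + (N + b * N ^ 2))
      = Real.exp H * Real.exp (-(nb * Lc) + N + b * N ^ 2) := by
    rw [← Real.exp_add, ← Real.exp_add]
    congr 1
    ring
  rw [e4, e5, e6, e7, ← mul_add, ← mul_add, ← mul_add]
  exact mul_le_mul_of_nonneg_left hdom (Real.exp_pos _).le

end Vale.Agent.Lib.P171b
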