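import Vale.Agent.Lib.P171b.KacBlock

open MeasureTheory Set Filter Topology
open scoped ENNReal Nat

namespace Vale.Agent.Lib.P171b

theorem kacA_mono {c₁ c₂ : ℕ → ℝ} (h₁ : Summable c₁) (h₂ : Summable c₂) (h : ∀ j, c₁ j ≤ c₂ j)
    (r : ℝ) : kacA c₁ r ≤ kacA c₂ r :=
  (summable_kacA h₁ r).tsum_le_tsum
    (fun j => mul_le_mul_of_nonneg_right (h j) (kac_nonneg (Rn_pos j).le r)) (summable_kacA h₂ r)

theorem Xi_HH_zero_le {h c' : ℕ → ℝ} (hh : Adm h) (hc' : Adm c') (hle : ∀ j, h j ≤ c' j)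
    (Γ : Set E3) (μ s : ℝ) (ℓ : ℕ) :
    Xi volume (Lam ℓ) (WH (HH h Γ μ s 0)) ≤ XiC c' (μ + s) ℓ := by
  refine Xi_mono volume _ fun l => ENNReal.ofReal_le_ofReal (Real.exp_le_exp.2 ?_)
  simp only [HH, Ham, Tot_const, zero_mul, add_zero]
  have : En (PhiC c') l ≤ En (PhiC h) l := by
    refine En_mono (fun x y => ?_) l
    simp only [PhiC, AP]
    linarith [kacA_mono hh.1 hc'.1 hle ‖x - y‖]
  linarith

open Classical in
/-- The site-dependent one-body bound. -/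
noncomputable def gSite (Γ : Set E3) (a B₀ B₁ : ℝ) (x : E3) : ℝ := a + (if x ∈ Γ then B₁ else B₀)

theorem measurable_gSite {Γ : Set E3} (hΓ : MeasurableSet Γ) (a B₀ B₁ : ℝ) :
    Measurable (gSite Γ a B₀ B₁) := by
  classical
  unfold gSite
  exact measurable_const.add (Measurable.ite hΓ measurable_const measurable_const)

theorem Tot_gSite (Γ : Set E3) [DecidablePred (· ∈ Γ)] (a B₀ B₁ : ℝ) (l : List E3) :
    Tot (gSite Γ a B₀ B₁) l = a * l.length + B₁ * (l.filter (· ∈ Γ)).length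
      + B₀ * (l.filter (fun x => ¬ x ∈ Γ)).length := by
  have h1 : gSite Γ a B₀ B₁ = fun x => a + ((if x ∈ Γ then B₁ else 0) + (if ¬ x ∈ Γ then B₀ else 0)) := by
    funext x
    unfold gSite
    by_cases hx : x ∈ Γ <;> simp [hx]
  rw [h1, Tot_add, Tot_add, Tot_const, Tot_filter (· ∈ Γ) (fun _ => B₁),
    Tot_filter (fun x => ¬ x ∈ Γ) (fun _ => B₀), Tot_const, Tot_const]
  ring

/-- Stability in the presence of the extra attraction in the boundary layer. -/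
theorem HH_stable {h : ℕ → ℝ} (hh : Adm h) {α₀ β : ℝ} (hα : ∑' j, h j ≤ α₀) (hβ : 0 ≤ β)
    {Γ : Set E3} (hcell : ∀ x y, lab 1 x = lab 1 y → (x ∈ Γ ↔ y ∈ Γ)) (μ s : ℝ) {l : List E3}
    (hl : l.Nodup) :
    HH h Γ μ s β l ≤ Tot (gSite Γ (μ + s) (Bs α₀) (Bs (α₀ + β))) l := by
  classical
  have hα0 : 0 ≤ α₀ := (tsum_nonneg_Adm hh).trans hα
  set l₁ := l.filter (· ∈ Γ) with hl₁
  set l₂ := l.filter (fun x => ¬ x ∈ Γ) with hl₂
  have hnd₁ : l₁.Nodup := hl.filter _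
  have hnd₂ : l₂.Nodup := hl.filter _
  have hs1 := core_stable (γ := α₀ + β) (by positivity) hnd₁
  have hs2 := core_stable hα0 hnd₂
  have hsplit : DS (Dl (lab 1)) l = DS (Dl (lab 1)) l₁ + DS (Dl (lab 1)) l₂ := by
    refine DS_split_of_filter (· ∈ Γ) (Dl_symm (lab 1)) (fun x y hx hy => ?_) l
    have : lab 1 x ≠ lab 1 y := fun e => hy ((hcell x y e).1 hx)
    simp [Dl, this]
  have hA := En_AP_le_unit hh l
  have hA2 : (∑' j, h j) * DS (Dl (lab 1)) l ≤ α₀ * DS (Dl (lab 1)) l :=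
    mul_le_mul_of_nonneg_right hα (DS_Dl_nonneg 1 l)
  have hφ : En phisP l₁ + En phisP l₂ ≤ En phisP l := by
    rw [hl₁, hl₂, ← En_filter (· ∈ Γ) phisP l, ← En_filter (fun x => ¬ x ∈ Γ) phisP l, ← En_add]
    refine En_mono (fun x y => ?_) l
    by_cases hx : x ∈ Γ <;> by_cases hy : y ∈ Γ <;> simp [hx, hy, phisP_nonneg x y]
  rw [Tot_gSite]
  simp only [HH, En_PhiC, DS_GG Γ l]
  have h0 : 0 ≤ DS (Dl (lab 1)) l₁ := DS_Dl_nonneg 1 l₁
  nlinarith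

/-- The bound for the grand sum with a boundary layer. -/
theorem Xi_HH_le {ℓ : ℕ} {h : ℕ → ℝ} (hh : Adm h) {α₀ β : ℝ} (hα : ∑' j, h j ≤ α₀) (hβ : 0 ≤ β)
    {Γ : Set E3} (hΓ : MeasurableSet Γ) (hcell : ∀ x y, lab 1 x = lab 1 y → (x ∈ Γ ↔ y ∈ Γ))
    (μ s : ℝ) {v : ℝ} (hv0 : 0 ≤ v) (hv : volume (Γ ∩ Lam ℓ) ≤ ENNReal.ofReal v) :
    Xi volume (Lam ℓ) (WH (HH h Γ μ s β)) ≤ ENNReal.ofReal (Real.exp
      (Real.exp (μ + s + Bs α₀) * (ℓ : ℝ) ^ 3 + Real.exp (μ + s + Bs (α₀ + β)) * v)) := by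
  classical
  set a₀ := Real.exp (μ + s + Bs α₀) with ha₀
  set a₁ := Real.exp (μ + s + Bs (α₀ + β)) with ha₁
  have ha₀p : 0 < a₀ := Real.exp_pos _
  have ha₁p : 0 < a₁ := Real.exp_pos _
  refine Xi_le_exp_of_stable volume (measurableSet_Lam ℓ)
    (measurable_gSite hΓ (μ + s) (Bs α₀) (Bs (α₀ + β)))
    (fun l hl _ => HH_stable hh hα hβ hcell μ s hl) (by positivity) ?_
  have hpt : ∀ y, ENNReal.ofReal (Real.exp (gSite Γ (μ + s) (Bs α₀) (Bs (α₀ + β)) y))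
      ≤ ENNReal.ofReal a₀ + Γ.indicator (fun _ => ENNReal.ofReal a₁) y := by
    intro y
    by_cases hy : y ∈ Γ
    · simp only [gSite, hy, if_true, indicator_of_mem]
      exact le_add_self
    · simp only [gSite, hy, if_false, indicator_of_notMem, not_false_eq_true, add_zero]
      exact le_rfl
  refine (lintegral_mono hpt).trans ?_
  rw [lintegral_add_left measurable_const, setLIntegral_const,
    setLIntegral_indicator hΓ, setLIntegral_const, volume_Lam,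
    ENNReal.ofReal_add (by positivity) (by positivity),
    ENNReal.ofReal_mul ha₀p.le, ENNReal.ofReal_mul ha₁p.le]
  gcongr

/-- The bound for the grand sum with the mean field term. -/
theorem Xi_HD_le {ℓ : ℕ} (hℓ : 0 < ℓ) {h : ℕ → ℝ} (hh : Adm h) {α₀ : ℝ} (hα : ∑' j, h j ≤ α₀)
    (Γ : Set E3) (μ : ℝ) {A : ℝ} (hA0 : 0 ≤ A) (hA1 : A ≤ 1) :
    Xi volume (Lam ℓ) (WH (HD h Γ μ α₀ (A / (2 * (ℓ : ℝ) ^ 3)))) ≤ ENNReal.ofReal (Real.exp
      (Real.exp (μ + 1 + Bs (2 * α₀ + 1 / 2)) * (ℓ : ℝ) ^ 3)) := by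
  have hα0 : 0 ≤ α₀ := (tsum_nonneg_Adm hh).trans hα
  have hℓ0 : (0 : ℝ) < ℓ := by exact_mod_cast hℓ
  refine Xi_le_exp_of_stable volume (measurableSet_Lam ℓ) (g := fun _ => μ + 1 + Bs (2 * α₀ + 1 / 2))
    measurable_const ?_ (by positivity) ?_
  · intro l hl hlS
    set γ := 2 * α₀ + 1 / 2 with hγ
    have hs := core_stable (γ := γ) (by positivity) hl
    have h1 := En_AP_le_unit hh l
    have h0 := DS_Dl_nonneg 1 l
    have h2 : (∑' j, h j) * DS (Dl (lab 1)) l ≤ α₀ * DS (Dl (lab 1)) l :=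
      mul_le_mul_of_nonneg_right hα h0
    have h3 : DS (GG Γ) l ≤ DS (Dl (lab 1)) l := DS_mono_mem fun x _ y _ => GG_le_Dl Γ x y
    have h4 : α₀ * DS (GG Γ) l ≤ α₀ * DS (Dl (lab 1)) l := mul_le_mul_of_nonneg_left h3 hα0
    have hpig : (l.length : ℝ) ^ 2 ≤ (ℓ : ℝ) ^ 3 * DS (Dl (lab 1)) l := by
      have := length_sq_le (lab 1) (Qm ℓ) l (fun x hx => by
        have hx' : x ∈ Lam (ℓ * 1) := by simpa using hlS x hx
        have := lab_mem_Qm (s := 1) (h := ℓ) one_pos hx'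
        simpa using this)
      rw [card_Qm] at this
      push_cast at this
      exact this
    have h5 : A / (2 * (ℓ : ℝ) ^ 3) * (l.length : ℝ) ^ 2 ≤ A / 2 * DS (Dl (lab 1)) l := by
      have e : A / 2 * DS (Dl (lab 1)) l
          = A / (2 * (ℓ : ℝ) ^ 3) * ((ℓ : ℝ) ^ 3 * DS (Dl (lab 1)) l) := by
        field_simp
      rw [e]
      exact mul_le_mul_of_nonneg_left hpig (by positivity)
    have h6 : A / 2 * DS (Dl (lab 1)) l ≤ 1 / 2 * DS (Dl (lab 1)) l :=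
      mul_le_mul_of_nonneg_right (by linarith) h0
    simp only [HD, HH, En_PhiC, Tot_const]
    have e : γ * DS (Dl (lab 1)) l = 2 * α₀ * DS (Dl (lab 1)) l + 1 / 2 * DS (Dl (lab 1)) l := by
      rw [hγ]
      ring
    nlinarith
  · rw [setLIntegral_const, volume_Lam, ENNReal.ofReal_mul (Real.exp_pos _).le]

/-- The bound for the layer system by Hoelder's inequality. -/
theorem Xi_HH_holder {ℓ : ℕ} {h c' : ℕ → ℝ} (hh : Adm h) (hc' : Adm c') (hle : ∀ j, h j ≤ c' j)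
    {Γ : Set E3} (hΓ : MeasurableSet Γ) (μ s α₀ : ℝ) {ι : ℝ} (hι0 : 0 < ι) (hι1 : ι < 1) {Z : ℝ}
    (hZ : Xi volume (Lam ℓ) (WH (HH h Γ μ s (α₀ / ι))) ≤ ENNReal.ofReal (Real.exp Z)) :
    Xi volume (Lam ℓ) (WH (HH h Γ μ s α₀))
      ≤ ENNReal.ofReal (Real.exp ((1 - ι) * fC c' (μ + s) ℓ + ι * Z)) := by
  have hp : 0 ≤ 1 - ι := by linarith
  have hq : 0 ≤ ι := hι0.le
  have h1 := Xi_holder_WH volume (measurableSet_Lam ℓ) (p := 1 - ι) (q := ι) hp hq (by ring)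
    (H := HH h Γ μ s α₀) (LM_HH hh hΓ μ s 0) (LM_HH hh hΓ μ s (α₀ / ι)) (fun l _ => by
      apply le_of_eq
      simp only [HH]
      field_simp
      ring)
  refine h1.trans ?_
  have h2 := Xi_HH_zero_le hh hc' hle Γ μ s ℓ
  have h3 : Xi volume (Lam ℓ) (WH (HH h Γ μ s 0)) ^ (1 - ι)
      ≤ XiC c' (μ + s) ℓ ^ (1 - ι) := ENNReal.rpow_le_rpow h2 hp
  have h4 : Xi volume (Lam ℓ) (WH (HH h Γ μ s (α₀ / ι))) ^ ι
      ≤ ENNReal.ofReal (Real.exp Z) ^ ι := ENNReal.rpow_le_rpow hZ hq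
  refine (mul_le_mul' h3 h4).trans (le_of_eq ?_)
  rw [XiC_eq hc', ENNReal.ofReal_rpow_of_pos (Real.exp_pos _),
    ENNReal.ofReal_rpow_of_pos (Real.exp_pos _), ← ENNReal.ofReal_mul (by positivity),
    ← Real.exp_mul, ← Real.exp_mul, ← Real.exp_add]
  congr 2
  ring

end Vale.Agent.Lib.P171b
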