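import Vale.Agent.Lib.P171b.KacBound

open MeasureTheory Set Filter Topology
open scoped ENNReal Nat

namespace Vale.Agent.Lib.P171b

/-- The boundary layer of blocks of side `ℓ` with width `w`. -/
def Gam (ℓ w : ℕ) : Set E3 :=
  {x | ∃ i, (lab 1 x i) % (ℓ : ℤ) < w ∨ (ℓ : ℤ) - w ≤ (lab 1 x i) % (ℓ : ℤ)}

theorem measurableSet_Gam (ℓ w : ℕ) : MeasurableSet (Gam ℓ w) := by
  have : Gam ℓ w = lab 1 ⁻¹' {q | ∃ i, q i % (ℓ : ℤ) < w ∨ (ℓ : ℤ) - w ≤ q i % (ℓ : ℤ)} := rfl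
  rw [this]
  exact measurable_lab 1 (MeasurableSet.of_discrete)

theorem Gam_cell (ℓ w : ℕ) (x y : E3) (h : lab 1 x = lab 1 y) : x ∈ Gam ℓ w ↔ y ∈ Gam ℓ w := by
  show (∃ i, (lab 1 x i) % (ℓ : ℤ) < w ∨ (ℓ : ℤ) - w ≤ (lab 1 x i) % (ℓ : ℤ)) ↔
    (∃ i, (lab 1 y i) % (ℓ : ℤ) < w ∨ (ℓ : ℤ) - w ≤ (lab 1 y i) % (ℓ : ℤ))
  rw [h]

theorem Gam_per (ℓ w : ℕ) (k : Fin 3 → ℤ) (x : E3) :
    x + -shiftV (ℓ : ℝ) k ∈ Gam ℓ w ↔ x ∈ Gam ℓ w := by
  have hv : ∀ i, (-shiftV (ℓ : ℝ) k) i = (1 : ℝ) * (((fun i => -((ℓ : ℤ) * k i)) i : ℤ) : ℝ) := by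
    intro i
    simp [shiftV_apply]
  have h1 := lab_add one_ne_zero x (-shiftV (ℓ : ℝ) k) _ hv
  show (∃ i, (lab 1 (x + -shiftV (ℓ : ℝ) k) i) % (ℓ : ℤ) < w ∨
      (ℓ : ℤ) - w ≤ (lab 1 (x + -shiftV (ℓ : ℝ) k) i) % (ℓ : ℤ)) ↔
    (∃ i, (lab 1 x i) % (ℓ : ℤ) < w ∨ (ℓ : ℤ) - w ≤ (lab 1 x i) % (ℓ : ℤ))
  rw [h1]
  have h2 : ∀ i, ((lab 1 x + fun i => -((ℓ : ℤ) * k i)) i) % (ℓ : ℤ) = (lab 1 x i) % (ℓ : ℤ) := by
    intro i
    simp only [Pi.add_apply]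
    rw [← mul_neg, Int.add_mul_emod_self_left]
  simp only [h2]

theorem layer_int {q q' ℓ w : ℤ} (hℓ : 0 < ℓ) (h : q / ℓ < q' / ℓ) (hd : q' - q ≤ w) :
    ℓ - w ≤ q % ℓ ∧ q' % ℓ < w := by
  have e1 := Int.emod_add_mul_ediv q ℓ
  have e2 := Int.emod_add_mul_ediv q' ℓ
  have r1 := Int.emod_lt_of_pos q hℓ
  have r2 := Int.emod_nonneg q' hℓ.ne'
  have h3 : ℓ * (q / ℓ) + ℓ ≤ ℓ * (q' / ℓ) := by nlinarith
  constructor <;> linarith

theorem floor_diff_le {x y : ℝ} {w : ℕ} (h : |x - y| < w) : ⌊y⌋ - ⌊x⌋ ≤ (w : ℤ) := by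
  have h1 := (abs_lt.1 h).1
  have h2 : y < x + w := by linarith
  have h3 : ⌊y⌋ < ⌊x⌋ + (w : ℤ) + 1 := by
    rw [Int.floor_lt]
    push_cast
    have := Int.lt_floor_add_one x
    linarith
  omega

/-- Pairs in different blocks at distance less than `w` are in the layer. -/
theorem Gam_cross {ℓ w : ℕ} (hℓ : 0 < ℓ) {x y : E3} (hne : lab (ℓ : ℝ) x ≠ lab (ℓ : ℝ) y)
    (hd : ‖x - y‖ < w) : x ∈ Gam ℓ w ∧ y ∈ Gam ℓ w := by
  obtain ⟨i, hi⟩ := Function.ne_iff.1 hne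
  have hd1 : |x i - y i| < w := lt_of_le_of_lt (abs_coord_le_norm x y i) hd
  have hd2 : |y i - x i| < w := by rwa [abs_sub_comm]
  have hℓz : (0 : ℤ) < ℓ := by exact_mod_cast hℓ
  have hx : lab (ℓ : ℝ) x i = ⌊x i⌋ / (ℓ : ℤ) := Int.floor_div_natCast _ _
  have hy : lab (ℓ : ℝ) y i = ⌊y i⌋ / (ℓ : ℤ) := Int.floor_div_natCast _ _
  have hx1 : lab 1 x i = ⌊x i⌋ := by simp [lab]
  have hy1 : lab 1 y i = ⌊y i⌋ := by simp [lab]
  rw [hx, hy] at hi
  rcases lt_or_gt_of_ne hi with hlt | hgt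
  · obtain ⟨h1, h2⟩ := layer_int hℓz hlt (floor_diff_le hd1)
    exact ⟨⟨i, Or.inr (by rwa [hx1])⟩, ⟨i, Or.inl (by rwa [hy1])⟩⟩
  · obtain ⟨h1, h2⟩ := layer_int hℓz hgt (floor_diff_le hd2)
    exact ⟨⟨i, Or.inl (by rwa [hx1])⟩, ⟨i, Or.inr (by rwa [hy1])⟩⟩

/-- A slab at the low side of direction `i`. -/
def slabLow (ℓ w : ℕ) (i : Fin 3) : Set E3 :=
  box (fun _ => 0) (fun j => if j = i then (w : ℝ) else ℓ)

/-- A slab at the high side of direction `i`. -/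
def slabHigh (ℓ w : ℕ) (i : Fin 3) : Set E3 :=
  box (fun j => if j = i then (ℓ : ℝ) - w else 0) (fun _ => ℓ)

theorem volume_slabLow (ℓ w : ℕ) (i : Fin 3) :
    volume (slabLow ℓ w i) = ENNReal.ofReal ((w : ℝ) * (ℓ : ℝ) ^ 2) := by
  unfold slabLow
  rw [volume_box, Fin.prod_univ_three, ENNReal.ofReal_mul (by positivity), sq,
    ENNReal.ofReal_mul (by positivity)]
  fin_cases i <;> simp <;> ring

theorem volume_slabHigh (ℓ w : ℕ) (i : Fin 3) :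
    volume (slabHigh ℓ w i) = ENNReal.ofReal ((w : ℝ) * (ℓ : ℝ) ^ 2) := by
  unfold slabHigh
  rw [volume_box, Fin.prod_univ_three, ENNReal.ofReal_mul (by positivity), sq,
    ENNReal.ofReal_mul (by positivity)]
  fin_cases i <;> simp <;> ring

theorem Gam_inter_subset {ℓ w : ℕ} (hw : w ≤ ℓ) :
    Gam ℓ w ∩ Lam ℓ ⊆ ⋃ i, (slabLow ℓ w i ∪ slabHigh ℓ w i) := by
  rintro x ⟨⟨i, hi⟩, hL⟩
  have hw' : (w : ℝ) ≤ ℓ := by exact_mod_cast hw
  simp only [mem_iUnion]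
  refine ⟨i, ?_⟩
  have hlab : lab 1 x i = ⌊x i⌋ := by simp [lab]
  rw [hlab] at hi
  have hxi := hL i
  have hx0 : (0 : ℝ) ≤ x i := hxi.1
  have hxℓ : x i < (ℓ : ℝ) := hxi.2
  have hq0 : 0 ≤ ⌊x i⌋ := Int.floor_nonneg.2 hx0
  have hqℓ : ⌊x i⌋ < (ℓ : ℤ) := by
    rw [Int.floor_lt]
    exact_mod_cast hxℓ
  rw [Int.emod_eq_of_lt hq0 hqℓ] at hi
  rcases hi with h1 | h2
  · left
    intro j
    by_cases hj : j = i
    · subst hj
      refine ⟨hx0, ?_⟩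
      simp only [if_true]
      have := (Int.floor_lt).1 h1
      exact_mod_cast this
    · simp only [hj, if_false]
      exact ⟨(hL j).1, (hL j).2⟩
  · right
    intro j
    by_cases hj : j = i
    · subst hj
      simp only [if_true]
      refine ⟨?_, hxℓ⟩
      have := (Int.le_floor).1 h2
      push_cast at this
      exact this
    · simp only [hj, if_false]
      exact ⟨(hL j).1, (hL j).2⟩

theorem volume_Gam_le {ℓ w : ℕ} (hw : w ≤ ℓ) :
    volume (Gam ℓ w ∩ Lam ℓ) ≤ ENNReal.ofReal (6 * (w : ℝ) * (ℓ : ℝ) ^ 2) := by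
  refine (measure_mono (Gam_inter_subset hw)).trans ?_
  refine (measure_iUnion_fintype_le _ _).trans ?_
  have h1 : ∀ i : Fin 3, volume (slabLow ℓ w i ∪ slabHigh ℓ w i)
      ≤ ENNReal.ofReal ((w : ℝ) * (ℓ : ℝ) ^ 2) + ENNReal.ofReal ((w : ℝ) * (ℓ : ℝ) ^ 2) := by
    intro i
    refine (measure_union_le _ _).trans ?_
    rw [volume_slabLow, volume_slabHigh]
  refine (Finset.sum_le_sum fun i _ => h1 i).trans (le_of_eq ?_)
  rw [Fin.sum_univ_three, ← ENNReal.ofReal_add (by positivity) (by positivity),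
    ← ENNReal.ofReal_add (by positivity) (by positivity),
    ← ENNReal.ofReal_add (by positivity) (by positivity)]
  congr 1
  ring

/-! ### Scales -/

/-- Block sides. -/
def Ln (J : ℕ) : ℕ := 2 ^ ((J + 3) * (J + 4))

/-- Layer widths, equal to the scales `Rn`. -/
def Wn (J : ℕ) : ℕ := 2 ^ ((J + 3) ^ 2)

theorem Wn_cast (J : ℕ) : (Wn J : ℝ) = Rn J := by
  simp [Wn, Rn]

theorem Ln_pos (J : ℕ) : 0 < Ln J := by
  unfold Ln
  positivity

theorem Wn_le_Ln (J : ℕ) : Wn J ≤ Ln J := by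
  unfold Wn Ln
  refine Nat.pow_le_pow_right (by norm_num) ?_
  nlinarith

theorem Wn_div_Ln (J : ℕ) : (Wn J : ℝ) / (Ln J : ℝ) = (1 / 2) ^ (J + 3) := by
  have e : (J + 3) * (J + 4) = (J + 3) ^ 2 + (J + 3) := by ring
  simp only [Wn, Ln, e]
  push_cast
  rw [pow_add, one_div_pow]
  field_simp

theorem Ln_div_Rn (J : ℕ) : (Ln J : ℝ) / Rn (J + 1) = (1 / 2) ^ (J + 4) := by
  have e : (J + 1 + 3) ^ 2 = (J + 3) * (J + 4) + (J + 4) := by ring
  simp only [Rn, Ln, e]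
  push_cast
  rw [pow_add, one_div_pow]
  field_simp

theorem tendsto_Ln : Tendsto (fun J => ((Ln J : ℕ) : ℝ)) atTop atTop := by
  have h : ∀ J : ℕ, (J : ℝ) ≤ (Ln J : ℝ) := by
    intro J
    have h1 : J ≤ (J + 3) * (J + 4) := by nlinarith
    have h2 : (J + 3) * (J + 4) < 2 ^ ((J + 3) * (J + 4)) := Nat.lt_two_pow_self
    have : J ≤ Ln J := le_trans h1 h2.le
    exact_mod_cast this
  exact tendsto_atTop_mono h tendsto_natCast_atTop_atTop

theorem tendsto_half_pow (d : ℕ) : Tendsto (fun J : ℕ => ((1 : ℝ) / 2) ^ (J + d)) atTop (𝓝 0) :=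
  (tendsto_add_atTop_iff_nat d).2
    (tendsto_pow_atTop_nhds_zero_of_lt_one (by norm_num) (by norm_num))

/-! ### Splitting coefficients -/

/-- Adding mass `a` at index `J`. -/
noncomputable def pert (c : ℕ → ℝ) (a : ℝ) (J : ℕ) (j : ℕ) : ℝ := c j + if j = J then a else 0

/-- Keeping only the indices up to `J`. -/
noncomputable def head (J : ℕ) (c : ℕ → ℝ) (j : ℕ) : ℝ := if j ≤ J then c j else 0

/-- Keeping only the indices beyond `J`. -/
noncomputable def tail (J : ℕ) (c : ℕ → ℝ) (j : ℕ) : ℝ := if j ≤ J then 0 else c j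

theorem hasSum_pert {c : ℕ → ℝ} (hc : Summable c) (a : ℝ) (J : ℕ) :
    HasSum (pert c a J) ((∑' j, c j) + a) :=
  hc.hasSum.add (hasSum_ite_eq J a)

theorem Adm_pert {c : ℕ → ℝ} (hc : Adm c) {a : ℝ} (ha : 0 ≤ a) (J : ℕ) : Adm (pert c a J) := by
  refine ⟨(hasSum_pert hc.1 a J).summable, fun j => ?_⟩
  unfold pert
  have := hc.2 j
  split_ifs <;> linarith

theorem hasSum_head (J : ℕ) (c : ℕ → ℝ) :
    HasSum (head J c) (∑ j ∈ Finset.range (J + 1), c j) := by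
  have h1 : ∀ b ∉ Finset.range (J + 1), head J c b = 0 := by
    intro b hb
    have : ¬ b ≤ J := by
      simpa [Nat.lt_succ_iff] using hb
    simp [head, this]
  have h2 : HasSum (head J c) (∑ j ∈ Finset.range (J + 1), head J c j) :=
    hasSum_sum_of_ne_finset_zero h1
  have h3 : ∑ j ∈ Finset.range (J + 1), head J c j = ∑ j ∈ Finset.range (J + 1), c j := by
    refine Finset.sum_congr rfl fun j hj => ?_
    have : j ≤ J := Nat.lt_succ_iff.1 (Finset.mem_range.1 hj)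
    simp [head, this]
  rw [← h3]
  exact h2

theorem Adm_head {c : ℕ → ℝ} (hc : Adm c) (J : ℕ) : Adm (head J c) := by
  refine ⟨(hasSum_head J c).summable, fun j => ?_⟩
  unfold head
  have := hc.2 j
  split_ifs <;> linarith

theorem head_add_tail (J : ℕ) (c : ℕ → ℝ) (j : ℕ) : c j = head J c j + tail J c j := by
  unfold head tail
  split_ifs <;> ring

theorem hasSum_tail {c : ℕ → ℝ} {s : ℝ} (hc : HasSum c s) (J : ℕ) :
    HasSum (tail J c) (s - ∑ j ∈ Finset.range (J + 1), c j) := by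
  have h1 := hc.sub (hasSum_head J c)
  have e : tail J c = fun b => c b - head J c b := by
    funext j
    have := head_add_tail J c j
    linarith
  rw [e]
  exact h1

theorem Adm_tail {c : ℕ → ℝ} (hc : Adm c) (J : ℕ) : Adm (tail J c) := by
  refine ⟨(hasSum_tail hc.1.hasSum J).summable, fun j => ?_⟩
  unfold tail
  have := hc.2 j
  split_ifs <;> linarith

theorem head_pert (c : ℕ → ℝ) (a : ℝ) (J j : ℕ) : head J (pert c a (J + 1)) j = head J c j := by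
  unfold head pert
  by_cases hj : j ≤ J
  · have : j ≠ J + 1 := by omega
    simp [hj, this]
  · simp [hj]

theorem head_le {c : ℕ → ℝ} (hc : Adm c) (J j : ℕ) : head J c j ≤ c j := by
  unfold head
  have := hc.2 j
  split_ifs <;> linarith

theorem tsum_head_le {c : ℕ → ℝ} (hc : Adm c) (J : ℕ) : ∑' j, head J c j ≤ ∑' j, c j :=
  (Adm_head hc J).1.tsum_le_tsum (head_le hc J) hc.1

/-- The head has finite range. -/
theorem AP_head_far {c : ℕ → ℝ} (J : ℕ) (x y : E3) (h : (Wn J : ℝ) ≤ ‖x - y‖) :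
    AP (head J c) x y = 0 := by
  unfold AP kacA
  have : ∀ j, head J c j * kac (Rn j) ‖x - y‖ = 0 := by
    intro j
    by_cases hj : j ≤ J
    · have h1 : Rn j ≤ ‖x - y‖ := by
        have := Rn_mono hj
        rw [Wn_cast] at h
        linarith
      simp [kac, not_lt.2 h1]
    · simp [head, hj]
  simp [this]

/-- The bound for the tail of the attraction. -/
theorem En_AP_tail_le {c : ℕ → ℝ} (hc : Adm c) (J : ℕ) (l : List E3) :
    En (AP (tail J c)) l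
      ≤ ((∑' j, tail J c j) * (1 + 4 * ((Ln J : ℝ) / Rn (J + 1))) ^ 3 / (2 * (Ln J : ℝ) ^ 3))
          * DS (Dl (lab (Ln J : ℝ))) l := by
  have hℓ0 : (0 : ℝ) < Ln J := by exact_mod_cast Ln_pos J
  set eps := (1 + 4 * ((Ln J : ℝ) / Rn (J + 1))) ^ 3 with heps
  set Q := eps / (2 * (Ln J : ℝ) ^ 3) * DS (Dl (lab (Ln J : ℝ))) l with hQ
  have h0 := DS_Dl_nonneg (Ln J : ℝ) l
  have h1 : En (AP (tail J c)) l ≤ (∑' j, tail J c j) * Q := by
    refine En_AP_le (Adm_tail hc J) fun j hj => ?_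
    have hjJ : ¬ j ≤ J := by
      intro hle
      exact hj (by simp [tail, hle])
    have hRj : Rn (J + 1) ≤ Rn j := Rn_mono (by omega)
    have hRp : 0 < Rn (J + 1) := Rn_pos _
    have hRjp : 0 < Rn j := Rn_pos _
    refine (En_kacP_le hℓ0 hRjp l).trans (mul_le_mul_of_nonneg_right ?_ h0)
    have e : (Rn j + 4 * (Ln J : ℝ)) ^ 3 / (2 * (Rn j ^ 3 * (Ln J : ℝ) ^ 3))
        = (1 + 4 * ((Ln J : ℝ) / Rn j)) ^ 3 / (2 * (Ln J : ℝ) ^ 3) := by
      field_simp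
    rw [e]
    refine div_le_div_of_nonneg_right ?_ (by positivity)
    refine pow_le_pow_left₀ (by positivity) ?_ 3
    have : (Ln J : ℝ) / Rn j ≤ (Ln J : ℝ) / Rn (J + 1) :=
      div_le_div_of_nonneg_left hℓ0.le hRp hRj
    linarith
  refine h1.trans (le_of_eq ?_)
  rw [hQ]
  ring

end Vale.Agent.Lib.P171b
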