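import Vale.Agent.Lib.P171b.KacLayer

open MeasureTheory Set Filter Topology
open scoped ENNReal Nat

namespace Vale.Agent.Lib.P171b

theorem ofReal_exp_mul_le {Y : ℝ≥0∞} {E y W : ℝ} (hY : Y ≤ ENNReal.ofReal (Real.exp y))
    (h : E + y ≤ W) : ENNReal.ofReal (Real.exp E) * Y ≤ ENNReal.ofReal (Real.exp W) := by
  calc ENNReal.ofReal (Real.exp E) * Y
      ≤ ENNReal.ofReal (Real.exp E) * ENNReal.ofReal (Real.exp y) := mul_le_mul_right hY _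
    _ = ENNReal.ofReal (Real.exp (E + y)) := by
        rw [← ENNReal.ofReal_mul (Real.exp_pos _).le, Real.exp_add]
    _ ≤ _ := ENNReal.ofReal_le_ofReal (Real.exp_le_exp.2 h)

theorem four_le {X a₀ a₁ a₂ a₃ : ℝ≥0∞} {W : ℝ} (hX : X ≤ a₀ + a₁ + a₂ + a₃)
    (h0 : a₀ ≤ ENNReal.ofReal (Real.exp W)) (h1 : a₁ ≤ ENNReal.ofReal (Real.exp W))
    (h2 : a₂ ≤ ENNReal.ofReal (Real.exp W)) (h3 : a₃ ≤ ENNReal.ofReal (Real.exp W)) :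
    X ≤ ENNReal.ofReal (Real.exp (Real.log 4 + W)) := by
  refine hX.trans ?_
  have h4 : ENNReal.ofReal (Real.exp (Real.log 4 + W))
      = ENNReal.ofReal (Real.exp W) + ENNReal.ofReal (Real.exp W) + ENNReal.ofReal (Real.exp W)
        + ENNReal.ofReal (Real.exp W) := by
    rw [Real.exp_add, Real.exp_log (by norm_num), ← ENNReal.ofReal_add (by positivity) (by positivity),
      ← ENNReal.ofReal_add (by positivity) (by positivity),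
      ← ENNReal.ofReal_add (by positivity) (by positivity)]
    congr 1
    ring
  rw [h4]
  gcongr

theorem real_four {Lc G P₀ Pp Pq A₀ Z' t₀ ρ η : ℝ} (hLc : 0 < Lc) (hGL : Lc ≤ G) (hP₀0 : 0 ≤ P₀)
    (hA₀0 : 0 ≤ A₀) (hZ0 : 0 ≤ Z') (ht0 : 0 < t₀) (hη : 0 ≤ η)
    (hp : Pp ≤ P₀ + t₀ * (ρ + η)) (hm : Pq ≤ P₀ - t₀ * (ρ - η)) :
    Lc * A₀ + (G * P₀ + Z') ≤ Lc * P₀ + Lc * A₀ + (G - Lc) * (P₀ + t₀ * |ρ| + t₀ * η) + Z' ∧
    -(Lc * (t₀ * (ρ + η))) + (G * Pp + Z')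
      ≤ Lc * P₀ + Lc * A₀ + (G - Lc) * (P₀ + t₀ * |ρ| + t₀ * η) + Z' ∧
    Lc * (t₀ * (ρ - η)) + (G * Pq + Z')
      ≤ Lc * P₀ + Lc * A₀ + (G - Lc) * (P₀ + t₀ * |ρ| + t₀ * η) + Z' ∧
    0 ≤ Lc * P₀ + Lc * A₀ + (G - Lc) * (P₀ + t₀ * |ρ| + t₀ * η) + Z' := by
  have hG0 : 0 ≤ G := by linarith
  have hd : 0 ≤ G - Lc := by linarith
  set K := P₀ + t₀ * |ρ| + t₀ * η with hK
  have h1 : t₀ * ρ ≤ t₀ * |ρ| := mul_le_mul_of_nonneg_left (le_abs_self ρ) ht0.le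
  have h2 : t₀ * (-ρ) ≤ t₀ * |ρ| := mul_le_mul_of_nonneg_left (neg_le_abs ρ) ht0.le
  have h3 : 0 ≤ t₀ * |ρ| := by positivity
  have h4 : 0 ≤ t₀ * η := by positivity
  have hK0 : P₀ ≤ K := by linarith
  have hK1 : P₀ + t₀ * (ρ + η) ≤ K := by
    rw [mul_add]
    linarith
  have hK2 : P₀ - t₀ * (ρ - η) ≤ K := by
    have e : t₀ * (ρ - η) = -(t₀ * (-ρ)) - t₀ * η := by ring
    rw [e]
    linarith
  have hLA : 0 ≤ Lc * A₀ := mul_nonneg hLc.le hA₀0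
  have hLP : 0 ≤ Lc * P₀ := mul_nonneg hLc.le hP₀0
  have hdK : (G - Lc) * P₀ ≤ (G - Lc) * K := mul_le_mul_of_nonneg_left hK0 hd
  have hdK1 := mul_le_mul_of_nonneg_left hK1 hd
  have hdK2 := mul_le_mul_of_nonneg_left hK2 hd
  have hGp := mul_le_mul_of_nonneg_left hp hG0
  have hGm := mul_le_mul_of_nonneg_left hm hG0
  have hK00 : 0 ≤ K := by linarith
  refine ⟨?_, ?_, ?_, ?_⟩
  · have e : G * P₀ = Lc * P₀ + (G - Lc) * P₀ := by ring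
    linarith
  · have e : G * (P₀ + t₀ * (ρ + η)) = Lc * (P₀ + t₀ * (ρ + η)) + (G - Lc) * (P₀ + t₀ * (ρ + η)) := by
      ring
    have e2 : Lc * (P₀ + t₀ * (ρ + η)) = Lc * P₀ + Lc * (t₀ * (ρ + η)) := by ring
    linarith
  · have e : G * (P₀ - t₀ * (ρ - η)) = Lc * (P₀ - t₀ * (ρ - η)) + (G - Lc) * (P₀ - t₀ * (ρ - η)) := by
      ring
    have e2 : Lc * (P₀ - t₀ * (ρ - η)) = Lc * P₀ - Lc * (t₀ * (ρ - η)) := by ring
    linarith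
  · have := mul_nonneg hd hK00
    linarith

theorem real_div {ℓ P₀ A₀ K ι e₀ e₁ w : ℝ} (hℓ : 0 < ℓ) :
    (Real.log 4 + (ℓ ^ 3 * P₀ + ℓ ^ 3 * A₀ + ((ℓ + 1) ^ 3 - ℓ ^ 3) * K
        + ι * (e₀ * ℓ ^ 3 + e₁ * (6 * w * ℓ ^ 2)))) / ℓ ^ 3
      = Real.log 4 / ℓ ^ 3 + (P₀ + A₀ + (((ℓ + 1) / ℓ) ^ 3 - 1) * K
        + ι * (e₀ + e₁ * (6 * (w / ℓ)))) := by
  have hℓ' : ℓ ≠ 0 := hℓ.ne'
  rw [div_pow]
  field_simp

/-- The main estimate at a fixed level `J`. -/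
theorem Pr_pert_le {c' : ℕ → ℝ} (hc : Adm c') (μ : ℝ) {a ρ η t₀ ι nb : ℝ} (ha : 0 ≤ a) (J : ℕ)
    (ht0 : 0 < t₀) (ht1 : t₀ ≤ 1) (hη : 0 ≤ η) (hι0 : 0 < ι) (hι1 : ι < 1)
    (hp : Pr c' (μ + t₀) ≤ Pr c' μ + t₀ * (ρ + η))
    (hm : Pr c' (μ + -t₀) ≤ Pr c' μ - t₀ * (ρ - η))
    (hnb : Real.exp (μ + 1 + Bs (2 * (∑' j, c' j) + 1 / 2)) ≤ nb)
    (hA1 : ((∑' j, c' j) + a - ∑ j ∈ Finset.range (J + 1), c' j)
      * (1 + 4 * ((Ln J : ℝ) / Rn (J + 1))) ^ 3 ≤ 1)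
    (hAnb : ((∑' j, c' j) + a - ∑ j ∈ Finset.range (J + 1), c' j)
      * (1 + 4 * ((Ln J : ℝ) / Rn (J + 1))) ^ 3 * nb ^ 2 ≤ 2 * η * t₀) :
    Pr (pert c' a (J + 1)) μ ≤ Real.log 4 / (Ln J : ℝ) ^ 3 + (Pr c' μ
      + ((∑' j, c' j) + a - ∑ j ∈ Finset.range (J + 1), c' j)
          * (1 + 4 * ((Ln J : ℝ) / Rn (J + 1))) ^ 3 * (ρ + 2 * η) ^ 2 / 2
      + ((((Ln J : ℝ) + 1) / (Ln J : ℝ)) ^ 3 - 1) * (Pr c' μ + t₀ * |ρ| + t₀ * η)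
      + ι * (Real.exp (μ + 1 + Bs (∑' j, c' j))
        + Real.exp (μ + 1 + Bs ((∑' j, c' j) + (∑' j, c' j) / ι))
          * (6 * ((Wn J : ℝ) / (Ln J : ℝ))))) := by
  set α₀ := ∑' j, c' j with hα₀
  have hα00 : 0 ≤ α₀ := tsum_nonneg_Adm hc
  set ℓ : ℕ := Ln J with hℓdef
  have hℓ : 0 < ℓ := Ln_pos J
  have hℓ0 : (0 : ℝ) < ℓ := by exact_mod_cast hℓ
  set w : ℕ := Wn J with hw
  set c'' := pert c' a (J + 1) with hc''
  have hAc'' : Adm c'' := Adm_pert hc ha _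
  set h := head J c' with hh_def
  have hh : Adm h := Adm_head hc J
  set t := tail J c'' with ht
  have hAt : Adm t := Adm_tail hAc'' J
  have hsplit : ∀ j, c'' j = h j + t j := by
    intro j
    have := head_add_tail J c'' j
    rw [hc'', head_pert] at this
    exact this
  have hsum_t : ∑' j, t j = α₀ + a - ∑ j ∈ Finset.range (J + 1), c' j := by
    have h1 := (hasSum_tail (hasSum_pert hc.1 a (J + 1)) J).tsum_eq
    rw [ht, hc'', h1]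
    congr 1
    refine Finset.sum_congr rfl fun j hj => ?_
    have : j ≠ J + 1 := by
      have := Finset.mem_range.1 hj
      omega
    simp [pert, this]
  set eps := (1 + 4 * ((ℓ : ℝ) / Rn (J + 1))) ^ 3 with heps
  set A := (α₀ + a - ∑ j ∈ Finset.range (J + 1), c' j) * eps with hA
  have hA0 : 0 ≤ A := by
    rw [hA, ← hsum_t]
    exact mul_nonneg (tsum_nonneg_Adm hAt) (by have := Rn_pos (J + 1); positivity)
  set b := A / (2 * (ℓ : ℝ) ^ 3) with hb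
  set Γ := Gam ℓ w with hΓdef
  have hΓ : MeasurableSet Γ := measurableSet_Gam ℓ w
  have hsumh : ∑' j, h j ≤ α₀ := tsum_head_le hc J
  -- comparison with the block system
  have hcfg : ∀ l, Ham (PhiC c'') (fun _ => μ) l
      ≤ Ham (PhiB (ℓ : ℝ) h α₀ b Γ) (tauB μ α₀ b Γ) l := by
    refine config_le (w := (w : ℝ)) hh hAt hsplit hsumh (fun l => ?_) (fun x y hxy => ?_)
      (fun x y hne hd => Gam_cross hℓ hne hd)
    · refine (En_AP_tail_le hAc'' J l).trans (le_of_eq ?_)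
      rw [← hℓdef, hsum_t, hb, hA]
    · exact AP_head_far J x y hxy
  set X := Xi volume (Lam ℓ) (WH (Ham (PhiB (ℓ : ℝ) h α₀ b Γ) (tauB μ α₀ b Γ))) with hX
  have hfour := Xi_block_le_four hℓ hh hΓ α₀ μ hA0 ht0 (ρ := ρ) hAnb
  have hv : volume (Γ ∩ Lam ℓ) ≤ ENNReal.ofReal (6 * (w : ℝ) * (ℓ : ℝ) ^ 2) :=
    volume_Gam_le (Wn_le_Ln J)
  set α₁ := α₀ + α₀ / ι with hα₁
  set e₀ := Real.exp (μ + 1 + Bs α₀) with he₀
  set e₁ := Real.exp (μ + 1 + Bs α₁) with he₁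
  set Z := e₀ * (ℓ : ℝ) ^ 3 + e₁ * (6 * (w : ℝ) * (ℓ : ℝ) ^ 2) with hZdef
  have hw0 : (0 : ℝ) ≤ w := by positivity
  -- bound on the layer grand sums
  have hY : ∀ s : ℝ, s ≤ 1 → Xi volume (Lam ℓ) (WH (HH h Γ μ s α₀))
      ≤ ENNReal.ofReal (Real.exp (((ℓ : ℝ) + 1) ^ 3 * Pr c' (μ + s) + ι * Z)) := by
    intro s hs
    have hβ : 0 ≤ α₀ / ι := by positivity
    have h1 := Xi_HH_le hh hsumh hβ hΓ (Gam_cell ℓ w) μ s (v := 6 * (w : ℝ) * (ℓ : ℝ) ^ 2)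
      (by positivity) hv
    have h2 := Xi_HH_holder hh hc (head_le hc J) hΓ μ s α₀ hι0 hι1 h1
    refine h2.trans (ENNReal.ofReal_le_ofReal (Real.exp_le_exp.2 ?_))
    have h3 : fC c' (μ + s) ℓ ≤ ((ℓ : ℝ) + 1) ^ 3 * Pr c' (μ + s) := fC_le_Pr hc (μ + s) ℓ
    have h4 := fC_nonneg hc (μ + s) ℓ
    have h5 : (1 - ι) * fC c' (μ + s) ℓ ≤ fC c' (μ + s) ℓ := by nlinarith
    have h6 : Real.exp (μ + s + Bs α₀) * (ℓ : ℝ) ^ 3 + Real.exp (μ + s + Bs α₁)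
        * (6 * (w : ℝ) * (ℓ : ℝ) ^ 2) ≤ Z := by
      have e1 : Real.exp (μ + s + Bs α₀) ≤ e₀ := Real.exp_le_exp.2 (by linarith)
      have e2 : Real.exp (μ + s + Bs α₁) ≤ e₁ := Real.exp_le_exp.2 (by linarith)
      exact add_le_add (mul_le_mul_of_nonneg_right e1 (by positivity))
        (mul_le_mul_of_nonneg_right e2 (by positivity))
    have h7 := mul_le_mul_of_nonneg_left h6 hι0.le
    linarith
  have hYD := Xi_HD_le hℓ hh hsumh Γ μ hA0 hA1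
  -- real inequalities
  have hP₀0 : 0 ≤ Pr c' μ := Pr_nonneg hc μ
  have hLcpos : 0 < (ℓ : ℝ) ^ 3 := by positivity
  have hGL : (ℓ : ℝ) ^ 3 ≤ ((ℓ : ℝ) + 1) ^ 3 := pow_le_pow_left₀ hℓ0.le (by linarith) 3
  have hA₀0 : 0 ≤ A * (ρ + 2 * η) ^ 2 / 2 := by positivity
  have hZ0 : 0 ≤ ι * Z := by
    have h1 : 0 < e₀ := Real.exp_pos _
    have h2 : 0 < e₁ := Real.exp_pos _
    positivity
  obtain ⟨h1, h2, h3, h4⟩ := real_four hLcpos hGL hP₀0 hA₀0 hZ0 ht0 hη hp hm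
  set W := (ℓ : ℝ) ^ 3 * Pr c' μ + (ℓ : ℝ) ^ 3 * (A * (ρ + 2 * η) ^ 2 / 2)
    + (((ℓ : ℝ) + 1) ^ 3 - (ℓ : ℝ) ^ 3) * (Pr c' μ + t₀ * |ρ| + t₀ * η) + ι * Z with hW
  -- the four terms
  have hXle : X ≤ ENNReal.ofReal (Real.exp (Real.log 4 + W)) := by
    refine four_le hfour ?_ ?_ ?_ ?_
    · refine ofReal_exp_mul_le (y := ((ℓ : ℝ) + 1) ^ 3 * Pr c' μ + ι * Z) ?_ h1
      have := hY 0 (by norm_num)
      rwa [add_zero] at this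
    · exact ofReal_exp_mul_le (hY t₀ ht1) h2
    · exact ofReal_exp_mul_le (hY (-t₀) (by linarith)) h3
    · refine ofReal_exp_mul_le hYD ?_
      have h5 := mul_le_mul_of_nonneg_right hnb hLcpos.le
      have e : -(nb * (ℓ : ℝ) ^ 3) + Real.exp (μ + 1 + Bs (2 * α₀ + 1 / 2)) * (ℓ : ℝ) ^ 3
          = Real.exp (μ + 1 + Bs (2 * α₀ + 1 / 2)) * (ℓ : ℝ) ^ 3 - nb * (ℓ : ℝ) ^ 3 := by ring
      rw [e]
      linarith
  -- conclusion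
  have hfinal := Pr_le_of_blocks hAc'' μ hℓ (V := Real.log 4 + W) (fun m => by
    have h1 : XiC c'' μ (m * ℓ) ≤ Xi volume (Lam (m * ℓ))
        (WH (Ham (PhiB (ℓ : ℝ) h α₀ b Γ) (tauB μ α₀ b Γ))) :=
      Xi_mono volume _ fun l => ENNReal.ofReal_le_ofReal (Real.exp_le_exp.2 (hcfg l))
    have h2 := Xi_Lam_le_pow hℓ hh α₀ b μ hΓ (Gam_per ℓ w) m
    refine h1.trans (h2.trans ?_)
    refine (pow_le_pow_left' hXle _).trans (le_of_eq ?_)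
    rw [← ENNReal.ofReal_pow (Real.exp_pos _).le, ← Real.exp_nat_mul]
    push_cast
    rfl)
  refine hfinal.trans (le_of_eq ?_)
  rw [hW, hZdef]
  exact real_div hℓ0

end Vale.Agent.Lib.P171b
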