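import Vale.Agent.Lib.P171b.Trial

open MeasureTheory Set Filter Topology
open scoped ENNReal Nat

namespace Vale.Agent.Lib.P171b

open Classical in
/-- Indicator of a set as a real function. -/
noncomputable def ind1 (Γ : Set E3) (x : E3) : ℝ := if x ∈ Γ then 1 else 0

/-- Same-unit-cell indicator restricted to pairs in the set `Γ`. -/
noncomputable def GG (Γ : Set E3) (x y : E3) : ℝ := ind1 Γ x * ind1 Γ y * Dl (lab 1) x y

theorem ind1_nonneg (Γ : Set E3) (x : E3) : 0 ≤ ind1 Γ x := by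
  unfold ind1
  split_ifs <;> norm_num

theorem ind1_le_one (Γ : Set E3) (x : E3) : ind1 Γ x ≤ 1 := by
  unfold ind1
  split_ifs <;> norm_num

theorem ind1_mul_self (Γ : Set E3) (x : E3) : ind1 Γ x * ind1 Γ x = ind1 Γ x := by
  unfold ind1
  split_ifs <;> norm_num

theorem measurable_ind1 {Γ : Set E3} (hΓ : MeasurableSet Γ) : Measurable (ind1 Γ) := by
  classical
  unfold ind1
  exact Measurable.ite hΓ measurable_const measurable_const

theorem GG_symm (Γ : Set E3) (x y : E3) : GG Γ x y = GG Γ y x := by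
  unfold GG
  rw [Dl_symm]
  ring

theorem GG_self (Γ : Set E3) (x : E3) : GG Γ x x = ind1 Γ x := by
  unfold GG
  rw [Dl_self, ind1_mul_self, mul_one]

theorem GG_nonneg (Γ : Set E3) (x y : E3) : 0 ≤ GG Γ x y :=
  mul_nonneg (mul_nonneg (ind1_nonneg _ _) (ind1_nonneg _ _)) (Dl_nonneg _ _ _)

theorem GG_le_Dl (Γ : Set E3) (x y : E3) : GG Γ x y ≤ Dl (lab 1) x y := by
  unfold GG
  have h1 : ind1 Γ x * ind1 Γ y ≤ 1 :=
    mul_le_one₀ (ind1_le_one _ _) (ind1_nonneg _ _) (ind1_le_one _ _)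
  nlinarith [Dl_nonneg (lab 1) x y]

theorem DS_GG (Γ : Set E3) [DecidablePred (· ∈ Γ)] (l : List E3) :
    DS (GG Γ) l = DS (Dl (lab 1)) (l.filter (· ∈ Γ)) := by
  rw [← DS_filter (· ∈ Γ) (Dl_symm (lab 1))]
  unfold DS Cross
  refine congrArg _ (List.map_congr_left fun x _ => ?_)
  refine congrArg _ (List.map_congr_left fun y _ => ?_)
  unfold GG ind1
  by_cases hx : x ∈ Γ <;> by_cases hy : y ∈ Γ <;> simp [hx, hy]

theorem DS_GG_eq (Γ : Set E3) (l : List E3) :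
    DS (GG Γ) l = 2 * En (GG Γ) l + Tot (ind1 Γ) l := by
  rw [DS_eq (GG_symm Γ)]
  simp only [GG_self]

/-- The pair potential of the block comparison system. -/
noncomputable def PhiB (ℓ : ℝ) (h : ℕ → ℝ) (α₀ b : ℝ) (Γ : Set E3) (x y : E3) : ℝ :=
  Dl (lab ℓ) x y * phisP x y - Dl (lab ℓ) x y * AP h x y - 2 * α₀ * GG Γ x y
    - 2 * b * Dl (lab ℓ) x y

/-- The one-body term of the block comparison system. -/
noncomputable def tauB (μ α₀ b : ℝ) (Γ : Set E3) (x : E3) : ℝ := μ + α₀ * ind1 Γ x + b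

theorem PhiB_symm (ℓ : ℝ) (h : ℕ → ℝ) (α₀ b : ℝ) (Γ : Set E3) (x y : E3) :
    PhiB ℓ h α₀ b Γ x y = PhiB ℓ h α₀ b Γ y x := by
  unfold PhiB
  rw [Dl_symm, phisP_symm, AP_symm, GG_symm]

theorem measurable_Dl_lab (s : ℝ) : Measurable (Function.uncurry (Dl (lab s))) := by
  have h1 : Measurable (fun p : E3 × E3 => ((lab s p.1, lab s p.2) : (Fin 3 → ℤ) × (Fin 3 → ℤ))) :=
    ((measurable_lab s).comp measurable_fst).prodMk ((measurable_lab s).comp measurable_snd)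
  have h2 : Measurable (fun q : (Fin 3 → ℤ) × (Fin 3 → ℤ) => if q.1 = q.2 then (1 : ℝ) else 0) :=
    measurable_of_countable _
  exact h2.comp h1

theorem measurable_GG {Γ : Set E3} (hΓ : MeasurableSet Γ) : Measurable (Function.uncurry (GG Γ)) := by
  have h1 : Measurable (fun p : E3 × E3 => ind1 Γ p.1) := (measurable_ind1 hΓ).comp measurable_fst
  have h2 : Measurable (fun p : E3 × E3 => ind1 Γ p.2) := (measurable_ind1 hΓ).comp measurable_snd
  exact (h1.mul h2).mul (measurable_Dl_lab 1)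

theorem measurable_PhiB (ℓ : ℝ) {h : ℕ → ℝ} (hh : Adm h) (α₀ b : ℝ) {Γ : Set E3}
    (hΓ : MeasurableSet Γ) : Measurable (Function.uncurry (PhiB ℓ h α₀ b Γ)) := by
  have hD := measurable_Dl_lab ℓ
  have hφ := measurable_phisP
  have hA := measurable_AP hh
  have hG := measurable_GG hΓ
  exact (((hD.mul hφ).sub (hD.mul hA)).sub (hG.const_mul _)).sub (hD.const_mul _)

theorem measurable_tauB (μ α₀ b : ℝ) {Γ : Set E3} (hΓ : MeasurableSet Γ) :
    Measurable (tauB μ α₀ b Γ) :=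
  (measurable_const.add ((measurable_ind1 hΓ).const_mul _)).add measurable_const

theorem En_PhiB (ℓ : ℝ) (h : ℕ → ℝ) (α₀ b : ℝ) (Γ : Set E3) (l : List E3) :
    En (PhiB ℓ h α₀ b Γ) l =
      En (fun x y => Dl (lab ℓ) x y * phisP x y) l - En (fun x y => Dl (lab ℓ) x y * AP h x y) l
        - 2 * α₀ * En (GG Γ) l - 2 * b * En (Dl (lab ℓ)) l := by
  unfold PhiB
  rw [En_sub, En_sub, En_sub, En_smul, En_smul]

theorem Tot_tauB (μ α₀ b : ℝ) (Γ : Set E3) (l : List E3) :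
    Tot (tauB μ α₀ b Γ) l = (μ + b) * l.length + α₀ * Tot (ind1 Γ) l := by
  unfold tauB
  have h1 : (fun x => μ + α₀ * ind1 Γ x + b) = fun x => (μ + b) + α₀ * ind1 Γ x := by
    funext x
    ring
  rw [h1, Tot_add, Tot_smul, Tot_const]

theorem kacA_add {c₁ c₂ : ℕ → ℝ} (h₁ : Summable c₁) (h₂ : Summable c₂) (r : ℝ) :
    kacA (fun j => c₁ j + c₂ j) r = kacA c₁ r + kacA c₂ r := by
  unfold kacA
  rw [← (summable_kacA h₁ r).tsum_add (summable_kacA h₂ r)]
  refine tsum_congr fun j => ?_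
  ring

theorem En_AP_split {c'' h t : ℕ → ℝ} (hh : Summable h) (ht : Summable t)
    (hsplit : ∀ j, c'' j = h j + t j) (l : List E3) :
    En (AP c'') l = En (AP h) l + En (AP t) l := by
  have : c'' = fun j => h j + t j := funext hsplit
  rw [← En_add]
  subst this
  congr 1
  funext x y
  exact kacA_add hh ht _

/-- The comparison of the true system with the block system. -/
theorem config_le {ℓ : ℝ} {Γ : Set E3} {c'' h t : ℕ → ℝ} (hh : Adm h) (ht : Adm t)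
    (hsplit : ∀ j, c'' j = h j + t j) {α₀ b w μ : ℝ} (hα : ∑' j, h j ≤ α₀)
    (hb : ∀ l, En (AP t) l ≤ b * DS (Dl (lab ℓ)) l)
    (hfar : ∀ x y : E3, w ≤ ‖x - y‖ → AP h x y = 0)
    (hΓ : ∀ x y : E3, lab ℓ x ≠ lab ℓ y → ‖x - y‖ < w → x ∈ Γ ∧ y ∈ Γ) (l : List E3) :
    Ham (PhiC c'') (fun _ => μ) l ≤ Ham (PhiB ℓ h α₀ b Γ) (tauB μ α₀ b Γ) l := by
  classical
  have e1 : En (PhiC c'') l = En phisP l - (En (AP h) l + En (AP t) l) := by
    rw [En_PhiC, En_AP_split hh.1 ht.1 hsplit]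
  have ha : En (fun x y => Dl (lab ℓ) x y * phisP x y) l ≤ En phisP l := by
    refine En_mono (fun x y => ?_) l
    have h1 : Dl (lab ℓ) x y ≤ 1 := by
      unfold Dl
      split_ifs <;> norm_num
    nlinarith [phisP_nonneg x y]
  -- the attraction of the head
  have hhp : ∀ x y, 0 ≤ AP h x y := AP_nonneg hh
  have hb1 : En (AP h) l ≤ En (fun x y => Dl (lab ℓ) x y * AP h x y) l
      + En (fun x y => if x ∈ Γ ∧ y ∈ Γ then AP h x y else 0) l := by
    rw [← En_add]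
    refine En_mono (fun x y => ?_) l
    by_cases hs : lab ℓ x = lab ℓ y
    · have h1 : Dl (lab ℓ) x y = 1 := by simp [Dl, hs]
      rw [h1, one_mul]
      have : 0 ≤ (if x ∈ Γ ∧ y ∈ Γ then AP h x y else 0) := by
        split_ifs
        · exact hhp x y
        · exact le_rfl
      linarith
    · have h1 : Dl (lab ℓ) x y = 0 := by simp [Dl, hs]
      rw [h1, zero_mul, zero_add]
      by_cases hd : ‖x - y‖ < w
      · rw [if_pos (hΓ x y hs hd)]
      · rw [hfar x y (not_lt.1 hd)]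
        split_ifs <;> exact le_rfl
  have hc : En (fun x y => if x ∈ Γ ∧ y ∈ Γ then AP h x y else 0) l
      ≤ α₀ * (2 * En (GG Γ) l + Tot (ind1 Γ) l) := by
    rw [En_filter (· ∈ Γ) (AP h) l, ← DS_GG_eq, DS_GG Γ l]
    refine (En_AP_le_unit hh _).trans ?_
    exact mul_le_mul_of_nonneg_right hα (DS_Dl_nonneg 1 _)
  have hd : En (AP t) l ≤ b * (2 * En (Dl (lab ℓ)) l + l.length) := by
    have := En_Dl_eq (lab ℓ) l
    have e : DS (Dl (lab ℓ)) l = 2 * En (Dl (lab ℓ)) l + l.length := by linarith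
    rw [← e]
    exact hb l
  simp only [Ham, Tot_const]
  rw [e1, En_PhiB, Tot_tauB]
  nlinarith

/-! ### Translation behaviour -/

theorem lab_add {s : ℝ} (hs : s ≠ 0) (x v : E3) (d : Fin 3 → ℤ) (hv : ∀ i, v i = s * (d i : ℝ)) :
    lab s (x + v) = lab s x + d := by
  funext i
  simp only [lab, PiLp.add_apply, hv i, Pi.add_apply]
  rw [add_div, mul_div_cancel_left₀ _ hs, Int.floor_add_intCast]

theorem Dl_lab_add {s : ℝ} (hs : s ≠ 0) (x y v : E3) (d : Fin 3 → ℤ)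
    (hv : ∀ i, v i = s * (d i : ℝ)) : Dl (lab s) (x + v) (y + v) = Dl (lab s) x y := by
  simp only [Dl, lab_add hs x v d hv, lab_add hs y v d hv, add_left_inj]

theorem phisP_add (x y v : E3) : phisP (x + v) (y + v) = phisP x y := by
  simp [phisP]

theorem AP_add (h : ℕ → ℝ) (x y v : E3) : AP h (x + v) (y + v) = AP h x y := by
  simp [AP]

/-- Labels of unit cells determine the labels of blocks of integer side. -/
theorem lab_eq_of_lab_one {ℓ : ℕ} (hℓ : 0 < ℓ) {x y : E3} (h : lab 1 x = lab 1 y) :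
    lab (ℓ : ℝ) x = lab (ℓ : ℝ) y := by
  have hℓ0 : (0 : ℝ) < ℓ := by exact_mod_cast hℓ
  funext i
  have hi := congrFun h i
  simp only [lab, div_one] at hi ⊢
  rw [Int.floor_div_natCast, Int.floor_div_natCast, hi]

theorem cell_zero_eq_Lam {ℓ : ℕ} (hℓ : 0 < ℓ) : cell (ℓ : ℝ) 0 = Lam ℓ := by
  have hℓ0 : (0 : ℝ) < ℓ := by exact_mod_cast hℓ
  ext x
  rw [mem_cell hℓ0]
  simp [Lam, box]

/-- The block system factorises over blocks. -/
theorem Xi_Lam_le_pow {ℓ : ℕ} (hℓ : 0 < ℓ) {h : ℕ → ℝ} (hh : Adm h) (α₀ b μ : ℝ) {Γ : Set E3}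
    (hΓ : MeasurableSet Γ)
    (hper : ∀ (k : Fin 3 → ℤ) (x : E3), x + -shiftV (ℓ : ℝ) k ∈ Γ ↔ x ∈ Γ) (m : ℕ) :
    Xi volume (Lam (m * ℓ)) (WH (Ham (PhiB (ℓ : ℝ) h α₀ b Γ) (tauB μ α₀ b Γ)))
      ≤ Xi volume (Lam ℓ) (WH (Ham (PhiB (ℓ : ℝ) h α₀ b Γ) (tauB μ α₀ b Γ))) ^ (m ^ 3) := by
  classical
  have hℓ0 : (0 : ℝ) < ℓ := by exact_mod_cast hℓ
  set Φ := PhiB (ℓ : ℝ) h α₀ b Γ with hΦ
  set τ := tauB μ α₀ b Γ with hτ
  have hsub : Lam (m * ℓ) ⊆ ⋃ k ∈ Qm m, cell (ℓ : ℝ) k := by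
    intro x hx
    simp only [mem_iUnion, exists_prop]
    exact ⟨lab (ℓ : ℝ) x, lab_mem_Qm hℓ hx, rfl⟩
  have hzero : ∀ k ∈ Qm m, ∀ k' ∈ Qm m, k' ≠ k → ∀ x ∈ cell (ℓ : ℝ) k', ∀ y ∈ cell (ℓ : ℝ) k,
      0 ≤ Φ x y := by
    intro k _ k' _ hne x hx y hy
    have hxy : lab (ℓ : ℝ) x ≠ lab (ℓ : ℝ) y := by
      rw [show lab (ℓ : ℝ) x = k' from hx, show lab (ℓ : ℝ) y = k from hy]
      exact hne
    have h1 : Dl (lab (ℓ : ℝ)) x y = 0 := by simp [Dl, hxy]
    have h2 : Dl (lab 1) x y = 0 := by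
      have : lab 1 x ≠ lab 1 y := fun e => hxy (lab_eq_of_lab_one hℓ e)
      simp [Dl, this]
    simp [hΦ, PhiB, h1, GG, h2]
  have hprod := Xi_biUnion_le_Ham (volume : Measure E3) (Qm m) (cell (ℓ : ℝ))
    (fun k _ => measurableSet_cell _ k)
    (fun k _ k' _ hne => by
      rw [Set.disjoint_left]
      intro x hx hx'
      exact hne (hx.symm.trans hx'))
    (measurable_PhiB (ℓ : ℝ) hh α₀ b hΓ) (PhiB_symm (ℓ : ℝ) h α₀ b Γ)
    (measurable_tauB μ α₀ b hΓ) hzero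
  have htrans : ∀ k : Fin 3 → ℤ, Xi volume (cell (ℓ : ℝ) k) (WH (Ham Φ τ))
      = Xi volume (Lam ℓ) (WH (Ham Φ τ)) := by
    intro k
    set v : E3 := -shiftV (ℓ : ℝ) k with hv
    have hcell : cell (ℓ : ℝ) k = tr v ⁻¹' cell (ℓ : ℝ) 0 := by
      ext x
      simp only [mem_preimage, tr_apply, cell, Set.mem_ofPred_eq]
      rw [lab_add hℓ0.ne' x v (fun i => - k i) (fun i => by simp [hv, shiftV_apply])]
      constructor
      · rintro rfl
        funext i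
        simp
      · intro hx
        funext i
        have := congrFun hx i
        simp only [Pi.add_apply, Pi.zero_apply] at this
        linarith
    rw [hcell, ← cell_zero_eq_Lam hℓ]
    refine Xi_WH_Ham_comp_equiv volume (tr v) (tr_mp v) _ (fun x y => ?_) (fun x => ?_)
    · have hv1 : ∀ i, v i = (1 : ℝ) * (((fun i => -((ℓ : ℤ) * k i)) i : ℤ) : ℝ) := by
        intro i
        simp [hv, shiftV_apply]
      have hvℓ : ∀ i, v i = (ℓ : ℝ) * (((fun i => - k i) i : ℤ) : ℝ) := by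
        intro i
        simp [hv, shiftV_apply]
      simp only [tr_apply, hΦ, PhiB, GG, Dl_lab_add hℓ0.ne' x y v _ hvℓ,
        Dl_lab_add one_ne_zero x y v _ hv1, phisP_add, AP_add]
      simp only [ind1, hv, hper]
    · simp only [tr_apply, hτ, tauB, ind1, hv, hper]
  calc Xi volume (Lam (m * ℓ)) (WH (Ham Φ τ))
      ≤ Xi volume (⋃ k ∈ Qm m, cell (ℓ : ℝ) k) (WH (Ham Φ τ)) := Xi_mono_set volume hsub _
    _ ≤ ∏ k ∈ Qm m, Xi volume (cell (ℓ : ℝ) k) (WH (Ham Φ τ)) := hprod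
    _ = Xi volume (Lam ℓ) (WH (Ham Φ τ)) ^ (m ^ 3) := by
        simp only [htrans, Finset.prod_const, card_Qm]

end Vale.Agent.Lib.P171b
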