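import Vale.Agent.Lib.P171b.KacMain

open MeasureTheory Set Filter Topology
open scoped ENNReal Nat

namespace Vale.Agent.Lib.P171b

/-- The Kac upper bound: adding a small mass at a far scale costs at most the mean-field energy. -/
theorem kac_upper {c' : ℕ → ℝ} (hc : Adm c') (μ : ℝ) {ρ η t₀ : ℝ} (ht0 : 0 < t₀) (ht1 : t₀ ≤ 1)
    (hη : 0 < η)
    (hp : Pr c' (μ + t₀) ≤ Pr c' μ + t₀ * (ρ + η))
    (hm : Pr c' (μ + -t₀) ≤ Pr c' μ - t₀ * (ρ - η)) :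
    ∃ a₀ : ℝ, 0 < a₀ ∧ ∀ a : ℝ, 0 < a → a ≤ a₀ → ∀ δ : ℝ, 0 < δ → ∀ᶠ J : ℕ in atTop,
      Pr (pert c' a (J + 1)) μ ≤ Pr c' μ + a * (ρ + 2 * η) ^ 2 / 2 + δ := by
  set α₀ := ∑' j, c' j with hα₀
  set nb := Real.exp (μ + 1 + Bs (2 * α₀ + 1 / 2)) with hnb
  have hnbpos : 0 < nb := Real.exp_pos _
  refine ⟨min (1 / 4) (η * t₀ / nb ^ 2), lt_min (by norm_num) (by positivity), ?_⟩
  intro a ha ha₀ δ hδ
  have ha1 : a ≤ 1 / 4 := ha₀.trans (min_le_left _ _)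
  have ha2 : a ≤ η * t₀ / nb ^ 2 := ha₀.trans (min_le_right _ _)
  have ha3 : a * nb ^ 2 ≤ η * t₀ := by
    rwa [le_div_iff₀ (by positivity)] at ha2
  set e₀ := Real.exp (μ + 1 + Bs α₀) with he₀
  have he₀pos : 0 < e₀ := Real.exp_pos _
  set ι := min (1 / 2) (δ / (4 * e₀)) with hι
  have hι0 : 0 < ι := lt_min (by norm_num) (by positivity)
  have hι1 : ι < 1 := lt_of_le_of_lt (min_le_left _ _) (by norm_num)
  have hιe : ι * e₀ ≤ δ / 4 := by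
    have : ι ≤ δ / (4 * e₀) := min_le_right _ _
    calc ι * e₀ ≤ δ / (4 * e₀) * e₀ := mul_le_mul_of_nonneg_right this he₀pos.le
      _ = δ / 4 := by field_simp
  set e₁ := Real.exp (μ + 1 + Bs (α₀ + α₀ / ι)) with he₁
  -- limits
  have hτ : Tendsto (fun J : ℕ => α₀ + a - ∑ j ∈ Finset.range (J + 1), c' j) atTop (𝓝 a) := by
    have h1 : Tendsto (fun J : ℕ => ∑ j ∈ Finset.range (J + 1), c' j) atTop (𝓝 α₀) :=
      (hc.1.hasSum.tendsto_sum_nat).comp (tendsto_add_atTop_nat 1)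
    have h2 := (tendsto_const_nhds (x := α₀ + a)).sub h1
    simpa using h2
  have heps : Tendsto (fun J : ℕ => (1 + 4 * ((Ln J : ℝ) / Rn (J + 1))) ^ 3) atTop (𝓝 1) := by
    have h1 : Tendsto (fun J : ℕ => (Ln J : ℝ) / Rn (J + 1)) atTop (𝓝 0) := by
      simp only [Ln_div_Rn]
      exact tendsto_half_pow 4
    have h2 := ((tendsto_const_nhds (x := (1 : ℝ))).add (h1.const_mul 4)).pow 3
    simpa using h2
  have hA : Tendsto (fun J : ℕ => (α₀ + a - ∑ j ∈ Finset.range (J + 1), c' j)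
      * (1 + 4 * ((Ln J : ℝ) / Rn (J + 1))) ^ 3) atTop (𝓝 a) := by
    simpa using hτ.mul heps
  have hinv : Tendsto (fun J : ℕ => ((Ln J : ℕ) : ℝ)⁻¹) atTop (𝓝 0) :=
    tendsto_inv_atTop_zero.comp tendsto_Ln
  have hg : Tendsto (fun J : ℕ => (((Ln J : ℝ) + 1) / (Ln J : ℝ)) ^ 3 - 1) atTop (𝓝 0) := by
    have h1 : ∀ J : ℕ, ((Ln J : ℝ) + 1) / (Ln J : ℝ) = 1 + ((Ln J : ℕ) : ℝ)⁻¹ := by
      intro J
      have : (0 : ℝ) < Ln J := by exact_mod_cast Ln_pos J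
      field_simp
    simp only [h1]
    have h2 := (((tendsto_const_nhds (x := (1 : ℝ))).add hinv).pow 3).sub_const 1
    simpa using h2
  have hl4 : Tendsto (fun J : ℕ => Real.log 4 / (Ln J : ℝ) ^ 3) atTop (𝓝 0) := by
    have h1 : Tendsto (fun J : ℕ => ((Ln J : ℝ)) ^ 3) atTop atTop :=
      (tendsto_pow_atTop (by norm_num)).comp tendsto_Ln
    exact h1.const_div_atTop _
  have hr : Tendsto (fun J : ℕ => (Wn J : ℝ) / (Ln J : ℝ)) atTop (𝓝 0) := by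
    simp only [Wn_div_Ln]
    exact tendsto_half_pow 3
  set K := Pr c' μ + t₀ * |ρ| + t₀ * η with hK
  have hT : Tendsto (fun J : ℕ => Real.log 4 / (Ln J : ℝ) ^ 3 + (Pr c' μ
      + ((α₀ + a - ∑ j ∈ Finset.range (J + 1), c' j)
          * (1 + 4 * ((Ln J : ℝ) / Rn (J + 1))) ^ 3) * (ρ + 2 * η) ^ 2 / 2
      + ((((Ln J : ℝ) + 1) / (Ln J : ℝ)) ^ 3 - 1) * K
      + ι * (e₀ + e₁ * (6 * ((Wn J : ℝ) / (Ln J : ℝ)))))) atTop
      (𝓝 (0 + (Pr c' μ + a * (ρ + 2 * η) ^ 2 / 2 + 0 * K + ι * (e₀ + e₁ * (6 * 0))))) := by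
    refine hl4.add ?_
    refine Tendsto.add (Tendsto.add (tendsto_const_nhds.add ?_) (hg.mul_const K)) ?_
    · exact (hA.mul_const _).div_const 2
    · exact (tendsto_const_nhds.add ((hr.const_mul 6).const_mul e₁)).const_mul ι
  have hval : (0 + (Pr c' μ + a * (ρ + 2 * η) ^ 2 / 2 + 0 * K + ι * (e₀ + e₁ * (6 * 0))))
      < Pr c' μ + a * (ρ + 2 * η) ^ 2 / 2 + δ := by
    have : ι * (e₀ + e₁ * (6 * 0)) = ι * e₀ := by ring
    rw [this]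
    linarith
  have hev1 := hT.eventually (gt_mem_nhds hval)
  have hev2 := hA.eventually (gt_mem_nhds (show a < 2 * a by linarith))
  filter_upwards [hev1, hev2] with J hJ1 hJ2
  have hA1 : (α₀ + a - ∑ j ∈ Finset.range (J + 1), c' j)
      * (1 + 4 * ((Ln J : ℝ) / Rn (J + 1))) ^ 3 ≤ 1 := by linarith
  have hAnb : (α₀ + a - ∑ j ∈ Finset.range (J + 1), c' j)
      * (1 + 4 * ((Ln J : ℝ) / Rn (J + 1))) ^ 3 * nb ^ 2 ≤ 2 * η * t₀ := by
    have := mul_le_mul_of_nonneg_right hJ2.le (sq_nonneg nb)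
    nlinarith
  have hmain := Pr_pert_le hc μ ha.le J ht0 ht1 hη.le hι0 hι1 hp hm le_rfl hA1 hAnb
  exact hmain.trans hJ1.le

end Vale.Agent.Lib.P171b
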