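import Mathlib

open Filter Topology

namespace Vale.Agent.Lib.P171b

/-- The supremum used as the value of the limit. -/
noncomputable def supRate (f : ℕ → ℝ) : ℝ := ⨆ L : ℕ, f L / ((L : ℝ) + 1) ^ 3

section
variable {f : ℕ → ℝ}

theorem bddAbove_rate {C : ℝ} (hC0 : 0 ≤ C) (hC : ∀ L : ℕ, f L ≤ C * (L : ℝ) ^ 3) :
    BddAbove (Set.range fun L : ℕ => f L / ((L : ℝ) + 1) ^ 3) := by
  refine ⟨C, ?_⟩
  rintro _ ⟨L, rfl⟩
  have h1 : (0 : ℝ) < ((L : ℝ) + 1) ^ 3 := by positivity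
  show f L / ((L : ℝ) + 1) ^ 3 ≤ C
  rw [div_le_iff₀ h1]
  refine (hC L).trans ?_
  refine mul_le_mul_of_nonneg_left ?_ hC0
  exact pow_le_pow_left₀ (by positivity) (by linarith) 3

theorem rate_le_supRate {C : ℝ} (hC0 : 0 ≤ C) (hC : ∀ L : ℕ, f L ≤ C * (L : ℝ) ^ 3) (L : ℕ) :
    f L / ((L : ℝ) + 1) ^ 3 ≤ supRate f :=
  le_ciSup (bddAbove_rate hC0 hC) L

theorem le_rate_supRate {C : ℝ} (hC0 : 0 ≤ C) (hC : ∀ L : ℕ, f L ≤ C * (L : ℝ) ^ 3) (L : ℕ) :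
    f L ≤ ((L : ℝ) + 1) ^ 3 * supRate f := by
  have h1 : (0 : ℝ) < ((L : ℝ) + 1) ^ 3 := by positivity
  have := rate_le_supRate hC0 hC L
  rw [div_le_iff₀ h1] at this
  linarith

theorem supRate_nonneg (h0 : ∀ L, 0 ≤ f L) {C : ℝ} (hC0 : 0 ≤ C)
    (hC : ∀ L : ℕ, f L ≤ C * (L : ℝ) ^ 3) : 0 ≤ supRate f := by
  have h := rate_le_supRate hC0 hC 0
  have h2 : 0 ≤ f 0 / (((0 : ℕ) : ℝ) + 1) ^ 3 := div_nonneg (h0 0) (by positivity)
  linarith

theorem supRate_le {b : ℝ} (h : ∀ L : ℕ, f L / ((L : ℝ) + 1) ^ 3 ≤ b) : supRate f ≤ b :=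
  ciSup_le h

/-- Existence of the volume-normalised limit for a super-multiplicative sequence. -/
theorem tendsto_rate (h0 : ∀ L, 0 ≤ f L) (hm : Monotone f)
    (hs : ∀ m L : ℕ, (m : ℝ) ^ 3 * f L ≤ f (m * (L + 1))) {C : ℝ} (hC0 : 0 ≤ C)
    (hC : ∀ L : ℕ, f L ≤ C * (L : ℝ) ^ 3) :
    Tendsto (fun L : ℕ => f L / (L : ℝ) ^ 3) atTop (𝓝 (supRate f)) := by
  set P := supRate f with hP
  have hP0 : 0 ≤ P := supRate_nonneg h0 hC0 hC
  have htend1 : Tendsto (fun L : ℕ => (1 : ℝ) / (L : ℝ)) atTop (𝓝 0) :=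
    tendsto_one_div_atTop_nhds_zero_nat
  refine tendsto_order.2 ⟨fun a ha => ?_, fun a ha => ?_⟩
  · -- lower bound
    obtain ⟨L₀, hL₀⟩ := exists_lt_of_lt_ciSup (bddAbove_rate hC0 hC |> fun _ => ha)
    have hpos : (0 : ℝ) < (L₀ : ℝ) + 1 := by positivity
    have hT : Tendsto (fun L : ℕ => (1 / ((L₀ : ℝ) + 1) - 1 / (L : ℝ)) ^ 3 * f L₀) atTop
        (𝓝 ((1 / ((L₀ : ℝ) + 1) - 0) ^ 3 * f L₀)) :=
      ((tendsto_const_nhds.sub htend1).pow 3).mul_const _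
    have hval : (1 / ((L₀ : ℝ) + 1) - 0) ^ 3 * f L₀ = f L₀ / ((L₀ : ℝ) + 1) ^ 3 := by
      field_simp
      ring
    rw [hval] at hT
    filter_upwards [hT.eventually (lt_mem_nhds hL₀), eventually_ge_atTop (L₀ + 2)] with L hL hLge
    refine lt_of_lt_of_le hL ?_
    have hLpos : (0 : ℝ) < L := by
      have : 0 < L := by omega
      exact_mod_cast this
    set m := L / (L₀ + 1) with hm'
    have h1 : m * (L₀ + 1) ≤ L := Nat.div_mul_le_self L (L₀ + 1)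
    have h2 : L < (m + 1) * (L₀ + 1) := by
      have := Nat.lt_succ_iff.2 (le_refl m)
      exact Nat.lt_mul_of_div_lt (by omega) (by omega)
    have h3 : f (m * (L₀ + 1)) ≤ f L := hm h1
    have h4 := hs m L₀
    have h5 : (L : ℝ) < ((m : ℝ) + 1) * ((L₀ : ℝ) + 1) := by exact_mod_cast h2
    have h6 : 1 / ((L₀ : ℝ) + 1) - 1 / (L : ℝ) ≤ (m : ℝ) / (L : ℝ) := by
      rw [div_sub_div _ _ hpos.ne' hLpos.ne', div_le_div_iff₀ (by positivity) hLpos]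
      nlinarith
    have h7 : 0 ≤ 1 / ((L₀ : ℝ) + 1) - 1 / (L : ℝ) := by
      rw [sub_nonneg]
      apply one_div_le_one_div_of_le hpos
      have : ((L₀ + 2 : ℕ) : ℝ) ≤ L := by exact_mod_cast hLge
      push_cast at this
      linarith
    have h8 : (1 / ((L₀ : ℝ) + 1) - 1 / (L : ℝ)) ^ 3 ≤ ((m : ℝ) / (L : ℝ)) ^ 3 :=
      pow_le_pow_left₀ h7 h6 3
    calc (1 / ((L₀ : ℝ) + 1) - 1 / (L : ℝ)) ^ 3 * f L₀
        ≤ ((m : ℝ) / (L : ℝ)) ^ 3 * f L₀ := mul_le_mul_of_nonneg_right h8 (h0 L₀)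
      _ = ((m : ℝ) ^ 3 * f L₀) / (L : ℝ) ^ 3 := by
          rw [div_pow]
          ring
      _ ≤ f L / (L : ℝ) ^ 3 := by
          refine div_le_div_of_nonneg_right ?_ (by positivity)
          linarith
  · -- upper bound
    have hT : Tendsto (fun L : ℕ => (1 + 1 / (L : ℝ)) ^ 3 * P) atTop (𝓝 ((1 + 0) ^ 3 * P)) :=
      ((tendsto_const_nhds.add htend1).pow 3).mul_const _
    have hval : ((1 : ℝ) + 0) ^ 3 * P = P := by ring
    rw [hval] at hT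
    filter_upwards [hT.eventually (gt_mem_nhds ha), eventually_ge_atTop 1] with L hL hLge
    refine lt_of_le_of_lt ?_ hL
    have hLpos : (0 : ℝ) < L := by
      have : 0 < L := by omega
      exact_mod_cast this
    have h1 := le_rate_supRate hC0 hC L
    rw [div_le_iff₀ (by positivity)]
    have e : (1 + 1 / (L : ℝ)) ^ 3 * P * (L : ℝ) ^ 3 = ((L : ℝ) + 1) ^ 3 * P := by
      field_simp
    rw [e]
    exact h1

end

end Vale.Agent.Lib.P171b
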