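import Vale.Agent.Lib.P171b.Tools

open MeasureTheory Set Filter Topology
open scoped ENNReal Nat

namespace Vale.Agent.Lib.P171b

section lists

variable {E : Type}

/-- Sum of a pair function over unordered pairs of positions of a list. -/
def En (Φ : E → E → ℝ) : List E → ℝ
  | [] => 0
  | y :: l => (l.map (Φ y)).sum + En Φ l

/-- Sum of a one-body function over a list. -/
def Tot (τ : E → ℝ) (l : List E) : ℝ := (l.map τ).sum

/-- Sum of a pair function over all pairs of positions in two lists. -/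
def Cross (Φ : E → E → ℝ) (u v : List E) : ℝ := (u.map (fun x => (v.map (Φ x)).sum)).sum

/-- Sum over all ordered pairs of positions of a list, diagonal included. -/
def DS (Φ : E → E → ℝ) (l : List E) : ℝ := Cross Φ l l

/-- The Hamiltonian-type functional of a pair function and a one-body function. -/
def Ham (Φ : E → E → ℝ) (τ : E → ℝ) (l : List E) : ℝ := Tot τ l - En Φ l

/-- Exponential weight. -/
noncomputable def WH (H : List E → ℝ) (l : List E) : ℝ≥0∞ := ENNReal.ofReal (Real.exp (H l))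

@[simp] theorem Tot_nil (τ : E → ℝ) : Tot τ [] = 0 := rfl
@[simp] theorem Tot_cons (τ : E → ℝ) (y : E) (l : List E) : Tot τ (y :: l) = τ y + Tot τ l := by
  simp [Tot]
@[simp] theorem En_nil (Φ : E → E → ℝ) : En Φ [] = 0 := rfl
theorem En_cons (Φ : E → E → ℝ) (y : E) (l : List E) :
    En Φ (y :: l) = (l.map (Φ y)).sum + En Φ l := rfl

theorem Tot_append (τ : E → ℝ) (u v : List E) : Tot τ (u ++ v) = Tot τ u + Tot τ v := by
  simp [Tot]

theorem Tot_const (a : ℝ) (l : List E) : Tot (fun _ => a) l = a * l.length := by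
  induction l with
  | nil => simp
  | cons y l ih => simp only [Tot_cons, ih, List.length_cons]; push_cast; ring

theorem En_append (Φ : E → E → ℝ) (u v : List E) :
    En Φ (u ++ v) = En Φ u + En Φ v + Cross Φ u v := by
  induction u with
  | nil => simp [Cross]
  | cons y u ih =>
    simp only [List.cons_append, En_cons, List.map_append, List.sum_append, ih, Cross,
      List.map_cons, List.sum_cons]
    ring

theorem Cross_cons_left (Φ : E → E → ℝ) (y : E) (u v : List E) :
    Cross Φ (y :: u) v = (v.map (Φ y)).sum + Cross Φ u v := by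
  simp [Cross]

@[simp] theorem Cross_nil_left (Φ : E → E → ℝ) (v : List E) : Cross Φ [] v = 0 := by simp [Cross]

theorem Cross_cons_right (Φ : E → E → ℝ) (y : E) (u v : List E) :
    Cross Φ u (y :: v) = (u.map (fun x => Φ x y)).sum + Cross Φ u v := by
  induction u with
  | nil => simp [Cross]
  | cons x u ih =>
    simp only [Cross_cons_left, ih, List.map_cons, List.sum_cons]
    ring

@[simp] theorem Cross_nil_right (Φ : E → E → ℝ) (u : List E) : Cross Φ u [] = 0 := by
  simp [Cross]

theorem Cross_comm_of_symm {Φ : E → E → ℝ} (hΦ : ∀ x y, Φ x y = Φ y x) (u v : List E) :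
    Cross Φ u v = Cross Φ v u := by
  induction u with
  | nil => simp
  | cons x u ih =>
    rw [Cross_cons_left, Cross_cons_right, ih]
    have : (v.map (Φ x)).sum = (v.map (fun y => Φ y x)).sum :=
      congrArg _ (List.map_congr_left fun y _ => hΦ x y)
    rw [this]

theorem Cross_nonneg {Φ : E → E → ℝ} {u v : List E} (h : ∀ x ∈ u, ∀ y ∈ v, 0 ≤ Φ x y) :
    0 ≤ Cross Φ u v := by
  refine List.sum_nonneg ?_
  intro a ha
  obtain ⟨x, hx, rfl⟩ := List.mem_map.1 ha
  refine List.sum_nonneg ?_
  intro b hb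
  obtain ⟨y, hy, rfl⟩ := List.mem_map.1 hb
  exact h x hx y hy

theorem En_perm {Φ : E → E → ℝ} (hΦ : ∀ x y, Φ x y = Φ y x) {l l' : List E} (h : l.Perm l') :
    En Φ l = En Φ l' := by
  induction h with
  | nil => rfl
  | cons x h ih =>
    rw [En_cons, En_cons, ih, (h.map (Φ x)).sum_eq]
  | swap x y l =>
    simp only [En_cons, List.map_cons, List.sum_cons]
    rw [hΦ x y]
    ring
  | trans _ _ ih1 ih2 => exact ih1.trans ih2

theorem Tot_perm (τ : E → ℝ) {l l' : List E} (h : l.Perm l') : Tot τ l = Tot τ l' :=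
  (h.map τ).sum_eq

theorem Ham_perm {Φ : E → E → ℝ} (hΦ : ∀ x y, Φ x y = Φ y x) (τ : E → ℝ) {l l' : List E}
    (h : l.Perm l') : Ham Φ τ l = Ham Φ τ l' := by
  simp only [Ham, En_perm hΦ h, Tot_perm τ h]

theorem Ham_append (Φ : E → E → ℝ) (τ : E → ℝ) (u v : List E) :
    Ham Φ τ (u ++ v) = Ham Φ τ u + Ham Φ τ v - Cross Φ u v := by
  simp only [Ham, En_append, Tot_append]
  ring

theorem DS_cons {Φ : E → E → ℝ} (hΦ : ∀ x y, Φ x y = Φ y x) (y : E) (l : List E) :
    DS Φ (y :: l) = Φ y y + 2 * (l.map (Φ y)).sum + DS Φ l := by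
  simp only [DS]
  rw [Cross_cons_left, Cross_cons_right]
  have : (l.map (fun x => Φ x y)).sum = (l.map (Φ y)).sum :=
    congrArg _ (List.map_congr_left fun x _ => hΦ x y)
  simp only [List.map_cons, List.sum_cons, this]
  ring

/-- The double sum in terms of the pair sum. -/
theorem DS_eq {Φ : E → E → ℝ} (hΦ : ∀ x y, Φ x y = Φ y x) (l : List E) :
    DS Φ l = 2 * En Φ l + Tot (fun x => Φ x x) l := by
  induction l with
  | nil => simp [DS]
  | cons y l ih =>
    rw [DS_cons hΦ, ih, En_cons, Tot_cons]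
    ring

/-! Linearity and monotonicity. -/

theorem En_add (Φ Ψ : E → E → ℝ) (l : List E) :
    En (fun x y => Φ x y + Ψ x y) l = En Φ l + En Ψ l := by
  induction l with
  | nil => simp
  | cons y l ih =>
    simp only [En_cons, ih]
    have : (l.map (fun z => Φ y z + Ψ y z)).sum = (l.map (Φ y)).sum + (l.map (Ψ y)).sum := by
      clear ih
      induction l with
      | nil => simp
      | cons z l ih => simp only [List.map_cons, List.sum_cons, ih]; ring
    rw [this]
    ring

theorem En_smul (a : ℝ) (Φ : E → E → ℝ) (l : List E) :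
    En (fun x y => a * Φ x y) l = a * En Φ l := by
  induction l with
  | nil => simp
  | cons y l ih =>
    simp only [En_cons, ih]
    have : (l.map (fun z => a * Φ y z)).sum = a * (l.map (Φ y)).sum := by
      clear ih
      induction l with
      | nil => simp
      | cons z l ih => simp only [List.map_cons, List.sum_cons, ih]; ring
    rw [this]
    ring

theorem En_sub (Φ Ψ : E → E → ℝ) (l : List E) :
    En (fun x y => Φ x y - Ψ x y) l = En Φ l - En Ψ l := by
  have h := En_add Φ (fun x y => (-1) * Ψ x y) l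
  rw [En_smul] at h
  have h2 : (fun x y => Φ x y - Ψ x y) = fun x y => Φ x y + (-1) * Ψ x y := by
    funext x y
    ring
  rw [h2, h]
  ring

theorem Tot_add (τ σ : E → ℝ) (l : List E) :
    Tot (fun x => τ x + σ x) l = Tot τ l + Tot σ l := by
  induction l with
  | nil => simp
  | cons y l ih => simp only [Tot_cons, ih]; ring

theorem Tot_smul (a : ℝ) (τ : E → ℝ) (l : List E) :
    Tot (fun x => a * τ x) l = a * Tot τ l := by
  induction l with
  | nil => simp
  | cons y l ih => simp only [Tot_cons, ih]; ring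

theorem list_sum_map_mono {α : Type} {f g : α → ℝ} {l : List α} (h : ∀ x ∈ l, f x ≤ g x) :
    (l.map f).sum ≤ (l.map g).sum := by
  induction l with
  | nil => simp
  | cons y l ih =>
    simp only [List.map_cons, List.sum_cons]
    exact add_le_add (h y (by simp)) (ih fun x hx => h x (by simp [hx]))

theorem En_mono_mem {Φ Ψ : E → E → ℝ} {l : List E} (h : ∀ x ∈ l, ∀ y ∈ l, Φ x y ≤ Ψ x y) :
    En Φ l ≤ En Ψ l := by
  induction l with
  | nil => simp
  | cons y l ih =>
    simp only [En_cons]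
    refine add_le_add (list_sum_map_mono fun x hx => h y (by simp) x (by simp [hx])) ?_
    exact ih fun a ha b hb => h a (by simp [ha]) b (by simp [hb])

theorem En_mono {Φ Ψ : E → E → ℝ} (h : ∀ x y, Φ x y ≤ Ψ x y) (l : List E) : En Φ l ≤ En Ψ l :=
  En_mono_mem fun x _ y _ => h x y

theorem En_congr_mem {Φ Ψ : E → E → ℝ} {l : List E} (h : ∀ x ∈ l, ∀ y ∈ l, Φ x y = Ψ x y) :
    En Φ l = En Ψ l :=
  le_antisymm (En_mono_mem fun x hx y hy => (h x hx y hy).le)
    (En_mono_mem fun x hx y hy => (h x hx y hy).ge)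

theorem En_nonneg {Φ : E → E → ℝ} {l : List E} (h : ∀ x ∈ l, ∀ y ∈ l, 0 ≤ Φ x y) : 0 ≤ En Φ l := by
  have := En_mono_mem (Φ := fun _ _ => 0) (Ψ := Φ) h
  refine le_trans (le_of_eq ?_) this
  clear this h
  induction l with
  | nil => simp
  | cons y l ih =>
    simp only [En_cons, ← ih]
    simp

theorem En_zero_of {Φ : E → E → ℝ} {l : List E} (h : ∀ x ∈ l, ∀ y ∈ l, Φ x y = 0) : En Φ l = 0 := by
  have h1 := En_congr_mem (Φ := Φ) (Ψ := fun _ _ => 0) h
  rw [h1]
  exact le_antisymm (by
    have := En_smul 0 Φ l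
    simp only [zero_mul] at this
    simpa using this.le) (En_nonneg (fun _ _ _ _ => le_rfl))

theorem En_const (a : ℝ) (l : List E) :
    2 * En (fun _ _ => a) l = a * ((l.length : ℝ) ^ 2 - l.length) := by
  induction l with
  | nil => simp
  | cons y l ih =>
    have h2 : ((l.map (fun _ => a)).sum) = a * l.length := Tot_const a l
    simp only [En_cons, List.length_cons, mul_add, ih, h2]
    push_cast
    ring

theorem Tot_mono_mem {τ σ : E → ℝ} {l : List E} (h : ∀ x ∈ l, τ x ≤ σ x) : Tot τ l ≤ Tot σ l :=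
  list_sum_map_mono h

theorem Cross_add (Φ Ψ : E → E → ℝ) (u v : List E) :
    Cross (fun x y => Φ x y + Ψ x y) u v = Cross Φ u v + Cross Ψ u v := by
  induction u with
  | nil => simp
  | cons x u ih =>
    simp only [Cross_cons_left, ih]
    have : (v.map (fun z => Φ x z + Ψ x z)).sum = (v.map (Φ x)).sum + (v.map (Ψ x)).sum := by
      clear ih
      induction v with
      | nil => simp
      | cons z v ih => simp only [List.map_cons, List.sum_cons, ih]; ring
    rw [this]
    ring

theorem Cross_mono_mem {Φ Ψ : E → E → ℝ} {u v : List E} (h : ∀ x ∈ u, ∀ y ∈ v, Φ x y ≤ Ψ x y) :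
    Cross Φ u v ≤ Cross Ψ u v := by
  refine list_sum_map_mono fun x hx => ?_
  exact list_sum_map_mono fun y hy => h x hx y hy

theorem Cross_nonpos {Φ : E → E → ℝ} {u v : List E} (h : ∀ x ∈ u, ∀ y ∈ v, Φ x y ≤ 0) :
    Cross Φ u v ≤ 0 := by
  have := Cross_mono_mem (Φ := Φ) (Ψ := fun _ _ => 0) h
  simpa [Cross] using this

theorem DS_mono_mem {Φ Ψ : E → E → ℝ} {l : List E} (h : ∀ x ∈ l, ∀ y ∈ l, Φ x y ≤ Ψ x y) :
    DS Φ l ≤ DS Ψ l := Cross_mono_mem h

theorem DS_add (Φ Ψ : E → E → ℝ) (l : List E) :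
    DS (fun x y => Φ x y + Ψ x y) l = DS Φ l + DS Ψ l := Cross_add Φ Ψ l l

theorem DS_nonneg {Φ : E → E → ℝ} {l : List E} (h : ∀ x ∈ l, ∀ y ∈ l, 0 ≤ Φ x y) : 0 ≤ DS Φ l :=
  Cross_nonneg h

theorem Tot_filter (Γ : E → Prop) [DecidablePred Γ] (τ : E → ℝ) (l : List E) :
    Tot (fun x => if Γ x then τ x else 0) l = Tot τ (l.filter Γ) := by
  induction l with
  | nil => simp
  | cons y l ih =>
    by_cases hy : Γ y
    · rw [List.filter_cons_of_pos (by simpa using hy), Tot_cons, Tot_cons, ih]
      simp [hy]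
    · rw [List.filter_cons_of_neg (by simpa using hy), Tot_cons, ih]
      simp [hy]

/-- Restricting the pair function to a subset amounts to filtering the list. -/
theorem En_filter (Γ : E → Prop) [DecidablePred Γ] (Φ : E → E → ℝ) (l : List E) :
    En (fun x y => if Γ x ∧ Γ y then Φ x y else 0) l = En Φ (l.filter Γ) := by
  induction l with
  | nil => simp
  | cons y l ih =>
    by_cases hy : Γ y
    · rw [List.filter_cons_of_pos (by simpa using hy), En_cons, En_cons, ih]
      congr 1
      have := Tot_filter Γ (Φ y) l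
      simpa only [Tot, hy, true_and] using this
    · rw [List.filter_cons_of_neg (by simpa using hy), En_cons, ih]
      simp only [hy, false_and, if_false]
      have : (l.map (fun _ => (0 : ℝ))).sum = 0 := by
        simp
      rw [this, zero_add]

theorem DS_filter (Γ : E → Prop) [DecidablePred Γ] {Φ : E → E → ℝ} (hΦ : ∀ x y, Φ x y = Φ y x)
    (l : List E) :
    DS (fun x y => if Γ x ∧ Γ y then Φ x y else 0) l = DS Φ (l.filter Γ) := by
  have hs : ∀ x y, (if Γ x ∧ Γ y then Φ x y else 0) = (if Γ y ∧ Γ x then Φ y x else 0) := by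
    intro x y
    rw [hΦ x y]
    simp only [and_comm]
  rw [DS_eq hs, DS_eq hΦ, En_filter, ← Tot_filter]
  congr 2
  funext x
  by_cases hx : Γ x <;> simp [hx]

/-- A filter splits a double sum when the pair function does not connect the two parts. -/
theorem DS_split_of_filter (Γ : E → Prop) [DecidablePred Γ] {Φ : E → E → ℝ}
    (hΦ : ∀ x y, Φ x y = Φ y x)
    (hc : ∀ x y, Γ x → ¬ Γ y → Φ x y = 0) (l : List E) :
    DS Φ l = DS Φ (l.filter Γ) + DS Φ (l.filter (fun x => ¬ Γ x)) := by
  rw [← DS_filter Γ hΦ, ← DS_filter (fun x => ¬ Γ x) hΦ, ← DS_add]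
  unfold DS Cross
  refine congrArg _ (List.map_congr_left fun x _ => ?_)
  refine congrArg _ (List.map_congr_left fun y _ => ?_)
  by_cases hx : Γ x <;> by_cases hy : Γ y
  · simp [hx, hy]
  · simp [hx, hy, hc x y hx hy]
  · simp [hx, hy, hΦ x y, hc y x hy hx]
  · simp [hx, hy]

/-! Labels: counting. -/

variable {T : Type} [DecidableEq T]

/-- The indicator that two points carry the same label. -/
def Dl (lab : E → T) (x y : E) : ℝ := if lab x = lab y then 1 else 0

theorem Dl_symm (lab : E → T) (x y : E) : Dl lab x y = Dl lab y x := by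
  simp only [Dl, eq_comm]

theorem Dl_nonneg (lab : E → T) (x y : E) : 0 ≤ Dl lab x y := by
  unfold Dl
  split_ifs <;> norm_num

theorem sum_map_lab (lab : E → T) (h : T → ℝ) (l : List E) :
    (l.map (fun x => h (lab x))).sum =
      ∑ q ∈ (l.map lab).toFinset, ((l.map lab).count q : ℝ) * h q := by
  have := Finset.sum_list_map_count (l.map lab) h
  simp only [List.map_map] at this
  simpa [nsmul_eq_mul, Function.comp_def] using this

theorem DS_lab (lab : E → T) (G : T → T → ℝ) (l : List E) :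
    DS (fun x y => G (lab x) (lab y)) l =
      ∑ q ∈ (l.map lab).toFinset, ∑ q' ∈ (l.map lab).toFinset,
        ((l.map lab).count q : ℝ) * ((l.map lab).count q' : ℝ) * G q q' := by
  unfold DS Cross
  have h1 : ∀ q : T, (l.map (fun y => G q (lab y))).sum =
      ∑ q' ∈ (l.map lab).toFinset, ((l.map lab).count q' : ℝ) * G q q' :=
    fun q => sum_map_lab lab (G q) l
  simp only [h1]
  rw [sum_map_lab lab (fun q => ∑ q' ∈ (l.map lab).toFinset,
    ((l.map lab).count q' : ℝ) * G q q') l]
  refine Finset.sum_congr rfl fun q _ => ?_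
  rw [Finset.mul_sum]
  refine Finset.sum_congr rfl fun q' _ => ?_
  ring

theorem DS_Dl (lab : E → T) (l : List E) :
    DS (Dl lab) l = ∑ q ∈ (l.map lab).toFinset, ((l.map lab).count q : ℝ) ^ 2 := by
  have := DS_lab lab (fun q q' => if q = q' then (1 : ℝ) else 0) l
  have h2 : (fun x y => (if lab x = lab y then (1 : ℝ) else 0)) = Dl lab := rfl
  rw [h2] at this
  rw [this]
  refine Finset.sum_congr rfl fun q hq => ?_
  rw [Finset.sum_eq_single q]
  · simp [sq]
  · intro q' _ hne
    simp [hne.symm]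
  · intro h
    exact absurd hq h

theorem length_eq_sum_count (lab : E → T) (l : List E) :
    (l.length : ℝ) = ∑ q ∈ (l.map lab).toFinset, ((l.map lab).count q : ℝ) := by
  have h := sum_map_lab lab (fun _ => (1 : ℝ)) l
  simp only [mul_one] at h
  rw [← h]
  have := Tot_const (1 : ℝ) l
  simpa [Tot] using this.symm

/-- Pigeonhole. -/
theorem length_sq_le (lab : E → T) (Q : Finset T) (l : List E) (hQ : ∀ x ∈ l, lab x ∈ Q) :
    (l.length : ℝ) ^ 2 ≤ (Q.card : ℝ) * DS (Dl lab) l := by
  rw [length_eq_sum_count lab l, DS_Dl]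
  have hsub : (l.map lab).toFinset ⊆ Q := by
    intro q hq
    simp only [List.mem_toFinset, List.mem_map] at hq
    obtain ⟨x, hx, rfl⟩ := hq
    exact hQ x hx
  calc (∑ q ∈ (l.map lab).toFinset, ((l.map lab).count q : ℝ)) ^ 2
      ≤ ((l.map lab).toFinset.card : ℝ) * ∑ q ∈ (l.map lab).toFinset, ((l.map lab).count q : ℝ) ^ 2 :=
        sq_sum_le_card_mul_sum_sq
    _ ≤ (Q.card : ℝ) * ∑ q ∈ (l.map lab).toFinset, ((l.map lab).count q : ℝ) ^ 2 := by
        refine mul_le_mul_of_nonneg_right ?_ (Finset.sum_nonneg fun _ _ => sq_nonneg _)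
        exact_mod_cast Finset.card_le_card hsub

/-- Schur test for label-dependent pair functions. -/
theorem DS_le_schur (lab : E → T) (R : T → T → Prop) (hR : ∀ q q', R q q' → R q' q)
    {G : E → E → ℝ} {g : ℝ} (hg : 0 ≤ g) (hG : ∀ x y, G x y ≤ g)
    (hG0 : ∀ x y, ¬ R (lab x) (lab y) → G x y ≤ 0) (l : List E) {D : ℝ}
    (hD : ∀ Q' : Finset T, ∀ q, q ∈ (l.map lab).toFinset → (∀ q' ∈ Q', q' ∈ (l.map lab).toFinset) →
      (∀ q' ∈ Q', R q q') → (Q'.card : ℝ) ≤ D) :
    DS G l ≤ g * D * DS (Dl lab) l := by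
  classical
  set Q := (l.map lab).toFinset with hQ
  set N : T → ℝ := fun q => ((l.map lab).count q : ℝ) with hN
  have hN0 : ∀ q, 0 ≤ N q := fun q => by simp [hN]
  have h1 : DS G l ≤ DS (fun x y => (fun q q' => if R q q' then g else 0) (lab x) (lab y)) l := by
    refine DS_mono_mem fun x _ y _ => ?_
    by_cases h : R (lab x) (lab y)
    · simp only [h, if_true]
      exact hG x y
    · simp only [h, if_false]
      exact hG0 x y h
  refine h1.trans ?_
  rw [DS_lab lab (fun q q' => if R q q' then g else 0) l, DS_Dl]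
  have h2 : ∀ q ∈ Q, ∀ q' ∈ Q, N q * N q' * (if R q q' then g else 0) ≤
      (g / 2) * ((if R q q' then N q ^ 2 else 0) + (if R q' q then N q' ^ 2 else 0)) := by
    intro q _ q' _
    by_cases h : R q q'
    · have h' := hR _ _ h
      simp only [h, h', if_true]
      have : N q * N q' ≤ (N q ^ 2 + N q' ^ 2) / 2 := by nlinarith [sq_nonneg (N q - N q')]
      calc N q * N q' * g ≤ (N q ^ 2 + N q' ^ 2) / 2 * g := mul_le_mul_of_nonneg_right this hg
        _ = _ := by ring
    · simp only [h, if_false, mul_zero]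
      have : 0 ≤ (if R q' q then N q' ^ 2 else 0) := by
        split_ifs
        · positivity
        · exact le_rfl
      have hg2 : 0 ≤ g / 2 := by positivity
      simpa using mul_nonneg hg2 this
  have h3 : ∑ q ∈ Q, ∑ q' ∈ Q, (if R q q' then N q ^ 2 else 0) ≤ D * ∑ q ∈ Q, N q ^ 2 := by
    rw [Finset.mul_sum]
    refine Finset.sum_le_sum fun q hq => ?_
    have : ∑ q' ∈ Q, (if R q q' then N q ^ 2 else 0) =
        ((Q.filter (fun q' => R q q')).card : ℝ) * N q ^ 2 := by
      rw [← Finset.sum_filter, Finset.sum_const, nsmul_eq_mul]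
    rw [this]
    refine mul_le_mul_of_nonneg_right ?_ (sq_nonneg _)
    refine hD _ q hq (fun q' hq' => (Finset.mem_filter.1 hq').1) (fun q' hq' => ?_)
    exact (Finset.mem_filter.1 hq').2
  have h4 : ∑ q ∈ Q, ∑ q' ∈ Q, (if R q' q then N q' ^ 2 else 0) ≤ D * ∑ q ∈ Q, N q ^ 2 := by
    rw [Finset.sum_comm]
    exact h3
  calc ∑ q ∈ Q, ∑ q' ∈ Q, N q * N q' * (if R q q' then g else 0)
      ≤ ∑ q ∈ Q, ∑ q' ∈ Q,
          (g / 2) * ((if R q q' then N q ^ 2 else 0) + (if R q' q then N q' ^ 2 else 0)) :=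
        Finset.sum_le_sum fun q hq => Finset.sum_le_sum fun q' hq' => h2 q hq q' hq'
    _ = (g / 2) * (∑ q ∈ Q, ∑ q' ∈ Q, (if R q q' then N q ^ 2 else 0)
          + ∑ q ∈ Q, ∑ q' ∈ Q, (if R q' q then N q' ^ 2 else 0)) := by
        simp only [Finset.mul_sum, mul_add, Finset.sum_add_distrib]
    _ ≤ (g / 2) * (D * ∑ q ∈ Q, N q ^ 2 + D * ∑ q ∈ Q, N q ^ 2) :=
        mul_le_mul_of_nonneg_left (add_le_add h3 h4) (by positivity)
    _ = _ := by ring

end lists

end Vale.Agent.Lib.P171b
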