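import Vale.Agent.Lib.P171b.Stab
import Vale.Agent.Lib.P171b.Limit

open MeasureTheory Set Filter Topology
open scoped ENNReal Nat

namespace Vale.Agent.Lib.P171b

/-- The scales of the Kac kernels. -/
noncomputable def Rn (j : ℕ) : ℝ := 2 ^ ((j + 3) ^ 2)

theorem Rn_ge (j : ℕ) : 512 ≤ Rn j := by
  have h : (9 : ℕ) ≤ (j + 3) ^ 2 := Nat.pow_le_pow_left (show 3 ≤ j + 3 by omega) 2
  calc (512 : ℝ) = 2 ^ 9 := by norm_num
    _ ≤ 2 ^ ((j + 3) ^ 2) := pow_le_pow_right₀ (by norm_num) h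

theorem Rn_pos (j : ℕ) : 0 < Rn j := by
  have := Rn_ge j
  linarith

theorem Rn_mono : Monotone Rn := by
  intro a b hab
  refine pow_le_pow_right₀ (by norm_num) ?_
  exact Nat.pow_le_pow_left (by omega) 2

/-- Admissible coefficient sequences. -/
def Adm (c : ℕ → ℝ) : Prop := Summable c ∧ ∀ j, 0 ≤ c j

/-- The long range attraction with coefficients `c`. -/
noncomputable def kacA (c : ℕ → ℝ) (r : ℝ) : ℝ := ∑' j, c j * kac (Rn j) r

theorem kac_Rn_le (j : ℕ) (r : ℝ) : kac (Rn j) r ≤ 1 / V1 := by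
  refine (kac_le (Rn_pos j).le r).trans ?_
  have hV := V1_pos
  have h1 : 1 ≤ Rn j ^ 3 := one_le_pow₀ (by linarith [Rn_ge j])
  apply one_div_le_one_div_of_le hV
  nlinarith

theorem summable_kacA {c : ℕ → ℝ} (hc : Summable c) (r : ℝ) :
    Summable fun j => c j * kac (Rn j) r := by
  refine Summable.of_norm_bounded (hc.abs.mul_right (1 / V1)) fun j => ?_
  rw [norm_mul, Real.norm_eq_abs, Real.norm_eq_abs, abs_of_nonneg (kac_nonneg (Rn_pos j).le r)]
  exact mul_le_mul_of_nonneg_left (kac_Rn_le j r) (abs_nonneg _)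

theorem kacA_nonneg {c : ℕ → ℝ} (hc : Adm c) (r : ℝ) : 0 ≤ kacA c r :=
  tsum_nonneg fun j => mul_nonneg (hc.2 j) (kac_nonneg (Rn_pos j).le r)

theorem kac_antitone {R : ℝ} (hR : 0 ≤ R) : Antitone (kac R) := by
  intro a b hab
  unfold kac
  by_cases hb : b < R
  · rw [if_pos hb, if_pos (lt_of_le_of_lt hab hb)]
  · rw [if_neg hb]
    split_ifs
    · have hV := V1_pos
      positivity
    · exact le_rfl

theorem kacA_antitone {c : ℕ → ℝ} (hc : Adm c) : Antitone (kacA c) := by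
  intro a b hab
  exact (summable_kacA hc.1 b).tsum_le_tsum
    (fun j => mul_le_mul_of_nonneg_left (kac_antitone (Rn_pos j).le hab) (hc.2 j))
    (summable_kacA hc.1 a)

theorem measurable_kacA {c : ℕ → ℝ} (hc : Adm c) : Measurable (kacA c) :=
  (kacA_antitone hc).measurable

/-- The attraction as a pair function. -/
noncomputable def AP (c : ℕ → ℝ) (x y : E3) : ℝ := kacA c ‖x - y‖

/-- The full pair potential with coefficients `c`. -/
noncomputable def PhiC (c : ℕ → ℝ) (x y : E3) : ℝ := phisP x y - AP c x y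

theorem AP_symm (c : ℕ → ℝ) (x y : E3) : AP c x y = AP c y x := by
  simp only [AP, norm_sub_rev]

theorem PhiC_symm (c : ℕ → ℝ) (x y : E3) : PhiC c x y = PhiC c y x := by
  simp only [PhiC, AP_symm c x y, phisP_symm x y]

theorem AP_nonneg {c : ℕ → ℝ} (hc : Adm c) (x y : E3) : 0 ≤ AP c x y := kacA_nonneg hc _

theorem measurable_AP {c : ℕ → ℝ} (hc : Adm c) : Measurable (Function.uncurry (AP c)) :=
  (measurable_kacA hc).comp measurable_norm_sub

theorem measurable_PhiC {c : ℕ → ℝ} (hc : Adm c) : Measurable (Function.uncurry (PhiC c)) :=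
  measurable_phisP.sub (measurable_AP hc)

theorem En_PhiC (c : ℕ → ℝ) (l : List E3) : En (PhiC c) l = En phisP l - En (AP c) l :=
  En_sub phisP (AP c) l

theorem hasSum_map_AP {c : ℕ → ℝ} (hc : Summable c) (y : E3) (l : List E3) :
    HasSum (fun j => c j * (l.map (kacP (Rn j) y)).sum) (l.map (AP c y)).sum := by
  induction l with
  | nil => simp
  | cons z l ih =>
    simp only [List.map_cons, List.sum_cons, mul_add]
    exact (summable_kacA hc ‖y - z‖).hasSum.add ih

theorem hasSum_En_AP {c : ℕ → ℝ} (hc : Summable c) (l : List E3) :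
    HasSum (fun j => c j * En (kacP (Rn j)) l) (En (AP c) l) := by
  induction l with
  | nil => simp
  | cons y l ih =>
    simp only [En_cons, mul_add]
    exact (hasSum_map_AP hc y l).add ih

/-- The attraction energy is bounded by the sum of coefficients times a bound on each kernel. -/
theorem En_AP_le {c : ℕ → ℝ} (hc : Adm c) {l : List E3} {Q : ℝ}
    (h : ∀ j, c j ≠ 0 → En (kacP (Rn j)) l ≤ Q) : En (AP c) l ≤ (∑' j, c j) * Q := by
  refine hasSum_le (fun j => ?_) (hasSum_En_AP hc.1 l) (hc.1.hasSum.mul_right Q)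
  by_cases hj : c j = 0
  · simp [hj]
  · exact mul_le_mul_of_nonneg_left (h j hj) (hc.2 j)

theorem En_kacP_unit_le (j : ℕ) (l : List E3) : En (kacP (Rn j)) l ≤ DS (Dl (lab 1)) l := by
  have hR := Rn_ge j
  have h1 := En_kacP_le (s := 1) one_pos (Rn_pos j) l
  refine h1.trans ?_
  have h0 := DS_Dl_nonneg 1 l
  have h2 : (Rn j + 4 * 1) ^ 3 / (2 * (Rn j ^ 3 * 1 ^ 3)) ≤ 1 := by
    rw [div_le_one (by positivity)]
    have h3 : 0 ≤ Rn j - 512 := by linarith
    nlinarith [mul_nonneg h3 h3, mul_nonneg (mul_nonneg h3 h3) h3, sq_nonneg (Rn j)]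
  nlinarith

theorem En_AP_le_unit {c : ℕ → ℝ} (hc : Adm c) (l : List E3) :
    En (AP c) l ≤ (∑' j, c j) * DS (Dl (lab 1)) l :=
  En_AP_le hc fun j _ => En_kacP_unit_le j l

theorem tsum_nonneg_Adm {c : ℕ → ℝ} (hc : Adm c) : 0 ≤ ∑' j, c j := tsum_nonneg hc.2

/-- Stability of the full potential. -/
theorem Ham_le_of_nodup {c : ℕ → ℝ} (hc : Adm c) {α : ℝ} (hα : ∑' j, c j ≤ α) (μ : ℝ)
    {l : List E3} (hl : l.Nodup) :
    Ham (PhiC c) (fun _ => μ) l ≤ Tot (fun _ => μ + Bs α) l := by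
  have hα0 : 0 ≤ α := (tsum_nonneg_Adm hc).trans hα
  have h1 := core_stable hα0 hl
  have h2 := En_AP_le_unit hc l
  have h3 : (∑' j, c j) * DS (Dl (lab 1)) l ≤ α * DS (Dl (lab 1)) l :=
    mul_le_mul_of_nonneg_right hα (DS_Dl_nonneg 1 l)
  simp only [Ham, En_PhiC, Tot_const]
  nlinarith

/-- Side `L` cube with a corner at the origin. -/
def Lam (L : ℕ) : Set E3 := box (fun _ => 0) (fun _ => (L : ℝ))

theorem measurableSet_Lam (L : ℕ) : MeasurableSet (Lam L) := measurableSet_box _ _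

theorem volume_Lam (L : ℕ) : volume (Lam L) = ENNReal.ofReal ((L : ℝ) ^ 3) := by
  unfold Lam
  rw [volume_box, Fin.prod_univ_three]
  simp only [sub_zero]
  rw [← ENNReal.ofReal_mul (by positivity), ← ENNReal.ofReal_mul (by positivity)]
  congr 1
  ring

theorem Lam_mono {L L' : ℕ} (h : L ≤ L') : Lam L ⊆ Lam L' := by
  intro x hx i
  refine ⟨(hx i).1, lt_of_lt_of_le (hx i).2 ?_⟩
  show (L : ℝ) ≤ L'
  exact_mod_cast h

/-- The weight for coefficients `c` and chemical potential `μ`. -/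
noncomputable def W (c : ℕ → ℝ) (μ : ℝ) : List E3 → ℝ≥0∞ := WH (Ham (PhiC c) (fun _ => μ))

theorem LM_W {c : ℕ → ℝ} (hc : Adm c) (μ : ℝ) : LM (W c μ) :=
  LM_WH_Ham (measurable_PhiC hc) measurable_const

/-- Crude bound of the grand sum. -/
theorem Xi_W_le {c : ℕ → ℝ} (hc : Adm c) {α : ℝ} (hα : ∑' j, c j ≤ α) (μ : ℝ) {S : Set E3}
    (hS : MeasurableSet S) {v : ℝ} (hv0 : 0 ≤ v) (hv : volume S ≤ ENNReal.ofReal v) :
    Xi volume S (W c μ) ≤ ENNReal.ofReal (Real.exp (Real.exp (μ + Bs α) * v)) := by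
  refine Xi_le_exp_of_stable volume hS (g := fun _ => μ + Bs α) measurable_const
    (fun l hl _ => Ham_le_of_nodup hc hα μ hl) (by positivity) ?_
  rw [setLIntegral_const, ENNReal.ofReal_mul (Real.exp_pos _).le]
  exact mul_le_mul_right hv _

end Vale.Agent.Lib.P171b
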