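import Vale.Agent.Lib.P171b.Pot

open MeasureTheory Set Filter Topology
open scoped ENNReal Nat

namespace Vale.Agent.Lib.P171b

/-! ### Logarithms of extended numbers -/

theorem log_toReal_le {X : ℝ≥0∞} {V : ℝ} (hX : 1 ≤ X) (hle : X ≤ ENNReal.ofReal (Real.exp V)) :
    Real.log X.toReal ≤ V := by
  have hne : X ≠ ⊤ := ne_top_of_le_ne_top ENNReal.ofReal_ne_top hle
  have h1 : 1 ≤ X.toReal := by
    have := ENNReal.toReal_mono hne hX
    simpa using this
  have h2 : X.toReal ≤ Real.exp V := ENNReal.toReal_le_of_le_ofReal (Real.exp_pos _).le hle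
  calc Real.log X.toReal ≤ Real.log (Real.exp V) := Real.log_le_log (by linarith) h2
    _ = V := Real.log_exp V

theorem le_log_toReal {X : ℝ≥0∞} {V : ℝ} (hne : X ≠ ⊤) (hle : ENNReal.ofReal (Real.exp V) ≤ X) :
    V ≤ Real.log X.toReal := by
  have h2 : Real.exp V ≤ X.toReal := by
    have := ENNReal.toReal_mono hne hle
    rwa [ENNReal.toReal_ofReal (Real.exp_pos _).le] at this
  have := Real.log_le_log (Real.exp_pos V) h2
  rwa [Real.log_exp] at this

theorem eq_ofReal_exp_log {X : ℝ≥0∞} (h1 : 1 ≤ X) (hne : X ≠ ⊤) :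
    X = ENNReal.ofReal (Real.exp (Real.log X.toReal)) := by
  have h2 : 1 ≤ X.toReal := by
    have := ENNReal.toReal_mono hne h1
    simpa using this
  rw [Real.exp_log (by linarith), ENNReal.ofReal_toReal hne]

theorem log_toReal_nonneg {X : ℝ≥0∞} (h1 : 1 ≤ X) (hne : X ≠ ⊤) : 0 ≤ Real.log X.toReal := by
  have h2 : 1 ≤ X.toReal := by
    have := ENNReal.toReal_mono hne h1
    simpa using this
  exact Real.log_nonneg h2

/-! ### Grids and translations -/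

/-- The grid of labels of `m ^ 3` cubes. -/
noncomputable def Qm (m : ℕ) : Finset (Fin 3 → ℤ) := Fintype.piFinset fun _ => Finset.Ico (0 : ℤ) m

theorem card_Qm (m : ℕ) : (Qm m).card = m ^ 3 := by
  simp [Qm, Fintype.card_piFinset]

theorem mem_Qm {m : ℕ} {k : Fin 3 → ℤ} : k ∈ Qm m ↔ ∀ i, 0 ≤ k i ∧ k i < m := by
  simp [Qm, Fintype.mem_piFinset]

/-- The translation vector with coordinates `a * k i`. -/
noncomputable def shiftV (a : ℝ) (k : Fin 3 → ℤ) : E3 := WithLp.toLp 2 fun i => a * (k i : ℝ)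

@[simp] theorem shiftV_apply (a : ℝ) (k : Fin 3 → ℤ) (i : Fin 3) :
    shiftV a k i = a * (k i : ℝ) := by
  simp [shiftV]

/-- Translation as a measurable equivalence. -/
noncomputable def tr (v : E3) : E3 ≃ᵐ E3 := MeasurableEquiv.addRight v

@[simp] theorem tr_apply (v x : E3) : tr v x = x + v := rfl

theorem tr_mp (v : E3) : MeasurePreserving (tr v) (volume : Measure E3) volume :=
  measurePreserving_add_right volume v

theorem PhiC_tr (c : ℕ → ℝ) (v x y : E3) : PhiC c (tr v x) (tr v y) = PhiC c x y := by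
  simp [PhiC, phisP, AP]

/-! ### The pressure -/

/-- Grand sum on the cube of side `L`. -/
noncomputable def XiC (c : ℕ → ℝ) (μ : ℝ) (L : ℕ) : ℝ≥0∞ := Xi volume (Lam L) (W c μ)

/-- Logarithm of the grand sum. -/
noncomputable def fC (c : ℕ → ℝ) (μ : ℝ) (L : ℕ) : ℝ := Real.log (XiC c μ L).toReal

/-- The pressure. -/
noncomputable def Pr (c : ℕ → ℝ) (μ : ℝ) : ℝ := supRate (fC c μ)

theorem one_le_Xi_W (c : ℕ → ℝ) (μ : ℝ) (S : Set E3) : 1 ≤ Xi volume S (W c μ) := by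
  have := one_le_Xi_of_nil (F := W c μ) volume S
  simpa [W] using this

theorem one_le_XiC (c : ℕ → ℝ) (μ : ℝ) (L : ℕ) : 1 ≤ XiC c μ L := one_le_Xi_W c μ _

theorem XiC_le {c : ℕ → ℝ} (hc : Adm c) {α : ℝ} (hα : ∑' j, c j ≤ α) (μ : ℝ) (L : ℕ) :
    XiC c μ L ≤ ENNReal.ofReal (Real.exp (Real.exp (μ + Bs α) * (L : ℝ) ^ 3)) :=
  Xi_W_le hc hα μ (measurableSet_Lam L) (by positivity) (volume_Lam L).le

theorem XiC_ne_top {c : ℕ → ℝ} (hc : Adm c) (μ : ℝ) (L : ℕ) : XiC c μ L ≠ ⊤ :=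
  ne_top_of_le_ne_top ENNReal.ofReal_ne_top (XiC_le hc le_rfl μ L)

theorem XiC_eq {c : ℕ → ℝ} (hc : Adm c) (μ : ℝ) (L : ℕ) :
    XiC c μ L = ENNReal.ofReal (Real.exp (fC c μ L)) :=
  eq_ofReal_exp_log (one_le_XiC c μ L) (XiC_ne_top hc μ L)

theorem fC_nonneg {c : ℕ → ℝ} (hc : Adm c) (μ : ℝ) (L : ℕ) : 0 ≤ fC c μ L :=
  log_toReal_nonneg (one_le_XiC c μ L) (XiC_ne_top hc μ L)

theorem fC_le {c : ℕ → ℝ} (hc : Adm c) {α : ℝ} (hα : ∑' j, c j ≤ α) (μ : ℝ) (L : ℕ) :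
    fC c μ L ≤ Real.exp (μ + Bs α) * (L : ℝ) ^ 3 :=
  log_toReal_le (one_le_XiC c μ L) (XiC_le hc hα μ L)

theorem fC_mono {c : ℕ → ℝ} (hc : Adm c) (μ : ℝ) : Monotone (fC c μ) := by
  intro L L' h
  refine le_log_toReal (XiC_ne_top hc μ L') ?_
  rw [← XiC_eq hc]
  exact Xi_mono_set volume (Lam_mono h) _

/-- Cubes with corridors: super-multiplicativity. -/
theorem fC_super {c : ℕ → ℝ} (hc : Adm c) (μ : ℝ) (m L : ℕ) :
    (m : ℝ) ^ 3 * fC c μ L ≤ fC c μ (m * (L + 1)) := by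
  classical
  refine le_log_toReal (XiC_ne_top hc μ _) ?_
  set a : ℝ := (L : ℝ) + 1 with ha
  have ha0 : 0 < a := by positivity
  set B : (Fin 3 → ℤ) → Set E3 := fun k => tr (-(shiftV a k)) ⁻¹' Lam L with hB
  have hmemB : ∀ k x, x ∈ B k ↔ ∀ i, a * (k i : ℝ) ≤ x i ∧ x i < a * (k i : ℝ) + L := by
    intro k x
    simp only [hB, mem_preimage, tr_apply, Lam, box]
    refine forall_congr' fun i => ?_
    simp only [PiLp.add_apply, PiLp.neg_apply, shiftV_apply]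
    constructor
    · rintro ⟨h1, h2⟩
      constructor <;> linarith
    · rintro ⟨h1, h2⟩
      constructor <;> linarith
  have hsep : ∀ k k', k ≠ k' → ∀ x ∈ B k, ∀ y ∈ B k', 1 ≤ ‖x - y‖ := by
    intro k k' hne x hx y hy
    obtain ⟨i, hi⟩ := Function.ne_iff.1 hne
    have hx' := ((hmemB k x).1 hx) i
    have hy' := ((hmemB k' y).1 hy) i
    refine le_trans ?_ (abs_coord_le_norm x y i)
    rcases lt_or_gt_of_ne hi with hlt | hgt
    · have h1 : (k i : ℝ) + 1 ≤ k' i := by exact_mod_cast hlt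
      have h2 : a * ((k i : ℝ) + 1) ≤ a * (k' i : ℝ) := mul_le_mul_of_nonneg_left h1 ha0.le
      have h3 : y i - x i ≥ 1 := by
        have e : a * ((k i : ℝ) + 1) = a * (k i : ℝ) + L + 1 := by rw [ha]; ring
        linarith [hx'.2, hy'.1]
      rw [abs_sub_comm]
      exact le_trans h3 (le_abs_self _)
    · have h1 : (k' i : ℝ) + 1 ≤ k i := by exact_mod_cast hgt
      have h2 : a * ((k' i : ℝ) + 1) ≤ a * (k i : ℝ) := mul_le_mul_of_nonneg_left h1 ha0.le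
      have h3 : x i - y i ≥ 1 := by
        have e : a * ((k' i : ℝ) + 1) = a * (k' i : ℝ) + L + 1 := by rw [ha]; ring
        linarith [hy'.2, hx'.1]
      exact le_trans h3 (le_abs_self _)
  have hXi : ∀ k, Xi volume (B k) (W c μ) = XiC c μ L := by
    intro k
    exact Xi_WH_Ham_comp_equiv volume (tr _) (tr_mp _) (Lam L) (PhiC_tr c _) (fun _ => rfl)
  have hmeas : ∀ k, MeasurableSet (B k) := fun k => (tr _).measurable (measurableSet_Lam L)
  have hdisj : ∀ k ∈ Qm m, ∀ k' ∈ Qm m, k ≠ k' → Disjoint (B k) (B k') := by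
    intro k _ k' _ hne
    rw [Set.disjoint_left]
    intro x hx hx'
    have := hsep k k' hne x hx x hx'
    simp at this
    linarith
  have hprod := Xi_biUnion_ge_Ham (volume : Measure E3) (Qm m) B (fun k _ => hmeas k) hdisj
    (measurable_PhiC hc) (PhiC_symm c) (τ := fun _ => μ) measurable_const
    (fun k _ k' _ hne x hx y hy => by
      have h1 := hsep k' k hne x hx y hy
      have h2 : phis ‖x - y‖ = 0 := phis_of_le (by linarith)
      simp only [PhiC, phisP, h2]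
      linarith [AP_nonneg hc x y])
  have hsub : (⋃ k ∈ Qm m, B k) ⊆ Lam (m * (L + 1)) := by
    intro x hx
    simp only [mem_iUnion, exists_prop] at hx
    obtain ⟨k, hk, hxk⟩ := hx
    intro i
    have h1 := ((hmemB k x).1 hxk) i
    have h2 := (mem_Qm.1 hk) i
    have h3 : (0 : ℝ) ≤ k i := by exact_mod_cast h2.1
    have h4 : (k i : ℝ) + 1 ≤ m := by exact_mod_cast h2.2
    constructor
    · show (0 : ℝ) ≤ x i
      have : 0 ≤ a * (k i : ℝ) := by positivity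
      linarith [h1.1]
    · show x i < ((m * (L + 1) : ℕ) : ℝ)
      push_cast
      have h5 : a * ((k i : ℝ) + 1) ≤ a * (m : ℝ) := mul_le_mul_of_nonneg_left h4 ha0.le
      have e : a * ((k i : ℝ) + 1) = a * (k i : ℝ) + L + 1 := by rw [ha]; ring
      have e2 : (m : ℝ) * ((L : ℝ) + 1) = a * m := by rw [ha]; ring
      rw [e2]
      linarith [h1.2]
  have hfinal : ∏ k ∈ Qm m, Xi volume (B k) (W c μ) ≤ XiC c μ (m * (L + 1)) :=
    hprod.trans (Xi_mono_set volume hsub _)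
  simp only [hXi, Finset.prod_const, card_Qm] at hfinal
  rw [XiC_eq hc μ L, ← ENNReal.ofReal_pow (Real.exp_pos _).le, ← Real.exp_nat_mul] at hfinal
  have e : (m : ℝ) ^ 3 * fC c μ L = ((m ^ 3 : ℕ) : ℝ) * fC c μ L := by push_cast; ring
  rw [e]
  exact hfinal

theorem tendsto_fC {c : ℕ → ℝ} (hc : Adm c) (μ : ℝ) :
    Tendsto (fun L : ℕ => fC c μ L / (L : ℝ) ^ 3) atTop (𝓝 (Pr c μ)) :=
  tendsto_rate (fC_nonneg hc μ) (fC_mono hc μ) (fC_super hc μ) (Real.exp_pos _).le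
    (fC_le hc le_rfl μ)

theorem fC_le_Pr {c : ℕ → ℝ} (hc : Adm c) (μ : ℝ) (L : ℕ) :
    fC c μ L ≤ ((L : ℝ) + 1) ^ 3 * Pr c μ :=
  le_rate_supRate (Real.exp_pos _).le (fC_le hc le_rfl μ) L

theorem Pr_nonneg {c : ℕ → ℝ} (hc : Adm c) (μ : ℝ) : 0 ≤ Pr c μ :=
  supRate_nonneg (fC_nonneg hc μ) (Real.exp_pos _).le (fC_le hc le_rfl μ)

theorem Pr_le_crude {c : ℕ → ℝ} (hc : Adm c) {α : ℝ} (hα : ∑' j, c j ≤ α) (μ : ℝ) :
    Pr c μ ≤ Real.exp (μ + Bs α) := by
  refine supRate_le fun L => ?_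
  have h1 : (0 : ℝ) < ((L : ℝ) + 1) ^ 3 := by positivity
  rw [div_le_iff₀ h1]
  refine (fC_le hc hα μ L).trans ?_
  refine mul_le_mul_of_nonneg_left ?_ (Real.exp_pos _).le
  exact pow_le_pow_left₀ (by positivity) (by linarith) 3

/-- Upper bound of the pressure from a bound along cubes of side a multiple of `ℓ`. -/
theorem Pr_le_of_blocks {c : ℕ → ℝ} (hc : Adm c) (μ : ℝ) {ℓ : ℕ} (hℓ : 0 < ℓ) {V : ℝ}
    (h : ∀ m : ℕ, XiC c μ (m * ℓ) ≤ ENNReal.ofReal (Real.exp ((m : ℝ) ^ 3 * V))) :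
    Pr c μ ≤ V / (ℓ : ℝ) ^ 3 := by
  have hℓ0 : (0 : ℝ) < ℓ := by exact_mod_cast hℓ
  have hT : Tendsto (fun m : ℕ => m * ℓ) atTop atTop :=
    tendsto_id.atTop_mul_const' hℓ |> fun h => by simpa using h
  refine le_of_tendsto ((tendsto_fC hc μ).comp hT) ?_
  filter_upwards [eventually_ge_atTop 1] with m hm
  have hm0 : (0 : ℝ) < m := by
    have : 0 < m := by omega
    exact_mod_cast this
  have h1 : fC c μ (m * ℓ) ≤ (m : ℝ) ^ 3 * V := log_toReal_le (one_le_XiC c μ _) (h m)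
  simp only [Function.comp]
  push_cast
  rw [div_le_div_iff₀ (by positivity) (by positivity)]
  have e : (m : ℝ) ^ 3 * V * (ℓ : ℝ) ^ 3 = V * ((m : ℝ) * ℓ) ^ 3 := by ring
  rw [← e]
  exact mul_le_mul_of_nonneg_right h1 (by positivity)

/-- Lower bound of the pressure from a bound along cubes of side `2 ^ i`. -/
theorem le_Pr_of_pow {c : ℕ → ℝ} (hc : Adm c) (μ : ℝ) {v : ℝ}
    (h : ∀ᶠ i : ℕ in atTop, ENNReal.ofReal (Real.exp (((2 ^ i : ℕ) : ℝ) ^ 3 * v)) ≤ XiC c μ (2 ^ i)) :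
    v ≤ Pr c μ := by
  have hT : Tendsto (fun i : ℕ => 2 ^ i) atTop atTop :=
    tendsto_pow_atTop_atTop_of_one_lt (by norm_num)
  refine ge_of_tendsto ((tendsto_fC hc μ).comp hT) ?_
  filter_upwards [h] with i hi
  have h1 := le_log_toReal (XiC_ne_top hc μ _) hi
  simp only [Function.comp]
  have hpos : (0 : ℝ) < ((2 ^ i : ℕ) : ℝ) ^ 3 := by positivity
  rw [le_div_iff₀ hpos]
  have : ((2 ^ i : ℕ) : ℝ) ^ 3 * v ≤ fC c μ (2 ^ i) := h1
  linarith

end Vale.Agent.Lib.P171b
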