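import Vale.Agent.Lib.P171b.KacUpper
import Vale.Agent.Lib.P171b.Ekeland

open MeasureTheory Set Filter Topology
open scoped ENNReal Nat

namespace Vale.Agent.Lib.P171b

/-- The perturbation estimate behind lower semicontinuity of the pressure. -/
theorem Pr_lsc_aux {c c₀ : ℕ → ℝ} (hc : Adm c) (hc₀ : Adm c₀) {μ μ₀ ι : ℝ} (hι0 : 0 < ι)
    (hι1 : ι < 1) (hd : ∑' j, |c j - c₀ j| ≤ ι) (hμ : |μ - μ₀| ≤ ι) :
    Pr c₀ μ₀ ≤ Pr c μ + ι * Real.exp (|μ₀| + 2 + Bs ((∑' j, c₀ j) + 2)) := by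
  have hsabs : Summable (fun j => |c j - c₀ j|) := (hc.1.sub hc₀.1).abs
  have hsabs' : Summable (fun j => |c₀ j - c j|) := (hc₀.1.sub hc.1).abs
  have heq : ∑' j, |c₀ j - c j| = ∑' j, |c j - c₀ j| :=
    tsum_congr fun j => abs_sub_comm _ _
  set g : ℕ → ℝ := fun j => c j + |c₀ j - c j| / ι with hg
  have hgs : Summable g := hc.1.add (hsabs'.div_const ι)
  have hg0 : ∀ j, 0 ≤ g j := fun j => add_nonneg (hc.2 j) (by positivity)
  have hAg : Adm g := ⟨hgs, hg0⟩
  set ν := μ + (μ₀ - μ) / ι with hν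
  have hcomb : ∀ j, c₀ j ≤ (1 - ι) * c j + ι * g j := by
    intro j
    have e : (1 - ι) * c j + ι * g j = c j + |c₀ j - c j| := by
      simp only [hg]
      field_simp
      ring
    rw [e]
    linarith [le_abs_self (c₀ j - c j)]
  have hμeq : μ₀ = (1 - ι) * μ + ι * ν := by
    simp only [hν]
    field_simp
    ring
  have h1 := Pr_combo hc hAg hc₀ (p := 1 - ι) (q := ι) (by linarith) hι0.le (by ring) hcomb hμeq
  -- crude bound on the auxiliary point
  have hsumg : ∑' j, g j ≤ (∑' j, c₀ j) + 2 := by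
    have e : ∑' j, g j = (∑' j, c j) + (∑' j, |c₀ j - c j|) / ι := by
      rw [hc.1.tsum_add (hsabs'.div_const ι), tsum_div_const]
    have h2 : (∑' j, |c₀ j - c j|) / ι ≤ 1 := by
      rw [div_le_one hι0, heq]
      exact hd
    have h3 : ∑' j, c j ≤ ∑' j, (c₀ j + |c j - c₀ j|) :=
      hc.1.tsum_le_tsum (fun j => by linarith [le_abs_self (c j - c₀ j)]) (hc₀.1.add hsabs)
    rw [hc₀.1.tsum_add hsabs] at h3
    rw [e]
    linarith
  have h4 := Pr_le_crude hAg hsumg ν
  have hνle : ν ≤ |μ₀| + 2 := by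
    have h5 : (μ₀ - μ) / ι ≤ 1 := by
      rw [div_le_one hι0]
      have := abs_le.1 hμ
      linarith [this.1]
    have h6 : μ ≤ |μ₀| + 1 := by
      have := abs_le.1 hμ
      have h7 := le_abs_self μ₀
      linarith [this.2]
    simp only [hν]
    linarith
  have h8 : Real.exp (ν + Bs ((∑' j, c₀ j) + 2))
      ≤ Real.exp (|μ₀| + 2 + Bs ((∑' j, c₀ j) + 2)) := Real.exp_le_exp.2 (by linarith)
  have h9 := Pr_nonneg hc μ
  have h10 : ι * Pr g ν ≤ ι * Real.exp (|μ₀| + 2 + Bs ((∑' j, c₀ j) + 2)) :=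
    mul_le_mul_of_nonneg_left (h4.trans h8) hι0.le
  nlinarith

/-! ### The space of coefficients -/

/-- Summable sequences. -/
abbrev L1 := lp (fun _ : ℕ => ℝ) 1

theorem summable_abs_L1 (f : L1) : Summable (fun j => |f j|) := by
  have := (lp.memℓp f).summable (by simp)
  simpa using this

theorem summable_L1 (f : L1) : Summable (fun j => f j) := (summable_abs_L1 f).of_abs

theorem norm_L1 (f : L1) : ‖f‖ = ∑' j, |f j| := by
  have := lp.norm_eq_tsum_rpow (by simp) f
  simpa using this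

theorem abs_apply_le_L1 (f : L1) (j : ℕ) : |f j| ≤ ‖f‖ := by
  rw [norm_L1]
  exact (summable_abs_L1 f).le_tsum j (fun i _ => abs_nonneg _)

theorem continuous_eval_L1 (j : ℕ) : Continuous (fun f : L1 => f j) := by
  have : LipschitzWith 1 (fun f : L1 => f j) := by
    refine LipschitzWith.of_dist_le_mul fun f g => ?_
    have h := abs_apply_le_L1 (f - g) j
    simp only [lp.coeFn_sub, Pi.sub_apply] at h
    simpa [Real.dist_eq, dist_eq_norm] using h
  exact this.continuous

/-- Non-negative summable sequences together with a real parameter. -/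
def XX : Type := {p : L1 × ℝ // ∀ j, 0 ≤ p.1 j}

noncomputable instance : MetricSpace XX := inferInstanceAs (MetricSpace {p : L1 × ℝ // ∀ j, 0 ≤ p.1 j})

theorem isClosed_XX : IsClosed {p : L1 × ℝ | ∀ j, 0 ≤ p.1 j} := by
  have : {p : L1 × ℝ | ∀ j, 0 ≤ p.1 j} = ⋂ j, {p : L1 × ℝ | 0 ≤ p.1 j} := by
    ext p
    simp
  rw [this]
  refine isClosed_iInter fun j => ?_
  exact isClosed_le continuous_const ((continuous_eval_L1 j).comp continuous_fst)

instance : CompleteSpace XX := isClosed_XX.completeSpace_coe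

instance : Nonempty XX := ⟨⟨(0, 0), fun j => by simp⟩⟩

theorem Adm_XX (x : XX) : Adm (fun j => x.1.1 j) := ⟨summable_L1 _, x.2⟩

/-- The function to which the variational principle is applied. -/
noncomputable def GG₀ (x : XX) : ℝ :=
  Pr (fun j => x.1.1 j) x.1.2 - (1 / 512) * x.1.2 - (1 / 131072) * ∑' j, x.1.1 j

theorem GG₀_lower (x : XX) : -(1 / 512 * Real.log 8) ≤ GG₀ x := by
  have hc := Adm_XX x
  have h1 := le_Pr_trial hc x.1.2
  have h2 := Pr_nonneg hc x.1.2
  unfold GG₀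
  nlinarith

theorem dist_XX_fst (x y : XX) : ‖x.1.1 - y.1.1‖ ≤ dist x y := by
  have : dist x y = dist x.1 y.1 := rfl
  rw [this, Prod.dist_eq, ← dist_eq_norm]
  exact le_max_left _ _

theorem dist_XX_snd (x y : XX) : |x.1.2 - y.1.2| ≤ dist x y := by
  have : dist x y = dist x.1 y.1 := rfl
  rw [this, Prod.dist_eq, ← Real.dist_eq]
  exact le_max_right _ _

theorem GG₀_lsc : LowerSemicontinuous GG₀ := by
  intro x₀ y hy
  set C := Real.exp (|x₀.1.2| + 2 + Bs ((∑' j, x₀.1.1 j) + 2)) with hC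
  have hCpos : 0 < C := Real.exp_pos _
  set gap := GG₀ x₀ - y with hgap
  have hgap0 : 0 < gap := by rw [hgap]; linarith
  set ι := min (1 / 2) (gap / (2 * (C + 1))) with hι
  have hι0 : 0 < ι := lt_min (by norm_num) (by positivity)
  have hι1 : ι < 1 := lt_of_le_of_lt (min_le_left _ _) (by norm_num)
  have hιC : ι * (C + 1) ≤ gap / 2 := by
    have : ι ≤ gap / (2 * (C + 1)) := min_le_right _ _
    calc ι * (C + 1) ≤ gap / (2 * (C + 1)) * (C + 1) := mul_le_mul_of_nonneg_right this (by positivity)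
      _ = gap / 2 := by field_simp
  have hball : ∀ᶠ x in 𝓝 x₀, dist x x₀ < ι := Metric.ball_mem_nhds x₀ hι0
  filter_upwards [hball] with x hx
  have hc := Adm_XX x
  have hc₀ := Adm_XX x₀
  have hd1 : ∑' j, |x.1.1 j - x₀.1.1 j| ≤ ι := by
    have h1 := dist_XX_fst x x₀
    rw [norm_L1] at h1
    simp only [lp.coeFn_sub, Pi.sub_apply] at h1
    linarith
  have hd2 : |x.1.2 - x₀.1.2| ≤ ι := by
    have h1 := dist_XX_snd x x₀
    linarith
  have hmain := Pr_lsc_aux hc hc₀ hι0 hι1 hd1 hd2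
  have hS : ∑' j, x.1.1 j ≤ (∑' j, x₀.1.1 j) + ι := by
    have h3 : ∑' j, x.1.1 j ≤ ∑' j, (x₀.1.1 j + |x.1.1 j - x₀.1.1 j|) :=
      hc.1.tsum_le_tsum (fun j => by linarith [le_abs_self (x.1.1 j - x₀.1.1 j)])
        (hc₀.1.add (hc.1.sub hc₀.1).abs)
    rw [hc₀.1.tsum_add (hc.1.sub hc₀.1).abs] at h3
    linarith
  have hm : x.1.2 ≤ x₀.1.2 + ι := by
    have := abs_le.1 hd2
    linarith [this.2]
  have hfin : GG₀ x₀ - GG₀ x ≤ ι * (C + 1) := by
    simp only [GG₀]
    have e : ι * (C + 1) = ι * C + ι := by ring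
    rw [e]
    nlinarith
  linarith

/-- The point selected by the variational principle. -/
theorem exists_point : ∃ (c' : ℕ → ℝ) (_ : Adm c') (μ' : ℝ),
    (∀ a : ℝ, 0 < a → ∀ J : ℕ,
      Pr c' μ' + a * (1 / 131072 - 1 / 524288) ≤ Pr (pert c' a J) μ') ∧
    (∀ t : ℝ, Pr c' μ' + (1 / 512) * t - (1 / 524288) * |t| ≤ Pr c' (μ' + t)) := by
  obtain ⟨x', hx'⟩ := ekeland GG₀_lsc GG₀_lower (k := 1 / 524288) (by norm_num)
  refine ⟨fun j => x'.1.1 j, Adm_XX x', x'.1.2, ?_, ?_⟩
  · intro a ha J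
    set f : L1 := x'.1.1 + lp.single 1 J a with hf
    have hfj : ∀ j, f j = pert (fun j => x'.1.1 j) a J j := by
      intro j
      simp only [hf, lp.coeFn_add, Pi.add_apply, pert, lp.single_apply, Pi.single_apply]
    have hnn : ∀ j, 0 ≤ f j := by
      intro j
      rw [hfj]
      exact (Adm_pert (Adm_XX x') ha.le J).2 j
    set x : XX := ⟨(f, x'.1.2), hnn⟩ with hx
    have hfun : (fun j => x.1.1 j) = pert (fun j => x'.1.1 j) a J := funext hfj
    have hdist : dist x x' = a := by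
      have e1 : dist x x' = dist x.1 x'.1 := rfl
      rw [e1, Prod.dist_eq]
      have e2 : dist x.1.1 x'.1.1 = a := by
        have h₀ : (x.1.1 : L1) - x'.1.1 = lp.single 1 J a := by
          show ((x'.1.1 : L1) + lp.single 1 J a) - x'.1.1 = _
          abel
        rw [dist_eq_norm, h₀, lp.norm_single (by norm_num)]
        simpa using abs_of_pos ha
      have e3 : dist x.1.2 x'.1.2 = 0 := dist_self _
      rw [e2, e3]
      exact max_eq_left ha.le
    have hsum : ∑' j, x.1.1 j = (∑' j, x'.1.1 j) + a := by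
      have := congrArg (fun c : ℕ → ℝ => ∑' j, c j) hfun
      simp only at this
      rw [this]
      exact (hasSum_pert (Adm_XX x').1 a J).tsum_eq
    have h := hx' x
    rw [hdist] at h
    simp only [GG₀] at h
    rw [hsum, hfun] at h
    have hμ : x.1.2 = x'.1.2 := rfl
    rw [hμ] at h
    nlinarith
  · intro t
    set x : XX := ⟨(x'.1.1, x'.1.2 + t), x'.2⟩ with hx
    have hdist : dist x x' = |t| := by
      have e1 : dist x x' = dist x.1 x'.1 := rfl
      rw [e1, Prod.dist_eq]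
      have e2 : dist x.1.1 x'.1.1 = 0 := dist_self _
      have e3 : dist x.1.2 x'.1.2 = |t| := by
        have : x.1.2 = x'.1.2 + t := rfl
        rw [this, Real.dist_eq, add_sub_cancel_left]
      rw [e2, e3]
      exact max_eq_right (abs_nonneg _)
    have h := hx' x
    rw [hdist] at h
    simp only [GG₀] at h
    have e1 : x.1.1 = x'.1.1 := rfl
    have e2 : x.1.2 = x'.1.2 + t := rfl
    rw [e1, e2] at h
    nlinarith

end Vale.Agent.Lib.P171b
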