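import Vale.Agent.Lib.P171b.Geom

open MeasureTheory Set Filter Topology
open scoped ENNReal Nat

namespace Vale.Agent.Lib.P171b

/-- The repulsive core `r ↦ r⁻⁴` on `r < 1/2`. -/
noncomputable def phis (r : ℝ) : ℝ := if r < 1 / 2 then (r ^ 4)⁻¹ else 0

theorem phis_nonneg (r : ℝ) : 0 ≤ phis r := by
  unfold phis
  split_ifs
  · have : 0 ≤ r ^ 4 := by positivity
    positivity
  · exact le_rfl

theorem phis_of_le {r : ℝ} (h : 1 / 2 ≤ r) : phis r = 0 := by
  unfold phis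
  rw [if_neg (not_lt.2 h)]

theorem measurable_phis : Measurable phis := by
  unfold phis
  refine Measurable.ite measurableSet_Iio ?_ measurable_const
  exact (measurable_id.pow_const 4).inv

/-- The repulsive core as a pair function. -/
noncomputable def phisP (x y : E3) : ℝ := phis ‖x - y‖

theorem phisP_symm (x y : E3) : phisP x y = phisP y x := by
  simp only [phisP, norm_sub_rev]

theorem phisP_nonneg (x y : E3) : 0 ≤ phisP x y := phis_nonneg _

theorem measurable_norm_sub : Measurable (fun p : E3 × E3 => ‖p.1 - p.2‖) := by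
  fun_prop

theorem measurable_phisP : Measurable (Function.uncurry phisP) :=
  measurable_phis.comp measurable_norm_sub

/-- A small cube has a large repulsion. -/
theorem phis_ge {K : ℕ} (hK : 4 ≤ K) {x y : E3} (hxy : x ≠ y)
    (h : lab (1 / (K : ℝ)) x = lab (1 / (K : ℝ)) y) : (K : ℝ) ^ 4 / 9 ≤ phisP x y := by
  have hK0 : (0 : ℝ) < K := by
    have : 0 < K := by omega
    exact_mod_cast this
  have hK4 : (4 : ℝ) ≤ K := by exact_mod_cast hK
  have hs : (0 : ℝ) < 1 / (K : ℝ) := by positivity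
  have h1 := norm_sq_lt_of_lab_eq hs h
  have hpos : 0 < ‖x - y‖ := norm_pos_iff.2 (sub_ne_zero.2 hxy)
  have h2 : (1 / (K : ℝ)) ^ 2 ≤ 1 / 16 := by
    have : 1 / (K : ℝ) ≤ 1 / 4 := one_div_le_one_div_of_le (by norm_num) hK4
    calc (1 / (K : ℝ)) ^ 2 ≤ (1 / 4) ^ 2 := pow_le_pow_left₀ hs.le this 2
      _ = 1 / 16 := by norm_num
  have h3 : ‖x - y‖ < 1 / 2 := by nlinarith
  unfold phisP phis
  rw [if_pos h3]
  have h4 : ‖x - y‖ ^ 4 ≤ 9 / (K : ℝ) ^ 4 := by
    have h5 : (‖x - y‖ ^ 2) ^ 2 ≤ (3 * (1 / (K : ℝ)) ^ 2) ^ 2 :=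
      pow_le_pow_left₀ (by positivity) h1.le 2
    calc ‖x - y‖ ^ 4 = (‖x - y‖ ^ 2) ^ 2 := by ring
      _ ≤ (3 * (1 / (K : ℝ)) ^ 2) ^ 2 := h5
      _ = 9 / (K : ℝ) ^ 4 := by field_simp; norm_num
  have h6 : (K : ℝ) ^ 4 / 9 = (9 / (K : ℝ) ^ 4)⁻¹ := by
    field_simp
  rw [h6]
  exact inv_anti₀ (by positivity) h4

theorem En_mono_nodup {E : Type} {Φ Ψ : E → E → ℝ} {l : List E} (hl : l.Nodup)
    (h : ∀ x ∈ l, ∀ y ∈ l, x ≠ y → Φ x y ≤ Ψ x y) : En Φ l ≤ En Ψ l := by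
  induction l with
  | nil => simp
  | cons y l ih =>
    rw [List.nodup_cons] at hl
    simp only [En_cons]
    refine add_le_add ?_ (ih hl.2 fun a ha b hb => h a (by simp [ha]) b (by simp [hb]))
    refine list_sum_map_mono fun x hx => h y (by simp) x (by simp [hx]) ?_
    rintro rfl
    exact hl.1 hx

theorem Dl_self {E T : Type} [DecidableEq T] (lab : E → T) (x : E) : Dl lab x x = 1 := by
  simp [Dl]

theorem En_Dl_eq {E T : Type} [DecidableEq T] (lab : E → T) (l : List E) :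
    2 * En (Dl lab) l = DS (Dl lab) l - l.length := by
  have h := DS_eq (Dl_symm lab) l
  have h2 : Tot (fun x => Dl lab x x) l = l.length := by
    simp only [Dl_self]
    have := Tot_const (1 : ℝ) l
    simpa using this
  rw [h, h2]
  ring

/-- Lower bound for the repulsive energy of a list without repeats. -/
theorem En_phisP_ge {K : ℕ} (hK : 4 ≤ K) {l : List E3} (hl : l.Nodup) :
    (K : ℝ) ^ 4 / 18 * (DS (Dl (lab (1 / (K : ℝ)))) l - l.length) ≤ En phisP l := by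
  have h1 : En (fun x y => (K : ℝ) ^ 4 / 9 * Dl (lab (1 / (K : ℝ))) x y) l ≤ En phisP l := by
    refine En_mono_nodup hl fun x _ y _ hxy => ?_
    unfold Dl
    split_ifs with h
    · simpa using phis_ge hK hxy h
    · simpa using phisP_nonneg x y
  rw [En_smul] at h1
  have h2 := En_Dl_eq (lab (1 / (K : ℝ))) l
  calc (K : ℝ) ^ 4 / 18 * (DS (Dl (lab (1 / (K : ℝ)))) l - l.length)
      = (K : ℝ) ^ 4 / 9 * En (Dl (lab (1 / (K : ℝ)))) l := by rw [← h2]; ring
    _ ≤ _ := h1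

/-- The size of the small cubes used for the attraction strength `γ`. -/
noncomputable def Kc (γ : ℝ) : ℕ := ⌈3888 * γ⌉₊ + 4

/-- The stability constant for attraction strength `γ`. -/
noncomputable def Bs (γ : ℝ) : ℝ := ((Kc γ : ℕ) : ℝ) ^ 4 / 18

theorem Bs_nonneg (γ : ℝ) : 0 ≤ Bs γ := by
  unfold Bs
  positivity

/-- Core stability estimate. -/
theorem core_stable {γ : ℝ} (hγ : 0 ≤ γ) {l : List E3} (hl : l.Nodup) :
    γ * DS (Dl (lab 1)) l - En phisP l ≤ Bs γ * l.length := by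
  set K := Kc γ with hKdef
  have hK : 4 ≤ K := by simp [hKdef, Kc]
  have hK0 : (0 : ℝ) < K := by
    have : 0 < K := by omega
    exact_mod_cast this
  have hKγ : 3888 * γ ≤ K := by
    have h1 := Nat.le_ceil (3888 * γ)
    have h2 : ((⌈3888 * γ⌉₊ : ℕ) : ℝ) ≤ K := by
      simp only [hKdef, Kc]
      push_cast
      linarith
    linarith
  have h1 := DS_unit_le hK l
  have h2 := En_phisP_ge hK hl
  have h0 := DS_Dl_nonneg (1 / (K : ℝ)) l
  set D := DS (Dl (lab (1 / (K : ℝ)))) l with hD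
  have h3 : γ * DS (Dl (lab 1)) l ≤ γ * (216 * (K : ℝ) ^ 3 * D) :=
    mul_le_mul_of_nonneg_left h1 hγ
  have h4 : γ * (216 * (K : ℝ) ^ 3 * D) ≤ (K : ℝ) ^ 4 / 18 * D := by
    have : γ * 216 * (K : ℝ) ^ 3 ≤ (K : ℝ) ^ 4 / 18 := by
      have e : (K : ℝ) ^ 4 / 18 = (K : ℝ) / 18 * (K : ℝ) ^ 3 := by ring
      rw [e]
      refine mul_le_mul_of_nonneg_right ?_ (by positivity)
      linarith
    calc γ * (216 * (K : ℝ) ^ 3 * D) = (γ * 216 * (K : ℝ) ^ 3) * D := by ring
      _ ≤ _ := mul_le_mul_of_nonneg_right this h0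
  have h5 : Bs γ * l.length = (K : ℝ) ^ 4 / 18 * l.length := rfl
  rw [h5]
  have e2 : (K : ℝ) ^ 4 / 18 * (D - l.length) = (K : ℝ) ^ 4 / 18 * D - (K : ℝ) ^ 4 / 18 * l.length := by
    ring
  linarith

end Vale.Agent.Lib.P171b
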