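import Vale.Agent.Lib.P171b.Expo

open MeasureTheory Set Filter Topology
open scoped ENNReal Nat
open Finset.HasAntidiagonal

namespace Vale.Agent.Lib.P171b

variable {E : Type} [MeasurableSpace E]

/-! ### Hoelder -/

theorem II_holder (ν : Measure E) [SFinite ν] (S : Set E) (n : ℕ) {p q : ℝ} (hp : 0 ≤ p)
    (hq : 0 ≤ q) (hpq : p + q = 1) :
    ∀ {F G : List E → ℝ≥0∞}, LM F → LM G →
      II ν S n (fun l => F l ^ p * G l ^ q) ≤ II ν S n F ^ p * II ν S n G ^ q := by
  induction n with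
  | zero => intro F G _ _; exact le_rfl
  | succ n ih =>
    intro F G hF hG
    simp only [II]
    refine le_trans (lintegral_mono fun y => ih (hF.cons y) (hG.cons y)) ?_
    exact ENNReal.lintegral_mul_norm_pow_le (measurable_II_cons ν S n hF).aemeasurable
      (measurable_II_cons ν S n hG).aemeasurable hp hq hpq

theorem Xi_holder (ν : Measure E) [SFinite ν] (S : Set E) {p q : ℝ} (hp : 0 ≤ p)
    (hq : 0 ≤ q) (hpq : p + q = 1) {F G : List E → ℝ≥0∞} (hF : LM F) (hG : LM G) :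
    Xi ν S (fun l => F l ^ p * G l ^ q) ≤ Xi ν S F ^ p * Xi ν S G ^ q := by
  unfold Xi
  have h1 : ∀ n : ℕ, ((n ! : ℕ) : ℝ≥0∞)⁻¹ * II ν S n (fun l => F l ^ p * G l ^ q)
      ≤ (((n ! : ℕ) : ℝ≥0∞)⁻¹ * II ν S n F) ^ p * (((n ! : ℕ) : ℝ≥0∞)⁻¹ * II ν S n G) ^ q := by
    intro n
    have hc0 : ((n ! : ℕ) : ℝ≥0∞)⁻¹ ≠ 0 := by
      simp [ENNReal.inv_eq_zero]
    have hct : ((n ! : ℕ) : ℝ≥0∞)⁻¹ ≠ ⊤ := by
      simp [ENNReal.inv_eq_top, Nat.factorial_ne_zero]
    rw [ENNReal.mul_rpow_of_nonneg _ _ hp, ENNReal.mul_rpow_of_nonneg _ _ hq]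
    have hc : ((n ! : ℕ) : ℝ≥0∞)⁻¹ = ((n ! : ℕ) : ℝ≥0∞)⁻¹ ^ p * ((n ! : ℕ) : ℝ≥0∞)⁻¹ ^ q := by
      rw [← ENNReal.rpow_add _ _ hc0 hct, hpq, ENNReal.rpow_one]
    calc ((n ! : ℕ) : ℝ≥0∞)⁻¹ * II ν S n (fun l => F l ^ p * G l ^ q)
        ≤ ((n ! : ℕ) : ℝ≥0∞)⁻¹ * (II ν S n F ^ p * II ν S n G ^ q) :=
          mul_le_mul_right (II_holder ν S n hp hq hpq hF hG) _
      _ = (((n ! : ℕ) : ℝ≥0∞)⁻¹ ^ p * ((n ! : ℕ) : ℝ≥0∞)⁻¹ ^ q)
            * (II ν S n F ^ p * II ν S n G ^ q) := by rw [← hc]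
      _ = _ := by ring
  refine le_trans (ENNReal.tsum_le_tsum h1) ?_
  have := ENNReal.lintegral_mul_norm_pow_le (μ := (Measure.count : Measure ℕ))
    (f := fun n : ℕ => ((n ! : ℕ) : ℝ≥0∞)⁻¹ * II ν S n F)
    (g := fun n : ℕ => ((n ! : ℕ) : ℝ≥0∞)⁻¹ * II ν S n G)
    (measurable_of_countable _).aemeasurable (measurable_of_countable _).aemeasurable hp hq hpq
  simpa only [lintegral_count] using this

/-! ### One-body weights -/

theorem LM.prod_map {g : E → ℝ≥0∞} (hg : Measurable g) : LM (fun l : List E => (l.map g).prod) := by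
  intro n
  have : (fun x : Fin n → E => ((List.ofFn x).map g).prod) = fun x => ∏ i, g (x i) := by
    funext x
    rw [List.map_ofFn, List.prod_ofFn]
    rfl
  rw [this]
  exact Finset.measurable_prod _ fun i _ => hg.comp (measurable_pi_apply i)

theorem II_prod (ν : Measure E) [SFinite ν] (S : Set E) {g : E → ℝ≥0∞} (hg : Measurable g)
    (n : ℕ) : II ν S n (fun l => (l.map g).prod) = (∫⁻ y in S, g y ∂ν) ^ n := by
  induction n with
  | zero => simp [II]
  | succ n ih =>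
    simp only [II, List.map_cons, List.prod_cons]
    have h1 : ∀ y : E, II ν S n (fun l => g y * (l.map g).prod) = g y * (∫⁻ y in S, g y ∂ν) ^ n := by
      intro y
      rw [II_const_mul ν S n (g y) (LM.prod_map hg), ih]
    simp only [h1]
    rw [lintegral_mul_const _ hg, pow_succ']

theorem tsum_inv_factorial_pow {V : ℝ} (hV : 0 ≤ V) :
    ∑' n : ℕ, ((n ! : ℕ) : ℝ≥0∞)⁻¹ * ENNReal.ofReal V ^ n = ENNReal.ofReal (Real.exp V) := by
  have hs : Summable (fun n : ℕ => V ^ n / (n ! : ℝ)) := Real.summable_pow_div_factorial V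
  have hexp : Real.exp V = ∑' n : ℕ, V ^ n / (n ! : ℝ) := by
    rw [Real.exp_eq_exp_ℝ, NormedSpace.exp_eq_tsum_div]
  rw [hexp, ENNReal.ofReal_tsum_of_nonneg (fun n => by positivity) hs]
  refine tsum_congr fun n => ?_
  rw [div_eq_inv_mul, ENNReal.ofReal_mul (by positivity), ENNReal.ofReal_pow hV,
    ENNReal.ofReal_inv_of_pos (by positivity)]
  congr 2
  rw [ENNReal.ofReal_natCast]

/-- If a weight is dominated by a product on lists without repeats, then the grand sum is bounded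
by an exponential. -/
theorem Xi_le_exp_of_prod (ν : Measure E) [SFinite ν] [NullSingletonClass ν]
    {S : Set E} (hS : MeasurableSet S) {F : List E → ℝ≥0∞} {g : E → ℝ≥0∞} (hg : Measurable g)
    (h : ∀ l, l.Nodup → (∀ x ∈ l, x ∈ S) → F l ≤ (l.map g).prod) {V : ℝ} (hV : 0 ≤ V)
    (hI : ∫⁻ y in S, g y ∂ν ≤ ENNReal.ofReal V) :
    Xi ν S F ≤ ENNReal.ofReal (Real.exp V) := by
  rw [← tsum_inv_factorial_pow hV]
  refine ENNReal.tsum_le_tsum fun n => mul_le_mul_right ?_ _
  refine (II_mono_nodup ν hS h n).trans ?_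
  rw [II_prod ν S hg n]
  exact pow_le_pow_left' hI n

/-! ### Translation -/

theorem II_comp_equiv (ν : Measure E) (e : E ≃ᵐ E) (he : MeasurePreserving e ν ν) (S : Set E)
    (n : ℕ) : ∀ F : List E → ℝ≥0∞,
      II ν (e ⁻¹' S) n (fun l => F (l.map e)) = II ν S n F := by
  induction n with
  | zero => intro F; rfl
  | succ n ih =>
    intro F
    simp only [II, List.map_cons]
    have h1 : ∀ y : E, II ν (e ⁻¹' S) n (fun l => F (e y :: l.map e))
        = II ν S n (fun l => F (e y :: l)) := fun y => ih (fun l => F (e y :: l))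
    simp only [h1]
    exact he.setLIntegral_comp_preimage_emb e.measurableEmbedding
      (fun y => II ν S n (fun l => F (y :: l))) S

theorem Xi_comp_equiv (ν : Measure E) (e : E ≃ᵐ E) (he : MeasurePreserving e ν ν) (S : Set E)
    (F : List E → ℝ≥0∞) : Xi ν (e ⁻¹' S) (fun l => F (l.map e)) = Xi ν S F := by
  unfold Xi
  refine tsum_congr fun n => ?_
  rw [II_comp_equiv ν e he S n F]

/-! ### One point in each of a list of disjoint sets -/

theorem II_biUnion_ge (ν : Measure E) [SFinite ν] (Cs : List (Set E)) :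
    (∀ C ∈ Cs, MeasurableSet C) → Cs.Pairwise Disjoint →
    ∀ {F : List E → ℝ≥0∞}, LM F → PI F → ∀ c : ℝ≥0∞,
      (∀ l, List.Forall₂ (fun x C => x ∈ C) l Cs → c ≤ F l) →
      ((Cs.length ! : ℕ) : ℝ≥0∞) * (c * (Cs.map ν).prod)
        ≤ II ν (⋃ C ∈ Cs, C) Cs.length F := by
  induction Cs with
  | nil =>
    intro _ _ F _ _ c h
    simpa [II] using h [] List.Forall₂.nil
  | cons C Cs ih =>
    intro hm hp F hF hP c h
    have hC : MeasurableSet C := hm C (by simp)
    have hmCs : ∀ C' ∈ Cs, MeasurableSet C' := fun C' hC' => hm C' (by simp [hC'])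
    have hpCs : Cs.Pairwise Disjoint := (List.pairwise_cons.1 hp).2
    have hd : Disjoint (⋃ C' ∈ Cs, C') C := by
      rw [Set.disjoint_iUnion₂_left]
      intro C' hC'
      exact ((List.pairwise_cons.1 hp).1 C' hC').symm
    have hU : (⋃ C' ∈ C :: Cs, C') = (⋃ C' ∈ Cs, C') ∪ C := by
      ext x
      simp only [List.mem_cons, iUnion_iUnion_eq_or_left, mem_union, mem_iUnion, exists_prop]
      exact or_comm
    rw [hU, List.length_cons]
    set N := Cs.length with hN
    rw [II_union ν hC hd (N + 1) hF hP]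
    have hmem : ((N, 1) : ℕ × ℕ) ∈ Finset.HasAntidiagonal.antidiagonal (N + 1) := by
      simp [Finset.HasAntidiagonal.mem_antidiagonal]
    refine le_trans ?_ (Finset.single_le_sum (f := fun p : ℕ × ℕ =>
      (((N + 1).choose p.1 : ℕ) : ℝ≥0∞) * TT ν (⋃ C' ∈ Cs, C') C F p.1 p.2)
      (fun _ _ => zero_le) hmem)
    simp only [Nat.choose_succ_self_right]
    set F' : List E → ℝ≥0∞ := fun u => ∫⁻ y in C, F (y :: u) ∂ν with hF'
    have hTT : TT ν (⋃ C' ∈ Cs, C') C F N 1 = II ν (⋃ C' ∈ Cs, C') N F' := by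
      unfold TT
      congr 1
      funext u
      simp only [II, hF']
      refine lintegral_congr fun y => ?_
      exact hP _ _ (List.perm_append_singleton _ _)
    have hF'M : LM F' := by
      intro n
      have : LMeas (fun (x : Fin n → E) (v : List E) => F (List.ofFn x ++ v)) :=
        hF.lmeas_of_list (MList.ofFn measurable_id)
      have h2 := measurable_II ν C 1 this
      convert h2 using 1
      funext x
      simp only [II, hF']
      refine lintegral_congr fun y => ?_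
      exact hP _ _ (List.perm_append_singleton _ _).symm
    have hF'P : PI F' := by
      intro l l' hl
      simp only [hF']
      refine lintegral_congr fun y => ?_
      exact hP _ _ (hl.cons y)
    have hF'c : ∀ l, List.Forall₂ (fun x C => x ∈ C) l Cs → c * ν C ≤ F' l := by
      intro l hl
      simp only [hF']
      have : ∫⁻ _ in C, c ∂ν ≤ ∫⁻ y in C, F (y :: l) ∂ν :=
        setLIntegral_mono' hC fun y hy => h _ (List.Forall₂.cons hy hl)
      simpa using this
    have hih := ih hmCs hpCs hF'M hF'P (c * ν C) hF'c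
    rw [hTT]
    calc ((N + 1)! : ℕ) * (c * (List.map (⇑ν) (C :: Cs)).prod)
        = ((N + 1 : ℕ) : ℝ≥0∞) * (((N ! : ℕ) : ℝ≥0∞) * (c * ν C * (Cs.map ν).prod)) := by
          rw [Nat.factorial_succ]
          push_cast
          simp only [List.map_cons, List.prod_cons]
          ring
      _ ≤ _ := mul_le_mul_right hih _

theorem Xi_biUnion_ge_prod (ν : Measure E) [SFinite ν] (Cs : List (Set E))
    (hm : ∀ C ∈ Cs, MeasurableSet C) (hp : Cs.Pairwise Disjoint)
    {F : List E → ℝ≥0∞} (hF : LM F) (hP : PI F) (c : ℝ≥0∞)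
    (h : ∀ l, List.Forall₂ (fun x C => x ∈ C) l Cs → c ≤ F l) :
    c * (Cs.map ν).prod ≤ Xi ν (⋃ C ∈ Cs, C) F := by
  refine le_trans ?_ (term_le_Xi ν _ F Cs.length)
  have h1 := II_biUnion_ge ν Cs hm hp hF hP c h
  have hc0 : ((Cs.length ! : ℕ) : ℝ≥0∞) ≠ 0 := by exact_mod_cast Nat.factorial_ne_zero _
  have hct : ((Cs.length ! : ℕ) : ℝ≥0∞) ≠ ⊤ := ENNReal.natCast_ne_top _
  calc c * (Cs.map ν).prod
      = ((Cs.length ! : ℕ) : ℝ≥0∞)⁻¹ * (((Cs.length ! : ℕ) : ℝ≥0∞) * (c * (Cs.map ν).prod)) := by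
        rw [← mul_assoc, ENNReal.inv_mul_cancel hc0 hct, one_mul]
    _ ≤ _ := mul_le_mul_right h1 _

end Vale.Agent.Lib.P171b
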