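import Vale.Agent.Lib.P171b.Conv

open MeasureTheory Set Filter Topology
open scoped ENNReal Nat

namespace Vale.Agent.Lib.P171b

/-- The central cube of a unit cell. -/
def cen (q : Fin 3 → ℤ) : Set E3 := box (fun i => (q i : ℝ) + 1 / 4) (fun i => (q i : ℝ) + 3 / 4)

theorem measurableSet_cen (q : Fin 3 → ℤ) : MeasurableSet (cen q) := measurableSet_box _ _

theorem volume_cen (q : Fin 3 → ℤ) : volume (cen q) = ENNReal.ofReal (1 / 8) := by
  unfold cen
  rw [volume_box, Fin.prod_univ_three]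
  have h : ∀ i : Fin 3, (q i : ℝ) + 3 / 4 - ((q i : ℝ) + 1 / 4) = 1 / 2 := fun i => by ring
  simp only [h]
  rw [← ENNReal.ofReal_mul (by norm_num), ← ENNReal.ofReal_mul (by norm_num)]
  norm_num

theorem norm_ge_of_cen {q q' : Fin 3 → ℤ} (hne : q ≠ q') {x y : E3} (hx : x ∈ cen q)
    (hy : y ∈ cen q') : 1 / 2 ≤ ‖x - y‖ := by
  obtain ⟨i, hi⟩ := Function.ne_iff.1 hne
  have hx' := hx i
  have hy' := hy i
  refine le_trans ?_ (abs_coord_le_norm x y i)
  rcases lt_or_gt_of_ne hi with hlt | hgt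
  · have h1 : (q i : ℝ) + 1 ≤ q' i := by exact_mod_cast hlt
    rw [abs_sub_comm]
    refine le_trans ?_ (le_abs_self _)
    have h2 := hx'.2
    have h3 := hy'.1
    simp only at h2 h3
    linarith
  · have h1 : (q' i : ℝ) + 1 ≤ q i := by exact_mod_cast hgt
    refine le_trans ?_ (le_abs_self _)
    have h2 := hy'.2
    have h3 := hx'.1
    simp only at h2 h3
    linarith

theorem cen_subset_Lam {m : ℕ} {q : Fin 3 → ℤ} (hq : q ∈ Qm m) : cen q ⊆ Lam m := by
  intro x hx i
  have hx' := hx i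
  have h2 := (mem_Qm.1 hq) i
  have h3 : (0 : ℝ) ≤ q i := by exact_mod_cast h2.1
  have h4 : (q i : ℝ) + 1 ≤ m := by exact_mod_cast h2.2
  have h5 := hx'.1
  have h6 := hx'.2
  simp only at h5 h6
  constructor
  · show (0 : ℝ) ≤ x i
    linarith
  · show x i < (m : ℝ)
    linarith

theorem forall2_mem {T : List (Fin 3 → ℤ)} {l : List E3}
    (h : List.Forall₂ (fun x C => x ∈ C) l (T.map cen)) : ∀ z ∈ l, ∃ q ∈ T, z ∈ cen q := by
  induction T generalizing l with
  | nil =>
    simp only [List.map_nil, List.forall₂_nil_right_iff] at h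
    subst h
    simp
  | cons q T ih =>
    simp only [List.map_cons] at h
    obtain ⟨y, l', hy, hl', rfl⟩ := List.forall₂_cons_right_iff.1 h
    intro z hz
    rcases List.mem_cons.1 hz with rfl | hz
    · exact ⟨q, by simp, hy⟩
    · obtain ⟨q', hq', hzq⟩ := ih hl' z hz
      exact ⟨q', by simp [hq'], hzq⟩

theorem En_phisP_zero {T : List (Fin 3 → ℤ)} (hT : T.Nodup) {l : List E3}
    (h : List.Forall₂ (fun x C => x ∈ C) l (T.map cen)) : En phisP l = 0 := by
  induction T generalizing l with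
  | nil =>
    simp only [List.map_nil, List.forall₂_nil_right_iff] at h
    subst h
    simp
  | cons q T ih =>
    simp only [List.map_cons] at h
    obtain ⟨y, l', hy, hl', rfl⟩ := List.forall₂_cons_right_iff.1 h
    rw [List.nodup_cons] at hT
    rw [En_cons, ih hT.2 hl', add_zero]
    have : l'.map (phisP y) = l'.map (fun _ => (0 : ℝ)) := by
      refine List.map_congr_left fun z hz => ?_
      obtain ⟨q', hq', hzq⟩ := forall2_mem hl' z hz
      have hne : q ≠ q' := fun e => hT.1 (e ▸ hq')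
      exact phis_of_le (norm_ge_of_cen hne hy hzq)
    rw [this]
    simp

theorem lab_mem_Qm {s h : ℕ} (hs : 0 < s) {x : E3} (hx : x ∈ Lam (h * s)) :
    lab (s : ℝ) x ∈ Qm h := by
  have hs0 : (0 : ℝ) < s := by exact_mod_cast hs
  rw [mem_Qm]
  intro i
  have h1 := hx i
  have h2 : (0 : ℝ) ≤ x i := h1.1
  have h3 : x i < ((h * s : ℕ) : ℝ) := h1.2
  push_cast at h3
  constructor
  · exact Int.floor_nonneg.2 (by positivity)
  · show ⌊x i / (s : ℝ)⌋ < (h : ℤ)
    rw [Int.floor_lt]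
    rw [div_lt_iff₀ hs0]
    exact_mod_cast h3

/-- Lower bound for the Kac energy of a list with the mean density one. -/
theorem En_kacP_ge {s h : ℕ} (hs : 2 ≤ s) (hh : 0 < h) {l : List E3}
    (hl : ∀ x ∈ l, x ∈ Lam (h * s)) (hN : (l.length : ℝ) = ((h : ℝ) * s) ^ 3) :
    (l.length : ℝ) / 256 ≤ En (kacP (2 * (s : ℝ))) l := by
  have hs0 : (0 : ℝ) < s := by
    have : 0 < s := by omega
    exact_mod_cast this
  have hs2 : (2 : ℝ) ≤ s := by exact_mod_cast hs
  have hh0 : (0 : ℝ) < h := by exact_mod_cast hh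
  have hV := V1_pos
  have hV8 := V1_le
  set R : ℝ := 2 * (s : ℝ) with hR
  have hR0 : 0 < R := by positivity
  set g : ℝ := 1 / (V1 * R ^ 3) with hg
  have hg0 : 0 < g := by positivity
  -- pointwise comparison
  have h1 : DS (fun x y => g * Dl (lab (s : ℝ)) x y) l ≤ DS (kacP R) l := by
    refine DS_mono_mem fun x _ y _ => ?_
    unfold Dl
    split_ifs with hxy
    · have := norm_lt_of_lab_eq hs0 hxy
      simp only [kacP, kac]
      rw [if_pos this, mul_one]
    · simp only [mul_zero]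
      exact kac_nonneg hR0.le _
  have h2 : DS (fun x y => g * Dl (lab (s : ℝ)) x y) l = g * DS (Dl (lab (s : ℝ))) l := by
    rw [DS_eq (fun x y => by rw [Dl_symm]), DS_eq (Dl_symm _), En_smul, Tot_smul]
    ring
  have h3 := length_sq_le (lab (s : ℝ)) (Qm h) l (fun x hx => lab_mem_Qm (by omega) (hl x hx))
  rw [card_Qm] at h3
  push_cast at h3
  have hN0 : (0 : ℝ) ≤ l.length := by positivity
  have h4 : (l.length : ℝ) * (s : ℝ) ^ 3 ≤ DS (Dl (lab (s : ℝ))) l := by
    have e : (l.length : ℝ) ^ 2 = (h : ℝ) ^ 3 * ((l.length : ℝ) * (s : ℝ) ^ 3) := by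
      rw [sq]
      nth_rewrite 1 [hN]
      ring
    rw [e] at h3
    exact le_of_mul_le_mul_left h3 (by positivity)
  have h5 := DS_eq (kacP_symm R) l
  have h6 : Tot (fun x => kacP R x x) l = (l.length : ℝ) * g := by
    have : (fun x => kacP R x x) = fun _ => g := by
      funext x
      simp only [kacP, sub_self, norm_zero, kac]
      rw [if_pos hR0]
    rw [this, Tot_const]
    ring
  rw [h6] at h5
  have h7 : 2 * En (kacP R) l ≥ g * ((l.length : ℝ) * ((s : ℝ) ^ 3 - 1)) := by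
    have h8 : g * ((l.length : ℝ) * (s : ℝ) ^ 3) ≤ g * DS (Dl (lab (s : ℝ))) l :=
      mul_le_mul_of_nonneg_left h4 hg0.le
    have h9 : g * DS (Dl (lab (s : ℝ))) l ≤ DS (kacP R) l := by rw [← h2]; exact h1
    nlinarith
  have hs3 : (8 : ℝ) ≤ (s : ℝ) ^ 3 := by
    calc (8 : ℝ) = 2 ^ 3 := by norm_num
      _ ≤ (s : ℝ) ^ 3 := pow_le_pow_left₀ (by norm_num) hs2 3
  have h10 : (1 : ℝ) / 128 ≤ g * ((s : ℝ) ^ 3 - 1) := by
    have e : g = 1 / (V1 * (8 * (s : ℝ) ^ 3)) := by
      rw [hg, hR]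
      congr 2
      ring
    rw [e, div_mul_eq_mul_div, one_mul, div_le_div_iff₀ (by norm_num) (by positivity)]
    nlinarith [mul_nonneg (sub_nonneg.2 hV8) (pow_pos hs0 3).le, pow_pos hs0 3]
  have h11 : (l.length : ℝ) * (1 / 128) ≤ g * ((l.length : ℝ) * ((s : ℝ) ^ 3 - 1)) := by
    calc (l.length : ℝ) * (1 / 128) ≤ (l.length : ℝ) * (g * ((s : ℝ) ^ 3 - 1)) :=
          mul_le_mul_of_nonneg_left h10 hN0
      _ = _ := by ring
  linarith

theorem Rn_eq (j : ℕ) : Rn j = 2 * ((2 ^ ((j + 3) ^ 2 - 1) : ℕ) : ℝ) := by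
  have h : 1 ≤ (j + 3) ^ 2 := Nat.one_le_pow _ _ (by omega)
  have e : (j + 3) ^ 2 = (j + 3) ^ 2 - 1 + 1 := by omega
  unfold Rn
  push_cast
  nth_rewrite 1 [e]
  rw [pow_succ]
  ring

theorem En_kacP_Rn_ge {j i : ℕ} (hi : (j + 3) ^ 2 ≤ i) {l : List E3}
    (hl : ∀ x ∈ l, x ∈ Lam (2 ^ i)) (hN : (l.length : ℝ) = (((2 : ℝ) ^ i)) ^ 3) :
    (l.length : ℝ) / 256 ≤ En (kacP (Rn j)) l := by
  have h1 : 1 ≤ (j + 3) ^ 2 := Nat.one_le_pow _ _ (by omega)
  set e := (j + 3) ^ 2 - 1 with he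
  have hs : 2 ≤ 2 ^ e := by
    have : 8 ≤ e := by
      have : 9 ≤ (j + 3) ^ 2 := Nat.pow_le_pow_left (show 3 ≤ j + 3 by omega) 2
      omega
    calc 2 = 2 ^ 1 := by norm_num
      _ ≤ 2 ^ e := Nat.pow_le_pow_right (by norm_num) (by omega)
  have hspl : 2 ^ (i - e) * 2 ^ e = 2 ^ i := by
    rw [← pow_add]
    congr 1
    omega
  rw [Rn_eq j]
  refine En_kacP_ge (h := 2 ^ (i - e)) hs (by positivity) ?_ ?_
  · rw [hspl]
    exact hl
  · rw [hN]
    congr 1
    have : ((2 ^ (i - e) * 2 ^ e : ℕ) : ℝ) = ((2 ^ i : ℕ) : ℝ) := by rw [hspl]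
    push_cast at this ⊢
    rw [this]

theorem En_kacP_nonneg (R : ℝ) (hR : 0 ≤ R) (l : List E3) : 0 ≤ En (kacP R) l :=
  En_nonneg fun _ _ _ _ => kac_nonneg hR _

/-- The lower bound for the pressure with a finite partial sum. -/
theorem le_Pr_partial {c : ℕ → ℝ} (hc : Adm c) (μ : ℝ) (J : ℕ) :
    μ - Real.log 8 + (∑ j ∈ Finset.range J, c j) / 256 ≤ Pr c μ := by
  refine le_Pr_of_pow hc μ ?_
  filter_upwards [eventually_ge_atTop ((J + 3) ^ 2)] with i hi
  classical
  set m : ℕ := 2 ^ i with hm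
  set T := (Qm m).toList with hT
  have hTnd : T.Nodup := Finset.nodup_toList _
  have hTlen : T.length = m ^ 3 := by
    rw [hT, Finset.length_toList, card_Qm]
  set S := ∑ j ∈ Finset.range J, c j with hS
  set N : ℝ := (m : ℝ) ^ 3 with hN
  have hWlow : ∀ l, List.Forall₂ (fun x C => x ∈ C) l (T.map cen) →
      ENNReal.ofReal (Real.exp (μ * N + N / 256 * S)) ≤ W c μ l := by
    intro l hl
    refine ENNReal.ofReal_le_ofReal (Real.exp_le_exp.2 ?_)
    have hlen : (l.length : ℝ) = N := by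
      have := hl.length_eq
      rw [List.length_map, hTlen] at this
      rw [this, hN]
      push_cast
      rfl
    have hlL : ∀ x ∈ l, x ∈ Lam (2 ^ i) := by
      intro x hx
      obtain ⟨q, hq, hxq⟩ := forall2_mem hl x hx
      exact cen_subset_Lam ((Finset.mem_toList).1 hq) hxq
    have hE : N / 256 * S ≤ En (AP c) l := by
      have hsum := hasSum_En_AP hc.1 l
      have h1 : ∑ j ∈ Finset.range J, c j * En (kacP (Rn j)) l ≤ En (AP c) l :=
        sum_le_hasSum _ (fun j _ => mul_nonneg (hc.2 j) (En_kacP_nonneg _ (Rn_pos j).le l)) hsum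
      refine le_trans ?_ h1
      rw [hS, Finset.mul_sum]
      refine Finset.sum_le_sum fun j hj => ?_
      have hjJ : j < J := Finset.mem_range.1 hj
      have hile : (j + 3) ^ 2 ≤ i := le_trans (Nat.pow_le_pow_left (by omega) 2) hi
      have h2 := En_kacP_Rn_ge hile hlL (by
        rw [hlen, hN, hm]
        push_cast
        rfl)
      rw [hlen] at h2
      calc N / 256 * c j = c j * (N / 256) := by ring
        _ ≤ _ := mul_le_mul_of_nonneg_left h2 (hc.2 j)
    simp only [Ham, En_PhiC, Tot_const, En_phisP_zero hTnd hl, hlen]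
    linarith
  have hmem : ∀ C ∈ T.map cen, MeasurableSet C := by
    intro C hC
    obtain ⟨q, _, rfl⟩ := List.mem_map.1 hC
    exact measurableSet_cen q
  have hpw : (T.map cen).Pairwise Disjoint := by
    rw [List.pairwise_map]
    refine hTnd.imp fun {a b} hne => ?_
    rw [Set.disjoint_left]
    intro x hx hx'
    have := norm_ge_of_cen hne hx hx'
    simp at this
    linarith
  have hmain := Xi_biUnion_ge_prod volume (T.map cen) hmem hpw (LM_W hc μ)
    (PI_WH_Ham (PhiC_symm c) _) _ hWlow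
  have hsub : (⋃ C ∈ T.map cen, C) ⊆ Lam m := by
    intro x hx
    simp only [mem_iUnion, exists_prop] at hx
    obtain ⟨C, hC, hxC⟩ := hx
    obtain ⟨q, hq, rfl⟩ := List.mem_map.1 hC
    exact cen_subset_Lam ((Finset.mem_toList).1 hq) hxC
  have hprod : ((T.map cen).map volume).prod = ENNReal.ofReal (1 / 8) ^ (m ^ 3) := by
    have : ∀ L : List (Fin 3 → ℤ), ((L.map cen).map volume).prod = ENNReal.ofReal (1 / 8) ^ L.length := by
      intro L
      induction L with
      | nil => simp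
      | cons a L ih =>
        simp only [List.map_cons, List.prod_cons, ih, volume_cen, List.length_cons, pow_succ']
    rw [this, hTlen]
  rw [hprod] at hmain
  refine le_trans (le_of_eq ?_) (hmain.trans (Xi_mono_set volume hsub _))
  rw [← ENNReal.ofReal_pow (by norm_num), ← ENNReal.ofReal_mul (Real.exp_pos _).le]
  congr 1
  have h8 : ((1 : ℝ) / 8) ^ (m ^ 3) = Real.exp (-(N * Real.log 8)) := by
    rw [Real.exp_neg, mul_comm, Real.exp_mul, Real.exp_log (by norm_num)]
    have : N = ((m ^ 3 : ℕ) : ℝ) := by rw [hN]; push_cast; rfl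
    rw [this, Real.rpow_natCast]
    simp
  rw [h8, ← Real.exp_add]
  congr 1
  ring

/-- The lower bound for the pressure. -/
theorem le_Pr_trial {c : ℕ → ℝ} (hc : Adm c) (μ : ℝ) :
    μ - Real.log 8 + (∑' j, c j) / 256 ≤ Pr c μ := by
  have hT := hc.1.hasSum.tendsto_sum_nat
  have hT2 : Tendsto (fun J : ℕ => μ - Real.log 8 + (∑ j ∈ Finset.range J, c j) / 256) atTop
      (𝓝 (μ - Real.log 8 + (∑' j, c j) / 256)) :=
    tendsto_const_nhds.add (hT.div_const 256)
  exact le_of_tendsto' hT2 (le_Pr_partial hc μ)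

end Vale.Agent.Lib.P171b
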