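import Vale.Agent.Lib.P171b.Pair

open MeasureTheory Set Filter Topology
open scoped ENNReal Nat

namespace Vale.Agent.Lib.P171b

variable {E : Type} [MeasurableSpace E]

theorem measurable_En {Φ : E → E → ℝ} (hΦ : Measurable (Function.uncurry Φ)) (n : ℕ) :
    Measurable (fun x : Fin n → E => En Φ (List.ofFn x)) := by
  induction n with
  | zero =>
    have : (fun x : Fin 0 → E => En Φ (List.ofFn x)) = fun _ => 0 := by
      funext x
      simp
    rw [this]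
    exact measurable_const
  | succ n ih =>
    have : (fun x : Fin (n + 1) → E => En Φ (List.ofFn x)) = fun x =>
        (∑ i : Fin n, Φ (x 0) (x i.succ)) + En Φ (List.ofFn fun i : Fin n => x i.succ) := by
      funext x
      rw [List.ofFn_succ, En_cons, List.map_ofFn, List.sum_ofFn]
      rfl
    rw [this]
    refine Measurable.add ?_ (ih.comp ?_)
    · refine Finset.measurable_sum _ fun i _ => ?_
      have h2 : Measurable (fun x : Fin (n + 1) → E => ((x 0, x i.succ) : E × E)) :=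
        (measurable_pi_apply 0).prodMk (measurable_pi_apply i.succ)
      exact hΦ.comp h2
    · exact measurable_pi_iff.2 fun i => measurable_pi_apply i.succ

theorem measurable_Tot {τ : E → ℝ} (hτ : Measurable τ) (n : ℕ) :
    Measurable (fun x : Fin n → E => Tot τ (List.ofFn x)) := by
  have : (fun x : Fin n → E => Tot τ (List.ofFn x)) = fun x => ∑ i, τ (x i) := by
    funext x
    simp [Tot, List.map_ofFn, List.sum_ofFn]
  rw [this]
  exact Finset.measurable_sum _ fun i _ => hτ.comp (measurable_pi_apply i)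

theorem measurable_Ham {Φ : E → E → ℝ} (hΦ : Measurable (Function.uncurry Φ)) {τ : E → ℝ}
    (hτ : Measurable τ) (n : ℕ) :
    Measurable (fun x : Fin n → E => Ham Φ τ (List.ofFn x)) :=
  (measurable_Tot hτ n).sub (measurable_En hΦ n)

theorem LM_WH {H : List E → ℝ} (hH : ∀ n, Measurable (fun x : Fin n → E => H (List.ofFn x))) :
    LM (WH H) := by
  intro n
  exact ENNReal.measurable_ofReal.comp (Real.measurable_exp.comp (hH n))

theorem LM_WH_Ham {Φ : E → E → ℝ} (hΦ : Measurable (Function.uncurry Φ)) {τ : E → ℝ}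
    (hτ : Measurable τ) : LM (WH (Ham Φ τ)) :=
  LM_WH (measurable_Ham hΦ hτ)

omit [MeasurableSpace E] in
theorem PI_WH_Ham {Φ : E → E → ℝ} (hΦs : ∀ x y, Φ x y = Φ y x) (τ : E → ℝ) :
    PI (WH (Ham Φ τ)) := by
  intro l l' h
  simp only [WH, Ham_perm hΦs τ h]

omit [MeasurableSpace E] in
@[simp] theorem WH_Ham_nil (Φ : E → E → ℝ) (τ : E → ℝ) : WH (Ham Φ τ) [] = 1 := by
  simp [WH, Ham]

omit [MeasurableSpace E] in
theorem WH_mul_le_of_nonpos {Φ : E → E → ℝ} (τ : E → ℝ) {u v : List E}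
    (h : ∀ x ∈ u, ∀ y ∈ v, Φ x y ≤ 0) :
    WH (Ham Φ τ) u * WH (Ham Φ τ) v ≤ WH (Ham Φ τ) (u ++ v) := by
  simp only [WH]
  rw [← ENNReal.ofReal_mul (Real.exp_pos _).le, ← Real.exp_add]
  refine ENNReal.ofReal_le_ofReal (Real.exp_le_exp.2 ?_)
  rw [Ham_append]
  linarith [Cross_nonpos h]

omit [MeasurableSpace E] in
theorem WH_le_mul_of_nonneg {Φ : E → E → ℝ} (τ : E → ℝ) {u v : List E}
    (h : ∀ x ∈ u, ∀ y ∈ v, 0 ≤ Φ x y) :
    WH (Ham Φ τ) (u ++ v) ≤ WH (Ham Φ τ) u * WH (Ham Φ τ) v := by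
  simp only [WH]
  rw [← ENNReal.ofReal_mul (Real.exp_pos _).le, ← Real.exp_add]
  refine ENNReal.ofReal_le_ofReal (Real.exp_le_exp.2 ?_)
  rw [Ham_append]
  linarith [Cross_nonneg h]

/-- Finite unions with non-positive interaction between blocks. -/
theorem Xi_biUnion_ge_Ham (ν : Measure E) [SFinite ν] {ι : Type} [DecidableEq ι] (T : Finset ι)
    (B : ι → Set E) (hB : ∀ k ∈ T, MeasurableSet (B k))
    (hd : ∀ k ∈ T, ∀ k' ∈ T, k ≠ k' → Disjoint (B k) (B k'))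
    {Φ : E → E → ℝ} (hΦ : Measurable (Function.uncurry Φ)) (hΦs : ∀ x y, Φ x y = Φ y x)
    {τ : E → ℝ} (hτ : Measurable τ)
    (h : ∀ k ∈ T, ∀ k' ∈ T, k' ≠ k → ∀ x ∈ B k', ∀ y ∈ B k, Φ x y ≤ 0) :
    ∏ k ∈ T, Xi ν (B k) (WH (Ham Φ τ)) ≤ Xi ν (⋃ k ∈ T, B k) (WH (Ham Φ τ)) := by
  refine Xi_biUnion_ge ν T B hB hd (LM_WH_Ham hΦ hτ) (PI_WH_Ham hΦs τ) (WH_Ham_nil Φ τ) ?_
  intro u v k hk hu hv
  refine WH_mul_le_of_nonpos τ fun x hx y hy => ?_
  obtain ⟨k', hk', hne, hxk⟩ := hu x hx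
  exact h k hk k' hk' hne x hxk y (hv y hy)

/-- Finite unions with non-negative interaction between blocks. -/
theorem Xi_biUnion_le_Ham (ν : Measure E) [SFinite ν] {ι : Type} [DecidableEq ι] (T : Finset ι)
    (B : ι → Set E) (hB : ∀ k ∈ T, MeasurableSet (B k))
    (hd : ∀ k ∈ T, ∀ k' ∈ T, k ≠ k' → Disjoint (B k) (B k'))
    {Φ : E → E → ℝ} (hΦ : Measurable (Function.uncurry Φ)) (hΦs : ∀ x y, Φ x y = Φ y x)
    {τ : E → ℝ} (hτ : Measurable τ)
    (h : ∀ k ∈ T, ∀ k' ∈ T, k' ≠ k → ∀ x ∈ B k', ∀ y ∈ B k, 0 ≤ Φ x y) :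
    Xi ν (⋃ k ∈ T, B k) (WH (Ham Φ τ)) ≤ ∏ k ∈ T, Xi ν (B k) (WH (Ham Φ τ)) := by
  refine Xi_biUnion_le ν T B hB hd (LM_WH_Ham hΦ hτ) (PI_WH_Ham hΦs τ) (WH_Ham_nil Φ τ) ?_
  intro u v k hk hu hv
  refine WH_le_mul_of_nonneg τ fun x hx y hy => ?_
  obtain ⟨k', hk', hne, hxk⟩ := hu x hx
  exact h k hk k' hk' hne x hxk y (hv y hy)

omit [MeasurableSpace E] in
theorem WH_rpow_mul (H₁ H₂ : List E → ℝ) (p q : ℝ) (l : List E) :
    WH H₁ l ^ p * WH H₂ l ^ q = WH (fun l => p * H₁ l + q * H₂ l) l := by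
  simp only [WH]
  rw [ENNReal.ofReal_rpow_of_pos (Real.exp_pos _), ENNReal.ofReal_rpow_of_pos (Real.exp_pos _),
    ← ENNReal.ofReal_mul (by positivity), ← Real.exp_mul, ← Real.exp_mul, ← Real.exp_add]
  congr 2
  ring

/-- Hoelder in Hamiltonian form. -/
theorem Xi_holder_WH (ν : Measure E) [SFinite ν] {S : Set E} (hS : MeasurableSet S) {p q : ℝ}
    (hp : 0 ≤ p) (hq : 0 ≤ q) (hpq : p + q = 1) {H H₁ H₂ : List E → ℝ}
    (hH₁ : LM (WH H₁)) (hH₂ : LM (WH H₂))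
    (h : ∀ l, (∀ x ∈ l, x ∈ S) → H l ≤ p * H₁ l + q * H₂ l) :
    Xi ν S (WH H) ≤ Xi ν S (WH H₁) ^ p * Xi ν S (WH H₂) ^ q := by
  refine le_trans ?_ (Xi_holder ν S hp hq hpq hH₁ hH₂)
  refine Xi_mono_mem ν hS fun l hl => ?_
  rw [WH_rpow_mul]
  exact ENNReal.ofReal_le_ofReal (Real.exp_le_exp.2 (h l hl))

omit [MeasurableSpace E] in
theorem WH_Tot_prod (g : E → ℝ) (l : List E) :
    WH (Tot g) l = (l.map (fun y => ENNReal.ofReal (Real.exp (g y)))).prod := by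
  induction l with
  | nil => simp [WH]
  | cons y l ih =>
    simp only [List.map_cons, List.prod_cons, ← ih, WH, Tot_cons]
    rw [Real.exp_add, ENNReal.ofReal_mul (Real.exp_pos _).le]

/-- Stability bound implies a bound on the grand sum. -/
theorem Xi_le_exp_of_stable (ν : Measure E) [SFinite ν] [NullSingletonClass ν]
    {S : Set E} (hS : MeasurableSet S) {H : List E → ℝ} {g : E → ℝ} (hg : Measurable g)
    (h : ∀ l, l.Nodup → (∀ x ∈ l, x ∈ S) → H l ≤ Tot g l) {V : ℝ} (hV : 0 ≤ V)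
    (hI : ∫⁻ y in S, ENNReal.ofReal (Real.exp (g y)) ∂ν ≤ ENNReal.ofReal V) :
    Xi ν S (WH H) ≤ ENNReal.ofReal (Real.exp V) := by
  refine Xi_le_exp_of_prod ν hS (g := fun y => ENNReal.ofReal (Real.exp (g y)))
    (ENNReal.measurable_ofReal.comp (Real.measurable_exp.comp hg)) ?_ hV hI
  intro l hl hlS
  rw [← WH_Tot_prod]
  exact ENNReal.ofReal_le_ofReal (Real.exp_le_exp.2 (h l hl hlS))

omit [MeasurableSpace E] in
theorem En_map (Φ : E → E → ℝ) (e : E → E) (l : List E) :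
    En Φ (l.map e) = En (fun x y => Φ (e x) (e y)) l := by
  induction l with
  | nil => simp
  | cons y l ih =>
    simp only [List.map_cons, En_cons, List.map_map, ih]
    rfl

omit [MeasurableSpace E] in
theorem Tot_map (τ : E → ℝ) (e : E → E) (l : List E) :
    Tot τ (l.map e) = Tot (fun x => τ (e x)) l := by
  simp [Tot, List.map_map, Function.comp_def]

/-- Translation of the region for a translation-invariant weight. -/
theorem Xi_WH_Ham_comp_equiv (ν : Measure E) (e : E ≃ᵐ E) (he : MeasurePreserving e ν ν) (S : Set E)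
    {Φ : E → E → ℝ} {τ : E → ℝ} (hΦ : ∀ x y, Φ (e x) (e y) = Φ x y) (hτ : ∀ x, τ (e x) = τ x) :
    Xi ν (e ⁻¹' S) (WH (Ham Φ τ)) = Xi ν S (WH (Ham Φ τ)) := by
  rw [← Xi_comp_equiv ν e he S]
  congr 1
  funext l
  simp only [WH, Ham, En_map, Tot_map, hΦ, hτ]

end Vale.Agent.Lib.P171b
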